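import Vale.Agent.P323.Res

/-! The action of the permutations of the atoms on structures. -/

namespace Vale.Agent.P323

open Set

theorem Fixes.inv {σ : G} {E : Set U} (h : Fixes σ E) : Fixes σ⁻¹ E := fun u a => by
  rw [Equiv.Perm.inv_eq_iff_eq, h u a]

theorem Fixes.image {σ : G} {E : Set U} (h : Fixes σ E) : σ '' E = E := by
  ext u; constructor
  · rintro ⟨v, a, rfl⟩; rwa [h v a]
  · intro a; exact ⟨u, a, h u a⟩

theorem mem_img {σ : G} {E : Set U} {u : U} : σ u ∈ σ '' E ↔ u ∈ E :=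
  σ.injective.mem_set_image

/-- an injective map on a small set extends to a permutation that moves the rest of a small set
out of a given small set -/
theorem exists_perm (A C Z : Set U) [Small.{0} A] [Small.{0} C] [Small.{0} Z] (f : U → U)
    (hf : InjOn f A) : ∃ σ : G, EqOn σ f A ∧ ∀ u, u ∈ C → u ∉ A → σ u ∉ Z := by
  classical
  obtain ⟨a, ha⟩ := Ordinal.bddAbove_of_small (s := Z ∪ f '' A)
  have hb : ∀ u, a + 1 + u ∉ Z ∪ f '' A := fun u h =>
    absurd ((le_self_add.trans (ha h))) (not_le.2 (lt_add_one a))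
  let g : (A ∪ C : Set U) ↪ U := ⟨fun u => if u.1 ∈ A then f u.1 else a + 1 + u.1, fun u v h => by
    refine Subtype.ext ?_
    simp only at h
    split_ifs at h with h1 h2 h2
    · exact hf h1 h2 h
    · exact absurd (Or.inr ⟨_, h1, h⟩) (hb v.1)
    · exact absurd (Or.inr ⟨_, h2, h.symm⟩) (hb u.1)
    · exact add_left_cancel h⟩
  obtain ⟨σ, hσ⟩ := Cardinal.extend_function_of_lt g (by
    have := (Cardinal.small_iff_lift_mk_lt_univ.{1, 0} (α := (A ∪ C : Set U))).1 inferInstance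
    rwa [Cardinal.lift_id, ← Cardinal.mk_ordinal] at this) ⟨Equiv.refl _⟩
  refine ⟨σ, fun u hu => (hσ ⟨u, Or.inl hu⟩).trans (if_pos hu), fun u hu hu' h => ?_⟩
  rw [(hσ ⟨u, Or.inr hu⟩).trans (if_neg hu')] at h
  exact hb u (Or.inl h)

namespace ActAux

theorem inv_app (σ : G) (u : U) : σ⁻¹ (σ u) = u := σ.symm_apply_apply u

theorem app_inv (σ : G) (u : U) : σ (σ⁻¹ u) = u := σ.apply_symm_apply u

theorem tsm_one (t : Tup) : t.sm 1 = t := rfl

theorem tsm_mul (σ τ : G) (t : Tup) : t.sm (σ * τ) = (t.sm τ).sm σ := rfl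

theorem tsm_inv (σ : G) (t : Tup) : (t.sm σ).sm σ⁻¹ = t := by
  rw [← tsm_mul, inv_mul_cancel, tsm_one]

theorem tsurj (σ : G) (t : Tup) : ∃ t' : Tup, t'.sm σ = t :=
  ⟨t.sm σ⁻¹, by rw [← tsm_mul, mul_inv_cancel, tsm_one]⟩

theorem wsm_one (w : Wa) : w.sm 1 = w := by cases w <;> rfl

theorem wsm_mul (σ τ : G) (w : Wa) : w.sm (σ * τ) = (w.sm τ).sm σ := by cases w <;> rfl

theorem wsm_inv (σ : G) (w : Wa) : (w.sm σ).sm σ⁻¹ = w := by
  rw [← wsm_mul, inv_mul_cancel, wsm_one]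

theorem wsurj (σ : G) (w : Wa) : ∃ w' : Wa, w'.sm σ = w :=
  ⟨w.sm σ⁻¹, by rw [← wsm_mul, mul_inv_cancel, wsm_one]⟩

theorem ssurj (σ : G) (L : Set U) : ∃ L', σ '' L' = L := image_surjective.2 σ.surjective L

variable {σ : G} {p q : Str}

theorem img_sub {L L' : Set U} : σ '' L ⊆ σ '' L' ↔ L ⊆ L' := image_subset_image_iff σ.injective

theorem img_inter {L L' : Set U} : σ '' L ∩ σ '' L' = σ '' (L ∩ L') :=
  (image_inter σ.injective).symm

theorem r_sm {t : Tup} {i u : U} : (t.sm σ).r i (σ u) ↔ t.r i u := by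
  simp only [Tup.sm, inv_app]

theorem ex_r {t : Tup} {i : U} {P : U → Prop} :
    (∃ v, (t.sm σ).r i v ∧ P v) ↔ ∃ v, t.r i v ∧ P (σ v) :=
  σ.surjective.exists.trans (by simp only [r_sm])

theorem pre_sm {t : Tup} {L : Set U} : (t.sm σ).pre (σ '' L) = t.pre L := by
  ext i
  simp only [Tup.pre, mem_ofPred_eq, exists_mem_image, r_sm]

theorem agr_sm {t t' : Tup} : (t.sm σ).agr (t'.sm σ) = t.agr t' := by
  ext i
  simp only [Tup.agr, mem_ofPred_eq, ex_r, r_sm]

theorem in_sm {w : Wa} {e : Set U} : (w.sm σ).In (σ '' e) ↔ w.In e := by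
  cases w <;> simp only [Wa.sm, Wa.In, mem_img]

theorem head_sm {w : Wa} : (w.sm σ).head = σ w.head := by cases w <;> rfl

theorem car_sm : (p.sm σ).car = σ '' p.car := rfl

theorem ri_sm : (p.sm σ).ri = σ '' p.ri := rfl

theorem ma_sm : (p.sm σ).ma = σ '' p.ma := rfl

theorem fa_sm {k : Code} {t : Tup} : (p.sm σ).fa k (t.sm σ) ↔ p.fa k t := by
  simp only [Str.sm, tsm_inv]

theorem tag_sm {w : Wa} {u : U} : (p.sm σ).tag (w.sm σ) (σ u) ↔ p.tag w u := by
  simp only [Str.sm, wsm_inv, inv_app]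

theorem tagg_sm {k : Code} {v u : U} : (p.sm σ).tag (.g k (σ v)) (σ u) ↔ p.tag (.g k v) u :=
  tag_sm (w := .g k v)

theorem tagc_sm {φ s u : U} : (p.sm σ).tag (.c (σ φ) (σ s)) (σ u) ↔ p.tag (.c φ s) u :=
  tag_sm (w := .c φ s)

theorem all_t (σ : G) {P : Tup → Prop} : (∀ t, P t) ↔ ∀ t : Tup, P (t.sm σ) :=
  Function.Surjective.forall (tsurj σ)

theorem ex_t (σ : G) {P : Tup → Prop} : (∃ t, P t) ↔ ∃ t : Tup, P (t.sm σ) :=
  Function.Surjective.exists (tsurj σ)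

theorem all_s (σ : G) {P : Set U → Prop} : (∀ L, P L) ↔ ∀ L, P (σ '' L) :=
  Function.Surjective.forall (ssurj σ)

theorem all_w (σ : G) {P : Wa → Prop} : (∀ w, P w) ↔ ∀ w : Wa, P (w.sm σ) :=
  Function.Surjective.forall (wsurj σ)

theorem act_sm {k : Code} {v : U} : (p.sm σ).act k (σ v) ↔ p.act k v := by
  rw [Str.act, ex_t σ]
  simp only [fa_sm, r_sm, Str.act]

theorem own_sm {w : Wa} {t : U} : (p.sm σ).own (w.sm σ) (σ t) ↔ p.own w t := by
  simp only [Str.own, tag_sm, act_sm]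
  cases w <;> simp [Wa.sm]

theorem owng_sm {k : Code} {v t : U} : (p.sm σ).own (.g k (σ v)) (σ t) ↔ p.own (.g k v) t :=
  own_sm (w := .g k v)

theorem leak_sm {k : Code} {t : Tup} {L : Set U} :
    (p.sm σ).leak k (t.sm σ) (σ '' L) = p.leak k t L := by
  ext i
  simp only [Str.leak, mem_ofPred_eq, ex_r, exists_mem_image, mem_img, tagg_sm]

end ActAux
open ActAux

namespace Str

variable {p q r : Str}

theorem sm_one (p : Str) : p.sm 1 = p := by
  ext1 <;> simp [sm, tsm_one, wsm_one]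

theorem sm_mul (σ τ : G) (p : Str) : p.sm (σ * τ) = (p.sm τ).sm σ := by
  ext1 <;> simp [sm, tsm_mul, wsm_mul, image_image]

theorem flat_sm (σ : G) {L : Set U} : (p.sm σ).Flat (σ '' L) ↔ p.Flat L := by
  simp only [Flat, car_sm, img_sub]
  refine and_congr_right fun _ => forall_congr' fun k => ?_
  rw [all_t σ]
  simp only [fa_sm, pre_sm]

theorem dcl_sm (σ : G) (I : Set U) : (p.sm σ).dcl (σ '' I) = σ '' p.dcl I := by
  ext u
  obtain ⟨u, rfl⟩ := σ.surjective u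
  simp only [dcl, mem_img, mem_ofPred_eq]
  rw [all_s σ]
  simp only [flat_sm, img_sub, mem_img]

theorem B_sm (σ : G) (ψ : U) : (p.sm σ).B (σ ψ) = σ '' p.B ψ := by
  simp only [sm, inv_app]

theorem pi_sm (σ : G) {φ s u : U} : (p.sm σ).Pi (σ φ) (σ s) (σ u) ↔ p.Pi φ s u := by
  rw [Pi, ex_t σ]
  simp only [fa_sm, r_sm, Pi]

theorem lab_sm (σ : G) {u o : U} {b : Bool} : (p.sm σ).lab (σ u) o b ↔ p.lab u o b := by
  simp only [sm, inv_app]

theorem iu_sm (σ : G) {u t : U} : IU (p.sm σ) (q.sm σ) (σ u) (σ t) ↔ IU p q u t := by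
  rw [IU, all_s σ, σ.surjective.forall]
  simp only [flat_sm, dcl_sm, mem_img, ri_sm, B_sm, σ.injective.eq_iff, IU]

theorem under_sm (σ : G) (t : U) : Under (p.sm σ) (q.sm σ) (σ t) = σ '' Under p q t := by
  ext u
  obtain ⟨u, rfl⟩ := σ.surjective u
  simp only [Under, mem_img, mem_ofPred_eq, car_sm, iu_sm]
  rw [all_w σ]
  simp only [own_sm, tag_sm]

theorem neu_sm (σ : G) {t ρ : U} : Neu (q.sm σ) (σ t) (σ ρ) ↔ Neu q t ρ := by
  rw [Neu, all_s σ]
  refine forall_congr' fun L => ?_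
  rw [σ.surjective.forall₂]
  simp only [flat_sm, mem_img, tagc_sm]

theorem Valid.sm (hp : p.Valid) (σ : G) : (p.sm σ).Valid where
  small_car := by have := hp.small_car; exact small_image σ p.car
  small_fa := by
    have := hp.small_fa
    refine small_subset (s := {o : U | ∃ k t, p.fa k t ∧ k.ix = o}) ?_
    rintro o ⟨k, t, a, b⟩; exact ⟨k, _, a, b⟩
  small_lab := by
    have := hp.small_lab
    refine small_subset (s := {o : U | ∃ u b, p.lab u o b}) ?_
    rintro o ⟨u, b, a⟩; exact ⟨_, b, a⟩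
  fa_car k t i u := by
    obtain ⟨t, rfl⟩ := tsurj σ t
    obtain ⟨u, rfl⟩ := σ.surjective u
    simpa only [fa_sm, r_sm, car_sm, mem_img] using hp.fa_car k t i u
  ri_car := image_mono hp.ri_car
  ma_car := image_mono hp.ma_car
  B_ri ψ u := by
    obtain ⟨ψ, rfl⟩ := σ.surjective ψ
    obtain ⟨u, rfl⟩ := σ.surjective u
    simpa only [B_sm, ri_sm, mem_img] using hp.B_ri ψ u
  tag_car w u := by
    obtain ⟨w, rfl⟩ := wsurj σ w
    obtain ⟨u, rfl⟩ := σ.surjective u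
    simpa only [tag_sm, car_sm, mem_img, in_sm] using hp.tag_car w u
  tag_act k v u := by
    obtain ⟨v, rfl⟩ := σ.surjective v
    obtain ⟨u, rfl⟩ := σ.surjective u
    simpa only [tagg_sm, act_sm] using hp.tag_act k v u
  lab_car u := by
    obtain ⟨u, rfl⟩ := σ.surjective u
    simpa only [lab_sm, car_sm, mem_img] using hp.lab_car u
  agr k t t' := by
    obtain ⟨t, rfl⟩ := tsurj σ t
    obtain ⟨t', rfl⟩ := tsurj σ t'
    simpa only [fa_sm, agr_sm] using hp.agr k t t'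
  B_flat ψ := by
    obtain ⟨ψ, rfl⟩ := σ.surjective ψ
    simpa only [B_sm, ri_sm, mem_img, flat_sm] using hp.B_flat ψ
  B_irr ψ := by
    obtain ⟨ψ, rfl⟩ := σ.surjective ψ
    simpa only [B_sm, mem_img] using hp.B_irr ψ
  B_dcl ψ L := by
    obtain ⟨L, rfl⟩ := ssurj σ L
    obtain ⟨ψ, rfl⟩ := σ.surjective ψ
    simpa only [B_sm, mem_img, flat_sm, img_sub] using hp.B_dcl ψ L
  germ k t L := by
    obtain ⟨L, rfl⟩ := ssurj σ L
    obtain ⟨t, rfl⟩ := tsurj σ t
    simpa only [fa_sm, flat_sm, leak_sm] using hp.germ k t L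
  cone φ s u L := by
    obtain ⟨L, rfl⟩ := ssurj σ L
    obtain ⟨φ, rfl⟩ := σ.surjective φ
    obtain ⟨s, rfl⟩ := σ.surjective s
    obtain ⟨u, rfl⟩ := σ.surjective u
    simpa only [tagc_sm, flat_sm, mem_img] using hp.cone φ s u L
  own_null ψ k t := by
    obtain ⟨t, rfl⟩ := tsurj σ t
    obtain ⟨ψ, rfl⟩ := σ.surjective ψ
    simpa only [fa_sm, ri_sm, mem_img, ex_r, owng_sm] using hp.own_null ψ k t
  head_B ψ w := by
    obtain ⟨w, rfl⟩ := wsurj σ w
    obtain ⟨ψ, rfl⟩ := σ.surjective ψ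
    simpa only [tag_sm, head_sm, B_sm, mem_img] using hp.head_B ψ w
  ma_eq u v := by
    obtain ⟨u, rfl⟩ := σ.surjective u
    obtain ⟨v, rfl⟩ := σ.surjective v
    rw [all_s σ]
    simpa only [ma_sm, mem_img, flat_sm, σ.injective.eq_iff] using hp.ma_eq u v
  lab_con u o := hp.lab_con _ o

theorem Le.sm (h : Le p q) (σ : G) : Le (p.sm σ) (q.sm σ) where
  car := image_mono h.car
  fa k t := by
    obtain ⟨t, rfl⟩ := tsurj σ t
    intro a
    obtain ⟨t', b, c⟩ := h.fa k t (fa_sm.1 a)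
    exact ⟨t'.sm σ, fa_sm.2 b, fun i u => c i _⟩
  ri u := by
    obtain ⟨u, rfl⟩ := σ.surjective u
    simpa only [car_sm, ri_sm, mem_img] using h.ri u
  ma u := by
    obtain ⟨u, rfl⟩ := σ.surjective u
    simpa only [car_sm, ma_sm, mem_img] using h.ma u
  B ψ u := by
    obtain ⟨ψ, rfl⟩ := σ.surjective ψ
    obtain ⟨u, rfl⟩ := σ.surjective u
    simpa only [car_sm, ri_sm, B_sm, mem_img] using h.B ψ u
  tag w u := h.tag _ _
  frozen k v u := by
    obtain ⟨v, rfl⟩ := σ.surjective v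
    obtain ⟨u, rfl⟩ := σ.surjective u
    simpa only [car_sm, act_sm, tagg_sm, mem_img] using h.frozen k v u
  lab u o b := h.lab _ o b
  cov k t' E := by
    obtain ⟨t', rfl⟩ := tsurj σ t'
    rw [all_t σ]
    simpa only [fa_sm, ex_r, act_sm, agr_sm] using h.cov k t' E
  hull I := by
    obtain ⟨I, rfl⟩ := ssurj σ I
    simpa only [flat_sm, dcl_sm] using h.hull I
  trace I := by
    obtain ⟨I, rfl⟩ := ssurj σ I
    simpa only [flat_sm, dcl_sm, car_sm, img_inter, img_sub] using h.trace I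
  tight I L L' := by
    obtain ⟨I, rfl⟩ := ssurj σ I
    obtain ⟨L, rfl⟩ := ssurj σ L
    obtain ⟨L', rfl⟩ := ssurj σ L'
    rw [σ.surjective.forall]
    simpa only [flat_sm, dcl_sm, ri_sm, under_sm, img_inter, img_sub, mem_img] using h.tight I L L'
  rich I ρ := by
    obtain ⟨I, rfl⟩ := ssurj σ I
    obtain ⟨ρ, rfl⟩ := σ.surjective ρ
    rw [σ.surjective.exists]
    simpa only [flat_sm, dcl_sm, ri_sm, car_sm, under_sm, neu_sm, mem_img] using h.rich I ρ
  tagI k v I u := by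
    obtain ⟨I, rfl⟩ := ssurj σ I
    obtain ⟨v, rfl⟩ := σ.surjective v
    obtain ⟨u, rfl⟩ := σ.surjective u
    rw [σ.surjective.exists]
    simpa only [flat_sm, dcl_sm, act_sm, car_sm, tagg_sm, owng_sm, mem_img] using h.tagI k v I u
  tagB k v ψ u := by
    obtain ⟨ψ, rfl⟩ := σ.surjective ψ
    obtain ⟨v, rfl⟩ := σ.surjective v
    obtain ⟨u, rfl⟩ := σ.surjective u
    rw [σ.surjective.exists]
    simpa only [B_sm, ri_sm, act_sm, car_sm, tagg_sm, owng_sm, mem_img, σ.injective.eq_iff] using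
      h.tagB k v ψ u

theorem sm_eq_self (hp : p.Valid) {σ : G} (h : Fixes σ p.car) : p.sm σ = p := by
  have im : ∀ L, L ⊆ p.car → σ '' L = L := fun L a => Fixes.image fun u x => h u (a x)
  have key : ∀ {τ : G}, Fixes τ p.car → (∀ u, τ u ∈ p.car → τ u = u) ∧
      (∀ k t, p.fa k t → t.sm τ = t) ∧ ∀ w : Wa, (w.sm τ).In p.car → w.sm τ = w := by
    intro τ hτ
    have a : ∀ u, τ u ∈ p.car → τ u = u := fun u x => τ.injective (hτ _ x)
    refine ⟨a, fun k t x => ?_, fun w x => ?_⟩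
    · ext i u
      constructor
      · intro y
        have := hτ _ (hp.fa_car k t i _ x y)
        rw [app_inv] at this
        rw [this]; exact y
      · intro y
        rw [← hτ u (hp.fa_car k t i u x y)]
        exact r_sm.2 y
    · cases w with
      | g k v => exact congrArg _ (a v x)
      | c φ s => exact congrArg₂ _ (a φ x.1) (a s x.2)
  obtain ⟨k1, k2, k3⟩ := key h
  obtain ⟨k4, k5, k6⟩ := key h.inv
  ext1
  · exact im _ Subset.rfl
  · funext k t
    refine propext ⟨fun a => ?_, fun a => ?_⟩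
    · have := k2 k _ a
      rw [← tsm_mul, mul_inv_cancel, tsm_one] at this
      rw [this]; exact a
    · change p.fa k (t.sm σ⁻¹)
      rw [k5 k t a]; exact a
  · exact im _ hp.ri_car
  · exact im _ hp.ma_car
  · funext ψ
    change σ '' p.B (σ⁻¹ ψ) = _
    rw [im _ fun u x => hp.B_car x]
    ext u
    refine ⟨fun a => ?_, fun a => ?_⟩
    · rwa [k4 ψ (hp.ri_car (hp.B_ri _ u a))] at a
    · rwa [h.inv ψ (hp.ri_car (hp.B_ri _ u a))]
  · funext w u
    refine propext ⟨fun a : p.tag (w.sm σ⁻¹) (σ⁻¹ u) => ?_, fun a => ?_⟩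
    · rwa [k6 w (hp.tag_car _ _ a).2, k4 u (hp.tag_car _ _ a).1] at a
    · have b := tag_sm (σ := σ) |>.2 a
      obtain ⟨c, d⟩ := hp.tag_car _ _ a
      rwa [h u c, k3 w (by rw [← im _ Subset.rfl]; exact in_sm.2 d)] at b
  · funext u o b
    refine propext ⟨fun a : p.lab (σ⁻¹ u) o b => ?_, fun a => ?_⟩
    · rwa [k4 u (hp.lab_car _ _ _ a)] at a
    · change p.lab (σ⁻¹ u) o b
      rwa [h.inv u (hp.lab_car _ _ _ a)]

theorem sm_congr (hp : p.Valid) {σ τ : G} (h : EqOn σ τ p.car) : p.sm σ = p.sm τ := by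
  have := sm_eq_self hp (σ := τ⁻¹ * σ) fun u x => by
    rw [Equiv.Perm.mul_apply, h x, inv_app]
  rw [← mul_inv_cancel_left τ σ, sm_mul, this]

theorem sm_res (p : Str) (e : Set U) (σ : G) : (p.res e).sm σ = (p.sm σ).res (σ '' e) := by
  have tr : ∀ t : Tup, (t.sm σ).res (σ '' e) = (t.res e).sm σ := fun t => by
    ext i u
    obtain ⟨u, rfl⟩ := σ.surjective u
    rw [r_sm]
    simp only [Tup.res, r_sm, mem_img]
  ext1
  · rfl
  · funext k t
    obtain ⟨t, rfl⟩ := tsurj σ t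
    rw [fa_sm]
    simp only [res]
    rw [ex_t σ (P := fun t0 => (p.sm σ).fa k t0 ∧ _)]
    simp only [fa_sm, tr]
    refine propext (exists_congr fun t0 => and_congr_right fun _ => ⟨congrArg _, fun a => ?_⟩)
    rw [← tsm_inv σ t, a, tsm_inv]
  · exact img_inter.symm
  · exact img_inter.symm
  · funext ψ
    obtain ⟨ψ, rfl⟩ := σ.surjective ψ
    ext u
    obtain ⟨u, rfl⟩ := σ.surjective u
    rw [B_sm, mem_img]
    simp only [res, mem_ofPred_eq, B_sm, mem_img]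
  · funext w u
    obtain ⟨w, rfl⟩ := wsurj σ w
    obtain ⟨u, rfl⟩ := σ.surjective u
    rw [tag_sm]
    simp only [res, tag_sm, in_sm, mem_img]
  · funext u o b
    obtain ⟨u, rfl⟩ := σ.surjective u
    rw [lab_sm]
    simp only [res, lab_sm, mem_img]

/-- equalizers are flat -/
theorem flat_eq (hq : q.Valid) (hr : r.Valid) {σ τ : G} (h : Le0 (q.sm σ) r)
    (h' : Le0 (q.sm τ) r) : q.Flat {u | u ∈ q.car ∧ σ u = τ u} := by
  refine ⟨fun u x => x.1, fun k t a => ?_⟩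
  obtain ⟨t1, a1, b1⟩ := h.fa k _ (fa_sm.2 a)
  obtain ⟨t2, a2, b2⟩ := h'.fa k _ (fa_sm.2 a)
  have e : t.pre {u | u ∈ q.car ∧ σ u = τ u} = t1.agr t2 ∩ t.pre q.car := by
    ext i; constructor
    · rintro ⟨u, ⟨x, y⟩, z⟩
      exact ⟨⟨σ u, b1 i _ (r_sm.2 z), y ▸ b2 i _ (r_sm.2 z)⟩, u, x, z⟩
    · rintro ⟨⟨v, x, y⟩, u, z, z'⟩
      exact ⟨u, ⟨z, (t1.fn i _ _ (b1 i _ (r_sm.2 z')) x).trans
        (t2.fn i _ _ y (b2 i _ (r_sm.2 z')))⟩, z'⟩
  rw [e]
  exact k.A_inter _ _ (hr.agr k t1 t2 a1 a2) (hq.flat_car.2 k t a)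

end Str

end Vale.Agent.P323
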