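import Vale.Agent.P323.Glue

/-! Amalgamation over a flat. -/

namespace Vale.Agent.P323

open Set

namespace Str

structure AmSpec (q : Str) (e : Set U) (d r : Str) : Prop where
  car : r.car = q.car ∪ d.car
  fa_q : ∀ k t, q.fa k t → r.fa k t
  fa_d : ∀ k t, d.fa k t → r.fa k t
  fa : ∀ k t, r.fa k t → q.fa k t ∨ d.fa k t ∨ ¬ d.Flat e
  ri : r.ri = q.ri ∪ d.ri
  ma : r.ma = q.ma ∪ d.ma
  lab : ∀ u o b, r.lab u o b ↔ q.lab u o b ∨ d.lab u o b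
  B_d : ∀ ψ, ψ ∈ d.car → r.B ψ = d.B ψ
  B_q : ∀ ψ, ψ ∈ q.ri → ψ ∉ e → r.B ψ = q.B ψ ∪ d.dcl (q.B ψ ∩ e)
  tag : ∀ w u, r.tag w u ↔ q.tag w u ∨ d.tag w u ∨ (w.head ∉ e ∧ u ∉ e ∧ u ∈ d.dcl e ∧
    ∃ t, t ∈ e ∧ q.tag w t ∧ IU (q.res e) d u t)
  flat_d : ∀ L, d.Flat L → r.Flat L
  flat_un : ∀ P Z, q.Flat P → d.Flat Z → d.dcl (P ∩ e) ⊆ Z → Z ∩ d.dcl e ⊆ d.dcl (P ∩ e) →
    r.Flat (P ∪ Z)

namespace AmX

def T3 (q : Str) (e : Set U) (d : Str) (w : Wa) (u : U) : Prop :=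
  w.head ∉ e ∧ u ∉ e ∧ u ∈ d.dcl e ∧ ∃ t, t ∈ e ∧ q.tag w t ∧ IU (q.res e) d u t

def A (q : Str) (e : Set U) (d : Str) : Set (Set U) :=
  {X | ∀ φ s u, T3 q e d (.c φ s) u → φ ∈ X → u ∈ X → s ∈ X}

def code (q : Str) (e : Set U) (d : Str) (o : U) : Code :=
  bigCode (A q e d) (fun _ _ a b φ s u x y z => ⟨a φ s u x y.1 z.1, b φ s u x y.2 z.2⟩) o

def X (q : Str) (e : Set U) (d : Str) (o : U) (k : Code) (t : Tup) : Prop :=
  ¬ d.Flat e ∧ k = code q e d o ∧ t = Tup.idOn (q.car ∪ d.car)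

def Bf (q : Str) (e : Set U) (d : Str) (ψ : U) : Set U :=
  {u | u ∈ d.B ψ ∨ (ψ ∉ e ∧ ψ ∈ q.ri ∧ (u ∈ q.B ψ ∨ u ∈ d.dcl (q.B ψ ∩ e)))}

def am (q : Str) (e : Set U) (d : Str) (o : U) : Str :=
  glue q d (X q e d o) (T3 q e d) (Bf q e d)

variable {q d : Str} {e : Set U} {o : U}

theorem hull_d (h : Span q e d) {I : Set U} (a : q.Flat I) : d.Flat (d.dcl (I ∩ e)) :=
  h.hle.hull _ (h.flat_p a)

theorem trace_d (h : Span q e d) {I : Set U} (a : q.Flat I) {u : U} (b : u ∈ d.dcl (I ∩ e))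
    (c : u ∈ q.car) : u ∈ I :=
  (h.hle.trace _ (h.flat_p a) ⟨b, h.mem c ((hull_d h a).1 b)⟩).1

theorem T_new (h : Span q e d) {w : Wa} {u : U} (a : T3 q e d w u) :
    u ∈ d.car ∧ u ∉ e ∧ w.In q.car ∧ w.head ∉ e := by
  obtain ⟨a1, a2, a3, t, _, a5, _⟩ := a
  exact ⟨h.hd.flat_car.dcl_subset h.e_d a3, a2, (h.hq.tag_car _ _ a5).2, a1⟩

theorem flat_am (h : Span q e d) {L : Set U} : (am q e d o).Flat L ↔
    L ⊆ q.car ∪ d.car ∧ q.Flat (L ∩ q.car) ∧ d.Flat (L ∩ d.car) ∧ L ∈ A q e d := by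
  unfold am
  rw [flat_glue h.hq h.hd]
  refine and_congr_right fun a => and_congr_right fun _ => and_congr_right fun _ => ⟨fun b => ?_, ?_⟩
  · by_cases c : d.Flat e
    · intro φ s u x
      exact absurd (c.dcl_subset Subset.rfl x.2.2.1) x.2.1
    · have := b _ _ ⟨c, rfl, rfl⟩
      rwa [Tup.pre_idOn, inter_eq_left.mpr a] at this
  · rintro b k t ⟨_, rfl, rfl⟩
    rw [Tup.pre_idOn, inter_eq_left.mpr a]; exact b

theorem flat_un (h : Span q e d) {P Z : Set U} (a : q.Flat P) (b : d.Flat Z)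
    (c : d.dcl (P ∩ e) ⊆ Z) (c' : Z ∩ d.dcl e ⊆ d.dcl (P ∩ e)) : (am q e d o).Flat (P ∪ Z) := by
  have zq : ∀ u, u ∈ Z → u ∈ q.car → u ∈ P := fun u x y =>
    trace_d h a (c' ⟨x, d.subset_dcl e (h.mem y (b.1 x))⟩) y
  have pd : ∀ u, u ∈ P → u ∈ d.car → u ∈ Z := fun u x y =>
    c (d.subset_dcl _ ⟨x, h.mem (a.1 x) y⟩)
  have e1 : (P ∪ Z) ∩ q.car = P :=
    Subset.antisymm (fun u x => x.1.elim id fun y => zq u y x.2) fun u x => ⟨Or.inl x, a.1 x⟩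
  have e2 : (P ∪ Z) ∩ d.car = Z :=
    Subset.antisymm (fun u x => x.1.elim (fun y => pd u y x.2) id) fun u x => ⟨Or.inr x, b.1 x⟩
  refine (flat_am h).mpr ⟨union_subset_union a.1 b.1, e1.symm ▸ a, e2.symm ▸ b, ?_⟩
  intro φ s u x y z
  have n := T_new h x
  obtain ⟨_, _, x3, t, _, x5, x6⟩ := x
  have y' : φ ∈ P := e1 ▸ (⟨y, n.2.2.1.1⟩ : φ ∈ (P ∪ Z) ∩ q.car)
  have z' : u ∈ Z := e2 ▸ (⟨z, n.1⟩ : u ∈ (P ∪ Z) ∩ d.car)
  exact Or.inl (h.hq.cone φ s t P a x5 y' (x6.1 _ (h.flat_p a) (c' ⟨z', x3⟩)).1)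

theorem flat_hull (h : Span q e d) {I : Set U} (a : q.Flat I) :
    (am q e d o).Flat (I ∪ d.dcl (I ∩ e)) :=
  flat_un h a (hull_d h a) Subset.rfl inter_subset_left

theorem sub_of_flat (h : Span q e d) {I L : Set U} (a : (am q e d o).Flat L) (b : I ⊆ L) :
    d.dcl (I ∩ e) ⊆ L :=
  (((flat_am h).mp a).2.2.1.dcl_subset fun _ x => ⟨b x.1, h.e_d x.2⟩).trans inter_subset_left

theorem dcl_am (h : Span q e d) {I : Set U} (a : q.Flat I) :
    (am q e d o).dcl I = I ∪ d.dcl (I ∩ e) :=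
  dcl_eq_of (flat_hull h a) subset_union_left fun _ x y => union_subset y (sub_of_flat h x y)

theorem Bf_d (h : Span q e d) {ψ : U} (a : ψ ∈ d.car) : Bf q e d ψ = d.B ψ :=
  Subset.antisymm (fun _ x => x.elim id fun y => absurd (h.mem (h.hq.ri_car y.2.1) a) y.1)
    fun _ x => Or.inl x

theorem Bf_q (h : Span q e d) {ψ : U} (a : ψ ∈ q.ri) (b : ψ ∉ e) :
    Bf q e d ψ = q.B ψ ∪ d.dcl (q.B ψ ∩ e) :=
  Subset.antisymm (fun u x => x.elim
    (fun y => absurd (h.mem (h.hq.ri_car a) (h.hd.ri_car (h.hd.B_ri ψ u y))) b) fun y => y.2.2)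
    fun _ x => Or.inr ⟨b, a, x⟩

theorem glue (h : Span q e d) (o1 : ∀ k t, q.fa k t → k.ix ≠ o) (o2 : ∀ k t, d.fa k t → k.ix ≠ o) :
    Glue q e d (X q e d o) (T3 q e d) (Bf q e d) where
  toSpan := h
  X_N := by rintro k t S ⟨_, rfl, _⟩; trivial
  X_car := by rintro k t i u ⟨_, _, rfl⟩ ⟨rfl, a⟩; exact a
  X_small := by
    have : Small.{0} ({o} : Set U) := small_subsingleton _
    refine small_subset (s := {o}) ?_
    rintro _ ⟨k, t, ⟨_, rfl, _⟩, rfl⟩; rfl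
  X_agr := by
    rintro k t t' ⟨_, rfl, rfl⟩ (a | a | ⟨_, _, rfl⟩)
    · exact absurd rfl (o1 _ _ a)
    · exact absurd rfl (o2 _ _ a)
    · rw [Tup.agr_idOn]
      exact fun φ s u x _ _ => Or.inl (T_new h x).2.2.1.2
  X_d := by
    rintro k t L ⟨_, rfl, rfl⟩ a φ s u x y _
    rw [Tup.pre_idOn] at y
    exact absurd (h.mem (T_new h x).2.2.1.1 (a.1 y.1)) x.1
  T_new w u a := T_new h a
  T_act k v u := fun ⟨_, _, _, t, _, a, _⟩ => h.hq.tag_act k v t a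
  T_null k t a := k.N_sub _ _ (h.hq.germ k t e a h.he)
    fun _ ⟨v, x, _, y, _, _, t, z, z', _⟩ => ⟨v, x, y, t, z, z'⟩
  T_cone φ s u L a := ((flat_am h).mp a).2.2.2 φ s u
  hull I a := ⟨_, flat_hull h a, Subset.antisymm
    (fun u x => x.1.elim id fun y => trace_d h a y x.2) fun u x => ⟨Or.inl x, a.1 x⟩⟩
  B_d ψ a := Bf_d h a
  B_q ψ u a b := by
    constructor
    · rintro (x | ⟨_, x, y | y⟩)
      · exact absurd (h.hd.ri_car (h.hd.B_ri ψ u x)) a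
      · exact y
      · exact trace_d h (h.hq.B_flat ψ x) y b
    · exact fun x => Or.inr ⟨fun y => a (h.e_d y), h.hq.B_ri ψ u x, Or.inl x⟩
  B_ri ψ u a b := b.elim (fun x => absurd (h.hd.ri_car (h.hd.B_ri ψ u x)) a) fun x => x.2.1
  B_flat ψ a b := by
    rw [Bf_q h b fun y => a (h.e_d y)]; exact flat_hull h (h.hq.B_flat ψ b)
  B_dcl ψ L a b c := by
    rintro u (x | ⟨_, x, y⟩)
    · exact absurd (h.hd.ri_car (h.hd.B_ri ψ u x)) a
    · have z : q.B ψ ⊆ L :=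
        (h.hq.B_dcl ψ _ ((flat_am h).mp b).2.1 ⟨c, h.hq.ri_car x⟩).trans inter_subset_left
      exact y.elim (fun m => z m) fun m => sub_of_flat h b z m

theorem new_mem (h : Span q e d) {I : Set U} (a : q.Flat I) {u : U} (b : u ∈ (am q e d o).dcl I)
    (c : u ∉ q.car) : u ∈ d.dcl (I ∩ e) := by
  rw [dcl_am h a] at b
  exact b.elim (fun x => absurd (a.1 x) c) id

theorem under (h : Span q e d) {t u : U} (ht : t ∈ e) (a : u ∈ Under (q.res e) d t)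
    (b : u ∈ d.dcl e) : u ∈ Under q (am q e d o) t := by
  obtain ⟨a1, a2, a3, a4⟩ := a
  have n : u ∉ q.car := fun x => a2 (h.mem x a1)
  refine ⟨Or.inr a1, n, fun w x => ?_, fun I x y => (a4.1 _ (h.flat_p x) (new_mem h x y n)).1,
    fun ψ x y => ?_⟩
  · by_cases m : w.head ∈ e
    · refine Or.inr (Or.inl (a3 w (own_res.mpr ⟨x, ?_, ht⟩)))
      rcases x with x | ⟨k, rfl, _⟩
      · exact h.hq.in_of_head h.he x m ht
      · exact ht
    · rcases x with x | ⟨k, rfl, _⟩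
      · exact Or.inr (Or.inr ⟨m, a2, b, t, ht, x, a4⟩)
      · exact absurd ht m
  · rcases y with y | ⟨_, _, y | y⟩
    · exact (a4.2 ψ ⟨x, h.mem (h.hq.ri_car x) (h.hd.ri_car (h.hd.B_ri ψ u y))⟩ y).imp_right
        fun z => z.2
    · exact absurd (h.hq.B_car y) n
    · exact Or.inr (a4.1 _ (h.flat_p (h.hq.B_flat ψ x)) y).1

theorem tagI (h : Span q e d) {k : Code} {v u : U} {I : Set U} (a : q.act k v) (b : q.Flat I)
    (c : u ∈ d.dcl (I ∩ e)) (n : u ∉ q.car) (x : (am q e d o).tag (.g k v) u) :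
    ∃ t, t ∈ I ∧ q.own (.g k v) t := by
  rcases x with x | x | ⟨_, _, _, t, _, x, y⟩
  · exact absurd (h.hq.tag_car _ _ x).1 n
  · obtain ⟨t, y, z⟩ := h.hle.tagI k v _ u (h.act_p a (h.hd.tag_car _ _ x).2) (h.flat_p b) c
      (fun m => n (h.he.1 m)) x
    exact ⟨t, y.1, (own_res.mp z).1⟩
  · exact ⟨t, (y.1 _ (h.flat_p b) c).1, Or.inl x⟩

theorem le_q (g : Glue q e d (X q e d o) (T3 q e d) (Bf q e d)) : Le q (am q e d o) where
  toLe0 := g.le0_q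
  hull I a := by rw [dcl_am g.toSpan a]; exact flat_hull g.toSpan a
  trace I a u x := by
    rw [dcl_am g.toSpan a] at x
    exact x.1.elim id fun y => trace_d g.toSpan a y x.2
  tight I L L' a b c c' f f' u x := by
    have h := g.toSpan
    rw [dcl_am h a] at x
    rcases x.2 with y | y
    · exact f ⟨x.1, y⟩
    · have he := h.hle.hull _ h.flat_e
      have s := h.hle.tight _ (L ∩ d.car ∩ d.dcl e) (L' ∩ d.car ∩ d.dcl e) (h.flat_p a)
        (((flat_am h).mp b).2.2.1.inter he) (((flat_am h).mp c).2.2.1.inter he)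
        (fun v z => ⟨⟨c' z.1.1, z.1.2⟩, z.2⟩) (fun v z => ⟨⟨f ⟨z.1.1.1, z.2.1⟩, z.1.1.2⟩, z.1.2⟩)
        fun t t1 t2 t3 v z => ⟨⟨f' t t1.1 t2.1
          (fun m => t3 ⟨⟨m, h.e_d t2.2⟩, d.subset_dcl e t2.2⟩)
          ⟨z.1.1.1, under h t2.2 z.2 z.1.2⟩, z.1.1.2⟩, z.1.2⟩
      exact (s ⟨⟨⟨x.1, (hull_d h a).1 y⟩, d.dcl_mono inter_subset_right y⟩, y⟩).1.1
  rich I ρ a b c n := by
    have h := g.toSpan
    have c' := new_mem h a c n
    obtain ⟨t, t1, t2, t3, t4⟩ := h.hle.rich _ ρ (h.flat_p a)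
      (b.elim (fun x => absurd (h.hq.ri_car x) n) id) c' fun m => n (h.he.1 m)
    exact ⟨t, t1.1, t2.1, under h t2.2 t3 (d.dcl_mono inter_subset_right c'),
      g.le_d.toLe0.neu h.hd (h.e_d t2.2) t4⟩
  tagI k v I u a b c n x := tagI g.toSpan a b (new_mem g.toSpan b c n) n x
  tagB k v ψ u a b c n x := by
    have h := g.toSpan
    rcases c with c | ⟨_, _, c | c⟩
    · have m : ψ ∈ (q.res e).ri := ⟨b, h.mem (h.hq.ri_car b) (h.hd.ri_car (h.hd.B_ri ψ u c))⟩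
      rcases x with x | x | ⟨_, _, _, t, _, x, y⟩
      · exact absurd (h.hq.tag_car _ _ x).1 n
      · obtain ⟨t, y, z⟩ := h.hle.tagB k v ψ u (h.act_p a (h.hd.tag_car _ _ x).2) m c
          (fun m => n (h.he.1 m)) x
        exact ⟨t, y.imp_right fun y => y.2, (own_res.mp z).1⟩
      · exact ⟨t, (y.2 ψ m c).imp_right fun y => y.2, Or.inl x⟩
    · exact absurd (h.hq.B_car c) n
    · obtain ⟨t, y, z⟩ := tagI h a (h.hq.B_flat ψ b) c n x
      exact ⟨t, Or.inr y, z⟩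

end AmX

theorem exists_am {q d : Str} {e : Set U} (hq : q.Valid) (hd : d.Valid) (he : q.Flat e)
    (hle : Le (q.res e) d) (hcap : q.car ∩ d.car ⊆ e) :
    ∃ r : Str, r.Valid ∧ Le q r ∧ Le d r ∧ AmSpec q e d r := by
  have h : Span q e d := ⟨hq, hd, he, hle, hcap⟩
  have := hd.small_fa
  obtain ⟨o, o1, _, o2⟩ := hq.exists_code {o : U | ∃ k t, d.fa k t ∧ k.ix = o}
  have g := AmX.glue h o2 fun k t a b => o1 ⟨k, t, a, b⟩
  exact ⟨AmX.am q e d o, g.valid, AmX.le_q g, g.le_d,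
    { car := rfl
      fa_q := fun k t a => Or.inl a
      fa_d := fun k t a => Or.inr (Or.inl a)
      fa := fun k t a => a.imp_right (Or.imp_right fun x => x.1)
      ri := rfl
      ma := rfl
      lab := fun _ _ _ => Iff.rfl
      B_d := fun ψ a => AmX.Bf_d h a
      B_q := fun ψ a b => AmX.Bf_q h a b
      tag := fun _ _ => Iff.rfl
      flat_d := fun L a => g.flat_d a
      flat_un := fun P Z a b c c' => AmX.flat_un h a b c c' }⟩

end Str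

end Vale.Agent.P323
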