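import Vale.Agent.P323.Defs

/-! Elementary facts about flats and the order. -/

namespace Vale.Agent.P323

open Set

theorem exists_fresh (S : Set U) [Small.{0} S] : ∃ o, o ∉ S := by
  by_contra h
  push Not at h
  have e : S = univ := eq_univ_of_forall h
  have : Small.{0} (univ : Set U) := e ▸ inferInstance
  exact not_small_ordinal.{0, 0} (small_univ_iff.mp this)

namespace Tup

theorem Sub.refl (t : Tup) : t.Sub t := fun _ _ h => h

theorem Sub.trans {a b c : Tup} (h : a.Sub b) (h' : b.Sub c) : a.Sub c :=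
  fun i u x => h' i u (h i u x)

theorem res_sub (t : Tup) (e : Set U) : (t.res e).Sub t := fun _ _ h => h.1

theorem pre_res (t : Tup) (e L : Set U) : (t.res e).pre L = t.pre (L ∩ e) := by
  ext i; constructor
  · rintro ⟨u, hu, h, he⟩; exact ⟨u, ⟨hu, he⟩, h⟩
  · rintro ⟨u, ⟨hu, he⟩, h⟩; exact ⟨u, hu, h, he⟩

theorem pre_inter (t : Tup) (L L' : Set U) : t.pre (L ∩ L') = t.pre L ∩ t.pre L' := by
  ext i; constructor
  · rintro ⟨u, ⟨a, b⟩, h⟩; exact ⟨⟨u, a, h⟩, u, b, h⟩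
  · rintro ⟨⟨u, a, h⟩, v, b, h'⟩
    obtain rfl := t.fn i u v h h'
    exact ⟨u, ⟨a, b⟩, h⟩

theorem pre_idOn (S L : Set U) : (idOn S).pre L = L ∩ S := by
  ext i; constructor
  · rintro ⟨u, a, rfl, b⟩; exact ⟨a, b⟩
  · rintro ⟨a, b⟩; exact ⟨i, a, rfl, b⟩

theorem agr_idOn (S : Set U) : (idOn S).agr (idOn S) = S := by
  ext i; constructor
  · rintro ⟨u, a, _⟩; exact a.2
  · intro a; exact ⟨i, ⟨rfl, a⟩, rfl, a⟩

theorem agr_comm (t t' : Tup) : t.agr t' = t'.agr t := by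
  ext i; constructor <;> rintro ⟨u, a, b⟩ <;> exact ⟨u, b, a⟩

/-- agreement with a subtuple -/
theorem Sub.agr {a b : Tup} (h : a.Sub b) (c : Tup) : a.agr c = b.agr c ∩ a.agr a := by
  ext i; constructor
  · rintro ⟨u, x, y⟩; exact ⟨⟨u, h i u x, y⟩, u, x, x⟩
  · rintro ⟨⟨u, x, y⟩, v, z, _⟩
    obtain rfl := b.fn i u v x (h i v z)
    exact ⟨u, z, y⟩

theorem Sub.pre {a b : Tup} (h : a.Sub b) (L : Set U) : a.pre L = b.pre L ∩ a.agr a := by
  ext i; constructor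
  · rintro ⟨u, x, y⟩; exact ⟨⟨u, x, h i u y⟩, u, y, y⟩
  · rintro ⟨⟨u, x, y⟩, v, z, _⟩
    obtain rfl := b.fn i u v y (h i v z)
    exact ⟨u, x, z⟩

end Tup

theorem Wa.In.head {w : Wa} {e : Set U} (h : w.In e) : w.head ∈ e := by
  cases w
  · exact h
  · exact h.1

theorem Wa.In.mono {w : Wa} {e e' : Set U} (h : w.In e) (h' : e ⊆ e') : w.In e' := by
  cases w
  · exact h' h
  · exact ⟨h' h.1, h' h.2⟩

namespace Str

variable {p q r : Str}

theorem Flat.inter {L L' : Set U} (h : p.Flat L) (h' : p.Flat L') : p.Flat (L ∩ L') :=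
  ⟨fun _ x => h.1 x.1, fun k t a => by
    rw [Tup.pre_inter]; exact k.A_inter _ _ (h.2 k t a) (h'.2 k t a)⟩

theorem Valid.flat_car (h : p.Valid) : p.Flat p.car :=
  ⟨Subset.rfl, fun k t a => by
    have e : t.pre p.car = t.agr t := by
      ext i; constructor
      · rintro ⟨u, _, x⟩; exact ⟨u, x, x⟩
      · rintro ⟨u, x, _⟩; exact ⟨u, h.fa_car k t i u a x, x⟩
    rw [e]; exact h.agr k t t a a⟩

theorem Valid.B_car (h : p.Valid) {ψ u : U} (hu : u ∈ p.B ψ) : u ∈ p.car :=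
  (h.B_flat ψ (h.B_ri ψ u hu)).1 hu

theorem Valid.act_car (h : p.Valid) {k : Code} {v : U} (a : p.act k v) : v ∈ p.car := by
  obtain ⟨t, i, x, y⟩ := a
  exact h.fa_car k t i v x y

theorem Valid.own_car (h : p.Valid) {w : Wa} {t : U} (a : p.own w t) : t ∈ p.car ∧ w.In p.car := by
  rcases a with a | ⟨k, rfl, a⟩
  · exact h.tag_car w t a
  · exact ⟨h.act_car a, h.act_car a⟩

theorem Valid.exists_code (h : p.Valid) (S : Set U) [Small.{0} S] :
    ∃ o, o ∉ S ∧ o ≠ 0 ∧ ∀ k t, p.fa k t → k.ix ≠ o := by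
  have := h.small_fa
  obtain ⟨o, ho⟩ := exists_fresh (insert 0 (S ∪ {o : U | ∃ k t, p.fa k t ∧ k.ix = o}))
  refine ⟨o, fun x => ho (Or.inr (Or.inl x)), fun x => ho (Or.inl x),
    fun k t a x => ho (Or.inr (Or.inr ⟨k, t, a, x⟩))⟩

theorem subset_dcl (p : Str) (I : Set U) : I ⊆ p.dcl I := fun _ h _ _ x => x h

theorem dcl_mono (p : Str) {I J : Set U} (h : I ⊆ J) : p.dcl I ⊆ p.dcl J :=
  fun _ x L a b => x L a (h.trans b)

theorem Flat.dcl_subset {L I : Set U} (h : p.Flat L) (h' : I ⊆ L) : p.dcl I ⊆ L :=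
  fun _ x => x L h h'

theorem Flat.dcl_eq {I : Set U} (h : p.Flat I) : p.dcl I = I :=
  (h.dcl_subset Subset.rfl).antisymm (p.subset_dcl I)

/-- a flat superset contained in every flat superset is the closure -/
theorem dcl_eq_of {I J : Set U} (h : p.Flat J) (h1 : I ⊆ J)
    (h2 : ∀ L, p.Flat L → I ⊆ L → J ⊆ L) : p.dcl I = J :=
  (h.dcl_subset h1).antisymm fun _ x L a b => h2 L a b x

theorem leak_inter (p : Str) (k : Code) (t : Tup) (L L' : Set U) :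
    p.leak k t (L ∩ L') ⊆ p.leak k t L ∪ p.leak k t L' := by
  rintro i ⟨v, a, b, u, c, d⟩
  by_cases h : v ∈ L
  · exact Or.inr ⟨v, a, fun x => b ⟨h, x⟩, u, c.2, d⟩
  · exact Or.inl ⟨v, a, h, u, c.1, d⟩

theorem Le0.flat_trace (hp : p.Valid) (h : Le0 p q) {L : Set U} (hL : q.Flat L) :
    p.Flat (L ∩ p.car) :=
  ⟨inter_subset_right, fun k t a => by
    obtain ⟨t', b, c⟩ := h.fa k t a
    have e : t.pre (L ∩ p.car) = t'.pre L ∩ t.agr t := by
      rw [← c.pre]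
      ext i; constructor
      · rintro ⟨u, x, y⟩; exact ⟨u, x.1, y⟩
      · rintro ⟨u, x, y⟩; exact ⟨u, ⟨x, hp.fa_car k t i u a y⟩, y⟩
    rw [e]
    exact k.A_inter _ _ (hL.2 k t' b) (hp.agr k t t a a)⟩

theorem Le0.act (h : Le0 p q) {k : Code} {v : U} (a : p.act k v) : q.act k v := by
  obtain ⟨t, i, x, y⟩ := a
  obtain ⟨t', b, c⟩ := h.fa k t x
  exact ⟨t', i, b, c i v y⟩

theorem Le0.own (h : Le0 p q) {w : Wa} {t : U} (a : p.own w t) : q.own w t := by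
  rcases a with a | ⟨k, rfl, a⟩
  · exact Or.inl (h.tag w t a)
  · exact Or.inr ⟨k, rfl, h.act a⟩

theorem Le0.own_back (h : Le0 p q) {k : Code} {v t : U} (ha : p.act k v) (ht : t ∈ p.car)
    (a : q.own (.g k v) t) : p.own (.g k v) t := by
  rcases a with a | ⟨k', e, _⟩
  · exact Or.inl (h.frozen k v t ha ht a)
  · cases e; exact Or.inr ⟨k, rfl, ha⟩

theorem Le0.B_mono (hp : p.Valid) (h : Le0 p q) {ψ u : U} (a : u ∈ p.B ψ) : u ∈ q.B ψ :=
  (h.B ψ u (hp.B_ri ψ u a) (hp.B_car a)).mpr a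

theorem Le0.ri_mono (hp : p.Valid) (h : Le0 p q) {u : U} (a : u ∈ p.ri) : u ∈ q.ri :=
  (h.ri u (hp.ri_car a)).mpr a

theorem Le0.ma_mono (hp : p.Valid) (h : Le0 p q) {u : U} (a : u ∈ p.ma) : u ∈ q.ma :=
  (h.ma u (hp.ma_car a)).mpr a

theorem Le0.pi (h : Le0 p q) {φ s u : U} (a : p.Pi φ s u) : q.Pi φ s u := by
  obtain ⟨t, x, a0, a1, a2⟩ := a
  obtain ⟨t', b, c⟩ := h.fa _ t x
  exact ⟨t', b, c _ _ a0, c _ _ a1, c _ _ a2⟩

theorem Valid.pi_fn (h : p.Valid) {φ s s' u : U} (a : p.Pi φ s u) (b : p.Pi φ s' u) : s = s' := by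
  obtain ⟨t, x, a0, a1, a2⟩ := a
  obtain ⟨t', y, b0, b1, b2⟩ := b
  obtain ⟨v, c, d⟩ := h.agr _ t t' x y ⟨φ, a0, b0⟩ ⟨u, a2, b2⟩
  exact (t.fn _ _ _ a1 c).trans (t'.fn _ _ _ d b1)

theorem Le0.dcl_mono (hp : p.Valid) (h : Le0 p q) {I : Set U} (hI : I ⊆ p.car) :
    p.dcl I ⊆ q.dcl I := fun _ x L a b =>
  (x _ (h.flat_trace hp a) (subset_inter b hI)).1

theorem Le0.dcl_dcl (hp : p.Valid) (h : Le0 p q) {I : Set U} (hI : I ⊆ p.car) :
    q.dcl (p.dcl I) = q.dcl I :=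
  Subset.antisymm (fun _ x L a b => x L a ((h.dcl_mono hp hI).trans (a.dcl_subset b)))
    (q.dcl_mono (p.subset_dcl I))

theorem Le0.neu (hp : p.Valid) (h : Le0 p q) {t ρ : U} (ht : t ∈ p.car) (a : Neu p t ρ) :
    Neu q t ρ := fun L x y z =>
  (a _ (h.flat_trace hp x) ⟨y, ht⟩ fun φ s b c =>
    ⟨z φ s (h.tag _ _ b) c.1, (hp.tag_car _ _ b).2.2⟩).1

theorem Le0.refl (p : Str) : Le0 p p where
  car := Subset.rfl
  fa _ t a := ⟨t, a, Tup.Sub.refl t⟩
  ri _ _ := Iff.rfl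
  ma _ _ := Iff.rfl
  B _ _ _ _ := Iff.rfl
  tag _ _ a := a
  frozen _ _ _ _ _ a := a
  lab _ _ _ a := a
  cov k t' E a b c := k.N_sub _ _ (c t' a) fun i hi => by
    obtain ⟨v, x, _⟩ := b i hi
    exact ⟨hi, v, x, x⟩

theorem Le0.trans (hp : p.Valid) (h : Le0 p q) (h' : Le0 q r) : Le0 p r where
  car := h.car.trans h'.car
  fa k t a := by
    obtain ⟨t', b, c⟩ := h.fa k t a
    obtain ⟨t'', d, e⟩ := h'.fa k t' b
    exact ⟨t'', d, c.trans e⟩
  ri u a := (h'.ri u (h.car a)).trans (h.ri u a)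
  ma u a := (h'.ma u (h.car a)).trans (h.ma u a)
  B ψ u a b := (h'.B ψ u (h.ri_mono hp a) (h.car b)).trans (h.B ψ u a b)
  tag w u a := h'.tag w u (h.tag w u a)
  frozen k v u a b c := h.frozen k v u a b (h'.frozen k v u (h.act a) (h.car b) c)
  lab u o b a := h'.lab u o b (h.lab u o b a)
  cov k t'' E a b c := by
    refine h'.cov k t'' E a (fun i hi => ?_) fun t' d => ?_
    · obtain ⟨v, x, y⟩ := b i hi
      exact ⟨v, x, h.act y⟩
    · refine h.cov k t' _ d (fun i hi => ?_) fun t e => k.N_sub _ _ (c t e) ?_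
      · obtain ⟨v, x, y⟩ := b i hi.1
        obtain ⟨u, z, z'⟩ := hi.2
        obtain rfl := t''.fn i _ _ x z'
        exact ⟨v, z, y⟩
      · rintro i ⟨⟨h1, u, z, z'⟩, v, x, y⟩
        obtain rfl := t'.fn i _ _ z y
        exact ⟨h1, u, x, z'⟩

/-- if all flats of `p` stay flat, the order is elementary -/
theorem le_of_flat (hp : p.Valid) (hq : q.Valid) (h : Le0 p q)
    (hf : ∀ L, p.Flat L → q.Flat L) : Le p q where
  toLe0 := h
  hull I a := by rw [(hf I a).dcl_eq]; exact hf I a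
  trace I a := by rw [(hf I a).dcl_eq]; exact inter_subset_left
  tight I L L' a _ _ _ b _ := by rw [(hf I a).dcl_eq]; exact b
  rich I ρ a _ b c := by rw [(hf I a).dcl_eq] at b; exact absurd (a.1 b) c
  tagI k v I u _ a b c _ := by rw [(hf I a).dcl_eq] at b; exact absurd (a.1 b) c
  tagB k v ψ u _ a b c _ :=
    absurd (hq.B_dcl ψ _ (hf _ hp.flat_car) (hp.ri_car a) b) c

theorem Le.refl (hp : p.Valid) : Le p p := le_of_flat hp hp (Le0.refl p) fun _ a => a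

theorem Le.dcl_inter (h : Le p q) {I : Set U} (hI : p.Flat I) : q.dcl I ∩ p.car = I :=
  (h.trace I hI).antisymm (subset_inter (q.subset_dcl I) hI.1)

theorem Le.dcl_trace (hq : q.Valid) (h : Le q r) {I : Set U} (hI : I ⊆ q.car)
    (hf : q.Flat (q.dcl I)) : r.dcl I ∩ q.car = q.dcl I := by
  rw [← h.toLe0.dcl_dcl hq hI]; exact h.dcl_inter hf

/-- equivalence of old atoms descends -/
theorem Le.equiv_back (h : Le p q) {u v : U} (hu : u ∈ p.car) (hv : v ∈ p.car)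
    (a : ∀ L, q.Flat L → (u ∈ L ↔ v ∈ L)) (L : Set U) (hL : p.Flat L) : u ∈ L ↔ v ∈ L := by
  have b := a _ (h.hull L hL)
  exact ⟨fun x => h.trace L hL ⟨b.mp (q.subset_dcl L x), hv⟩,
    fun x => h.trace L hL ⟨b.mpr (q.subset_dcl L x), hu⟩⟩

theorem Le.hull_inter (h : Le p q) {I J : Set U} (hI : p.Flat I) (hJ : p.Flat J) :
    q.dcl I ∩ q.dcl J ⊆ q.dcl (I ∩ J) := by
  have a := h.tight I (q.dcl I ∩ q.dcl J) (q.dcl (I ∩ J)) hI ((h.hull I hI).inter (h.hull J hJ))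
    (h.hull _ (hI.inter hJ))
    (subset_inter (q.dcl_mono inter_subset_left) (q.dcl_mono inter_subset_right))
    (fun u x => q.subset_dcl _ ⟨x.2, h.trace J hJ ⟨x.1.2, hI.1 x.2⟩⟩)
    (fun t _ b c u x => absurd
      ⟨q.subset_dcl _ b, q.subset_dcl _ (x.2.2.2.2.1 J hJ x.1.2)⟩ c)
  exact fun u x => a ⟨x, x.1⟩

theorem Le.B_hull (hp : p.Valid) (hq : q.Valid) (h : Le p q) {I : Set U} (hI : p.Flat I) {ψ : U}
    (hψ : ψ ∈ p.ri) (hn : ψ ∉ I) : q.B ψ ∩ q.dcl I ⊆ q.dcl (p.B ψ ∩ I) := by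
  have hB := hq.B_flat ψ (h.ri_mono hp hψ)
  have a := h.tight I (q.B ψ ∩ q.dcl I) (q.dcl (p.B ψ ∩ I)) hI (hB.inter (h.hull I hI))
    (h.hull _ ((hp.B_flat ψ hψ).inter hI))
    (subset_inter (hB.dcl_subset fun u x => h.B_mono hp x.1) (q.dcl_mono inter_subset_right))
    (fun u x => q.subset_dcl _ ⟨(h.B ψ u hψ (hI.1 x.2)).mp x.1.1, x.2⟩)
    (fun t _ b c u x => by
      rcases x.2.2.2.2.2 ψ hψ x.1.1 with rfl | d
      · exact absurd b hn
      · exact absurd ⟨h.B_mono hp d, q.subset_dcl _ b⟩ c)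
  exact fun u x => a ⟨x, x.2⟩

theorem under_left (hp : p.Valid) (hq : q.Valid) (h : Le p q) (h' : Le q r) (t : U) :
    Under p q t ⊆ Under p r t := by
  rintro u ⟨a, b, c, d, e⟩
  refine ⟨h'.car a, b, fun w x => h'.tag _ _ (c w x), fun I x y => d I x ?_,
    fun ψ x y => e ψ x ((h'.B ψ u (h.ri_mono hp x) a).mp y)⟩
  rw [← h'.dcl_trace hq (x.1.trans h.car) (h.hull I x)]
  exact ⟨y, a⟩

theorem under_old (hp : p.Valid) (hq : q.Valid) (h : Le p q) (h' : Le q r) {t : U}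
    (ht : t ∈ p.car) : Under q r t ⊆ Under p r t := by
  rintro u ⟨a, b, c, d, e⟩
  refine ⟨a, fun x => b (h.car x), fun w x => c w (h.own x), fun I x y => ?_, fun ψ x y => ?_⟩
  · rw [← h'.toLe0.dcl_dcl hq (x.1.trans h.car)] at y
    exact h.trace I x ⟨d _ (h.hull I x) y, ht⟩
  · exact (e ψ (h.ri_mono hp x) y).imp_right (h.B ψ t x ht).mp

theorem under_new (hp : p.Valid) (hq : q.Valid) (h : Le p q) (h' : Le q r) {t ρ : U}
    (hρ : ρ ∈ Under p q t) : Under q r ρ ⊆ Under p r t := by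
  rintro u ⟨a, b, c, d, e⟩
  obtain ⟨_, b', c', d', e'⟩ := hρ
  refine ⟨a, fun x => b (h.car x), fun w x => c w (Or.inl (c' w x)), fun I x y => ?_,
    fun ψ x y => ?_⟩
  · rw [← h'.toLe0.dcl_dcl hq (x.1.trans h.car)] at y
    exact d' I x (d _ (h.hull I x) y)
  · rcases e ψ (h.ri_mono hp x) y with rfl | z
    · exact absurd (hp.ri_car x) b'
    · exact e' ψ x z

theorem Le.trans (hp : p.Valid) (hq : q.Valid) (hr : r.Valid) (h : Le p q) (h' : Le q r) :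
    Le p r where
  toLe0 := h.toLe0.trans hp h'.toLe0
  hull I a := by
    rw [← h'.toLe0.dcl_dcl hq (a.1.trans h.car)]; exact h'.hull _ (h.hull I a)
  trace I a u x := by
    refine h.trace I a ⟨?_, x.2⟩
    rw [← h'.dcl_trace hq (a.1.trans h.car) (h.hull I a)]
    exact ⟨x.1, h.car x.2⟩
  tight I L L' a b c d e f := by
    have s1 : L ∩ q.car ∩ q.dcl I ⊆ L' ∩ q.car :=
      h.tight I _ _ a (h'.flat_trace hq b) (h'.flat_trace hq c)
        (inter_subset_inter_left _ d) (fun u x => ⟨e ⟨x.1.1, x.2⟩, x.1.2⟩)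
        fun t x y z u hu => ⟨f t x y (fun m => z ⟨m, h.car (a.1 y)⟩)
          ⟨hu.1.1, under_left hp hq h h' t hu.2⟩, hu.1.2⟩
    rw [← h'.toLe0.dcl_dcl hq (a.1.trans h.car)]
    refine h'.tight _ L L' (h.hull I a) b c d
      (fun u x => (s1 ⟨⟨x.1, (h.hull I a).1 x.2⟩, x.2⟩).1) fun ρ x y z u hu => ?_
    by_cases m : ρ ∈ p.car
    · exact f ρ ((h.ri ρ m).mp x) (h.trace I a ⟨y, m⟩) z ⟨hu.1, under_old hp hq h h' m hu.2⟩
    · obtain ⟨t, t1, t2, t3, t4⟩ := h.rich I ρ a x y m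
      by_cases n : t ∈ L
      · exact absurd (t4 _ (h'.flat_trace hq b) ⟨n, h.car (a.1 t2)⟩ fun φ s g1 g2 =>
          ⟨hr.cone φ s u L b (hu.2.2.2.1 _ (Or.inl g1)) g2.1 hu.1,
            (hq.tag_car _ _ g1).2.2⟩).1 z
      · exact f t t1 t2 n ⟨hu.1, under_new hp hq h h' t3 hu.2⟩
  rich I ρ' a b c d := by
    by_cases m : ρ' ∈ q.car
    · have c' : ρ' ∈ q.dcl I := by
        rw [← h'.dcl_trace hq (a.1.trans h.car) (h.hull I a)]; exact ⟨c, m⟩
      obtain ⟨t, t1, t2, t3, t4⟩ := h.rich I ρ' a ((h'.ri ρ' m).mp b) c' d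
      exact ⟨t, t1, t2, under_left hp hq h h' t t3, h'.neu hq (h.car (a.1 t2)) t4⟩
    · rw [← h'.toLe0.dcl_dcl hq (a.1.trans h.car)] at c
      obtain ⟨ρ, r1, r2, r3, r4⟩ := h'.rich _ ρ' (h.hull I a) b c m
      by_cases n : ρ ∈ p.car
      · exact ⟨ρ, (h.ri ρ n).mp r1, h.trace I a ⟨r2, n⟩, under_old hp hq h h' n r3, r4⟩
      · obtain ⟨t, t1, t2, t3, t4⟩ := h.rich I ρ a r1 r2 n
        refine ⟨t, t1, t2, under_new hp hq h h' t3 r3, fun L x y z => r4 L x ?_ z⟩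
        exact (t4 _ (h'.flat_trace hq x) ⟨y, h.car (a.1 t2)⟩ fun φ s g1 g2 =>
          ⟨z φ s (r3.2.2.1 _ (Or.inl g1)) g2.1, (hq.tag_car _ _ g1).2.2⟩).1
  tagI k v I u a b c d e := by
    by_cases m : u ∈ q.car
    · have c' : u ∈ q.dcl I := by
        rw [← h'.dcl_trace hq (b.1.trans h.car) (h.hull I b)]; exact ⟨c, m⟩
      exact h.tagI k v I u a b c' d (h'.frozen k v u (h.act a) m e)
    · rw [← h'.toLe0.dcl_dcl hq (b.1.trans h.car)] at c
      obtain ⟨t, t1, t2⟩ := h'.tagI k v _ u (h.act a) (h.hull I b) c m e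
      by_cases n : t ∈ p.car
      · exact ⟨t, h.trace I b ⟨t1, n⟩, h.own_back a n t2⟩
      · rcases t2 with t2 | ⟨k', e', _⟩
        · exact h.tagI k v I t a b t1 n t2
        · cases e'; exact absurd (hp.act_car a) n
  tagB k v ψ u a b c d e := by
    by_cases m : u ∈ q.car
    · exact h.tagB k v ψ u a b ((h'.B ψ u (h.ri_mono hp b) m).mp c) d
        (h'.frozen k v u (h.act a) m e)
    · obtain ⟨t, t1, t2⟩ := h'.tagB k v ψ u (h.act a) (h.ri_mono hp b) c m e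
      by_cases n : t ∈ p.car
      · exact ⟨t, t1.imp_right (h.B ψ t b n).mp, h.own_back a n t2⟩
      · rcases t1 with rfl | t1
        · exact absurd (hp.ri_car b) n
        · rcases t2 with t2 | ⟨k', e', _⟩
          · exact h.tagB k v ψ t a b t1 n t2
          · cases e'; exact absurd (hp.act_car a) n

end Str

end Vale.Agent.P323
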