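import Vale.Agent.P323.Basic

/-! Small chains have upper bounds. -/

namespace Vale.Agent.P323

open Set

namespace LimAux

open Str

/-- the plain union of a chain -/
def un (C : Set Str) : Str where
  car := {u | ∃ p, p ∈ C ∧ u ∈ p.car}
  fa k t := ∃ p, p ∈ C ∧ p.fa k t
  ri := {u | ∃ p, p ∈ C ∧ u ∈ p.ri}
  ma := {u | ∃ p, p ∈ C ∧ u ∈ p.ma}
  B ψ := {u | ∃ p, p ∈ C ∧ u ∈ p.B ψ}
  tag w u := ∃ p, p ∈ C ∧ p.tag w u
  lab u o b := ∃ p, p ∈ C ∧ p.lab u o b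

/-- the code of the big fact -/
def kb (C : Set Str) (o : U) : Code :=
  bigCode {X | ∀ k t, (un C).fa k t → (un C).leak k t X ∈ k.N}
    (fun X Y a b k t c => k.N_sub _ _ (k.N_union _ _ (a k t c) (b k t c)) (leak_inter _ k t X Y)) o

/-- the upper bound -/
def lm (C : Set Str) (o : U) : Str :=
  { un C with fa := fun k t => (un C).fa k t ∨ (k = kb C o ∧ t = .idOn (un C).car) }

structure Ch (C : Set Str) (o : U) : Prop where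
  v : ∀ p, p ∈ C → p.Valid
  c : ∀ p q, p ∈ C → q ∈ C → Le p q ∨ Le q p
  fr : ∀ p k t, p ∈ C → p.fa k t → k.ix ≠ o

variable {C : Set Str} {o : U} (h : Ch C o) {p q : Str}
include h

theorem Ch.dir (a : p ∈ C) (b : q ∈ C) : ∃ m, m ∈ C ∧ Le p m ∧ Le q m :=
  (h.c p q a b).elim (fun x => ⟨q, b, x, Le.refl (h.v q b)⟩) fun x => ⟨p, a, Le.refl (h.v p a), x⟩

theorem Ch.le0 (a : p ∈ C) : Le0 p (lm C o) where
  car _ x := ⟨p, a, x⟩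
  fa _ t x := ⟨t, .inl ⟨p, a, x⟩, Tup.Sub.refl t⟩
  ri u x := ⟨fun ⟨q, b, y⟩ => by
    obtain ⟨m, -, c, d⟩ := h.dir a b
    exact (c.ri u x).1 (d.ri_mono (h.v q b) y), fun y => ⟨p, a, y⟩⟩
  ma u x := ⟨fun ⟨q, b, y⟩ => by
    obtain ⟨m, -, c, d⟩ := h.dir a b
    exact (c.ma u x).1 (d.ma_mono (h.v q b) y), fun y => ⟨p, a, y⟩⟩
  B ψ u z x := ⟨fun ⟨q, b, y⟩ => by
    obtain ⟨m, -, c, d⟩ := h.dir a b
    exact (c.B ψ u z x).1 (d.B_mono (h.v q b) y), fun y => ⟨p, a, y⟩⟩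
  tag _ _ x := ⟨p, a, x⟩
  frozen k v u x y := fun ⟨q, b, z⟩ => by
    obtain ⟨m, -, c, d⟩ := h.dir a b
    exact c.frozen k v u x y (d.tag _ _ z)
  lab _ _ _ x := ⟨p, a, x⟩
  cov k t' E x y z := by
    rcases x with ⟨q, b, x⟩ | ⟨rfl, rfl⟩
    · rcases h.c p q a b with c | c
      · exact c.cov k t' E x y z
      · obtain ⟨s, s1, s2⟩ := c.fa k t' x
        refine k.N_sub _ _ (z s s1) fun i hi => ?_
        obtain ⟨v, w, -⟩ := y i hi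
        exact ⟨hi, v, s2 i v w, w⟩
    · trivial

theorem Ch.flat_of (a : p ∈ C) {J : Set U} (h1 : J ⊆ (un C).car)
    (h2 : ∀ m, m ∈ C → Le p m → m.Flat (J ∩ m.car) ∧
      ∀ k t, m.fa k t → (un C).leak k t J ∈ k.N) : (lm C o).Flat J := by
  refine ⟨h1, ?_⟩
  rintro k t (⟨q, b, x⟩ | ⟨rfl, rfl⟩)
  · obtain ⟨m, c, d, e⟩ := h.dir a b
    obtain ⟨s, s1, s2⟩ := e.fa k t x
    have e1 : s.pre J = s.pre (J ∩ m.car) := by
      ext i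
      exact ⟨fun ⟨u, y, z⟩ => ⟨u, ⟨y, (h.v m c).fa_car k s i u s1 z⟩, z⟩,
        fun ⟨u, y, z⟩ => ⟨u, y.1, z⟩⟩
    rw [s2.pre, e1]
    exact k.A_inter _ _ ((h2 m c d).1.2 k s s1) ((h.v q b).agr k t t x x)
  · rw [Tup.pre_idOn, inter_eq_left.2 h1]
    rintro k t ⟨q, b, x⟩
    obtain ⟨m, c, d, e⟩ := h.dir a b
    obtain ⟨s, s1, s2⟩ := e.fa k t x
    refine k.N_sub _ _ ((h2 m c d).2 k s s1) ?_
    rintro i ⟨v, y, z⟩
    exact ⟨v, s2 i v y, z⟩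

/-- the union of the hulls -/
def hl (C : Set Str) (p : Str) (I : Set U) : Set U := {u | ∃ m, m ∈ C ∧ Le p m ∧ u ∈ m.dcl I}

theorem Ch.hl_trace {I : Set U} (hI : p.Flat I) {m : Str} (c : m ∈ C) (d : Le p m) :
    hl C p I ∩ m.car = m.dcl I := by
  ext u
  refine ⟨?_, fun x => ⟨⟨m, c, d, x⟩, (d.hull I hI).1 x⟩⟩
  rintro ⟨⟨q, b, e, x⟩, y⟩
  rcases h.c q m b c with f | f
  · exact f.toLe0.dcl_mono (h.v q b) (hI.1.trans e.car) x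
  · rw [← f.dcl_trace (h.v m c) (hI.1.trans d.car) (d.hull I hI)]
    exact ⟨x, y⟩

theorem Ch.hl_flat (a : p ∈ C) {I : Set U} (hI : p.Flat I) : (lm C o).Flat (hl C p I) := by
  refine h.flat_of a (fun u ⟨m, c, d, x⟩ => ⟨m, c, (d.hull I hI).1 x⟩) fun m c d =>
    ⟨h.hl_trace hI c d ▸ d.hull I hI, fun k t x => ?_⟩
  refine k.N_sub _ _ ((h.v m c).germ k t _ x (d.hull I hI)) ?_
  rintro i ⟨v, y, z, u, w, q, b, g⟩
  have nv : v ∉ m.dcl I := fun e => z ⟨m, c, d, e⟩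
  refine ⟨v, y, nv, ?_⟩
  obtain ⟨n, n1, n2, n3⟩ := h.dir c b
  have ac : m.act k v := ⟨t, i, x, y⟩
  by_cases e : u ∈ m.car
  · exact ⟨u, h.hl_trace hI c d ▸ ⟨w, e⟩, n2.frozen k v u ac e (n3.tag _ _ g)⟩
  · have u1 : u ∈ n.dcl I := h.hl_trace hI n1 (d.trans (h.v p a) (h.v m c) (h.v n n1) n2) ▸
      ⟨w, n3.car ((h.v q b).tag_car _ _ g).1⟩
    rw [← n2.toLe0.dcl_dcl (h.v m c) (hI.1.trans d.car)] at u1
    obtain ⟨s, s1, s2 | ⟨_, s2, -⟩⟩ := n2.tagI k v _ u ac (d.hull I hI) u1 e (n3.tag _ _ g)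
    · exact ⟨s, s1, s2⟩
    · cases s2
      exact absurd s1 nv

theorem Ch.dcl_eq (a : p ∈ C) {I : Set U} (hI : p.Flat I) : (lm C o).dcl I = hl C p I :=
  dcl_eq_of (h.hl_flat a hI) (fun _ x => ⟨p, a, Le.refl (h.v p a), p.subset_dcl I x⟩)
    fun _ x y _ ⟨m, c, d, z⟩ =>
      x.dcl_subset y ((h.le0 c).dcl_mono (h.v m c) (hI.1.trans d.car) z)

theorem Ch.under (a : p ∈ C) (b : q ∈ C) (d : Le p q) (t : U) :
    Under p q t ⊆ Under p (lm C o) t := by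
  rintro u ⟨x, y, c, e, f⟩
  refine ⟨⟨q, b, x⟩, y, fun w z => ⟨q, b, c w z⟩, fun I z w => e I z ?_,
    fun ψ z w => f ψ z (((h.le0 b).B ψ u (d.ri_mono (h.v p a) z) x).1 w)⟩
  rw [h.dcl_eq a z] at w
  exact h.hl_trace z b d ▸ ⟨w, x⟩

theorem Ch.le (a : p ∈ C) : Le p (lm C o) where
  toLe0 := h.le0 a
  hull I x := h.dcl_eq a x ▸ h.hl_flat a x
  trace I x := by rw [h.dcl_eq a x, h.hl_trace x a (Le.refl (h.v p a)), x.dcl_eq]
  tight I L L' x y z s1 s2 s3 u w := by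
    rw [h.dcl_eq a x] at w
    obtain ⟨w, m, c, d, e⟩ := w
    exact (d.tight I _ _ x ((h.le0 c).flat_trace (h.v m c) y) ((h.le0 c).flat_trace (h.v m c) z)
      (inter_subset_inter_left _ s1) (fun u g => ⟨s2 ⟨g.1.1, g.2⟩, g.1.2⟩)
      (fun t t1 t2 t3 u g => ⟨s3 t t1 t2 (fun f => t3 ⟨f, d.car (x.1 t2)⟩)
        ⟨g.1.1, h.under a c d t g.2⟩, g.1.2⟩) ⟨⟨w, (d.hull I x).1 e⟩, e⟩).1
  rich I ρ x y z w := by
    rw [h.dcl_eq a x] at z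
    obtain ⟨m, c, d, e⟩ := z
    obtain ⟨t, t1, t2, t3, t4⟩ := d.rich I ρ x (((h.le0 c).ri ρ ((d.hull I x).1 e)).1 y) e w
    exact ⟨t, t1, t2, h.under a c d t t3, (h.le0 c).neu (h.v m c) (d.car (x.1 t2)) t4⟩
  tagI k v I u x y z w g := by
    rw [h.dcl_eq a y] at z
    obtain ⟨m, c, d, e⟩ := z
    exact d.tagI k v I u x y e w ((h.le0 c).frozen k v u (d.act x) ((d.hull I y).1 e) g)
  tagB k v ψ u x y := fun ⟨q, b, z⟩ w g => by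
    obtain ⟨m, c, d, e⟩ := h.dir a b
    have z' := e.B_mono (h.v q b) z
    exact d.tagB k v ψ u x y z' w ((h.le0 c).frozen k v u (d.act x) ((h.v m c).B_car z') g)

theorem Ch.B_flat (a : p ∈ C) {ψ : U} (hψ : ψ ∈ p.ri) : (lm C o).Flat ((lm C o).B ψ) := by
  have tr : ∀ m, m ∈ C → Le p m → (lm C o).B ψ ∩ m.car = m.B ψ := fun m c d => by
    ext u
    exact ⟨fun x => ((h.le0 c).B ψ u (d.ri_mono (h.v p a) hψ) x.2).1 x.1,
      fun x => ⟨⟨m, c, x⟩, (h.v m c).B_car x⟩⟩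
  refine h.flat_of a (fun u ⟨m, c, x⟩ => ⟨m, c, (h.v m c).B_car x⟩) fun m c d => ?_
  have r := d.ri_mono (h.v p a) hψ
  refine ⟨tr m c d ▸ (h.v m c).B_flat ψ r, fun k t x => ?_⟩
  refine k.N_sub _ _ (k.N_union _ _ ((h.v m c).germ k t _ x ((h.v m c).B_flat ψ r))
    ((h.v m c).own_null ψ k t r x)) ?_
  rintro i ⟨v, y, z, u, w, q, b, g⟩
  have nv : v ∉ m.B ψ := fun e => z ⟨m, c, e⟩
  obtain ⟨n, n1, n2, n3⟩ := h.dir c b
  have ac : m.act k v := ⟨t, i, x, y⟩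
  by_cases e : u ∈ m.car
  · exact .inl ⟨v, y, nv, u, tr m c d ▸ ⟨w, e⟩, n2.frozen k v u ac e (n3.tag _ _ g)⟩
  · have u1 : u ∈ n.B ψ := tr n n1 (d.trans (h.v p a) (h.v m c) (h.v n n1) n2) ▸
      ⟨w, n3.car ((h.v q b).tag_car _ _ g).1⟩
    obtain ⟨s, rfl | s1, s2⟩ := n2.tagB k v ψ u ac r u1 e (n3.tag _ _ g)
    · exact .inr ⟨v, y, s2⟩
    · rcases s2 with s2 | ⟨_, s2, -⟩
      · exact .inl ⟨v, y, nv, s, s1, s2⟩
      · cases s2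
        exact absurd s1 nv

omit h in
theorem small_un [Small.{0} C] (f : Str → Set U) (hf : ∀ p, p ∈ C → Small.{0} (f p)) :
    Small.{0} {u | ∃ p, p ∈ C ∧ u ∈ f p} := by
  have : ∀ p : C, Small.{0} (f p.1) := fun p => hf p.1 p.2
  refine small_subset (s := ⋃ p : C, f p.1) ?_
  rintro u ⟨p, a, b⟩
  exact mem_iUnion.2 ⟨⟨p, a⟩, b⟩

theorem Ch.valid [Small.{0} C] : (lm C o).Valid where
  small_car := small_un Str.car fun p a => (h.v p a).small_car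
  small_fa := by
    have := small_un (fun p => {o : U | ∃ k t, p.fa k t ∧ k.ix = o}) fun p a => (h.v p a).small_fa
    refine small_subset
      (s := insert o {u | ∃ p, p ∈ C ∧ u ∈ {o : U | ∃ k t, p.fa k t ∧ k.ix = o}}) ?_
    rintro _ ⟨k, t, ⟨p, a, b⟩ | ⟨rfl, rfl⟩, rfl⟩
    exacts [.inr ⟨p, a, k, t, b, rfl⟩, .inl rfl]
  small_lab := by
    have := small_un (fun p => {o : U | ∃ u b, p.lab u o b}) fun p a => (h.v p a).small_lab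
    refine small_subset (s := {u | ∃ p, p ∈ C ∧ u ∈ {o : U | ∃ u b, p.lab u o b}}) ?_
    rintro _ ⟨u, b, p, a, c⟩
    exact ⟨p, a, u, b, c⟩
  fa_car := by
    rintro k t i u (⟨p, a, b⟩ | ⟨rfl, rfl⟩) c
    exacts [⟨p, a, (h.v p a).fa_car k t i u b c⟩, c.1 ▸ c.2]
  ri_car := fun _ ⟨p, a, b⟩ => ⟨p, a, (h.v p a).ri_car b⟩
  ma_car := fun _ ⟨p, a, b⟩ => ⟨p, a, (h.v p a).ma_car b⟩
  B_ri := fun ψ u ⟨p, a, b⟩ => ⟨p, a, (h.v p a).B_ri ψ u b⟩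
  tag_car := fun w u ⟨p, a, b⟩ =>
    ⟨⟨p, a, ((h.v p a).tag_car w u b).1⟩, ((h.v p a).tag_car w u b).2.mono (h.le0 a).car⟩
  tag_act := fun k v u ⟨p, a, b⟩ => (h.le0 a).act ((h.v p a).tag_act k v u b)
  lab_car := fun u o b ⟨p, a, c⟩ => ⟨p, a, (h.v p a).lab_car u o b c⟩
  agr := by
    rintro k t t' (⟨p, a, x⟩ | ⟨rfl, rfl⟩) (⟨q, b, y⟩ | ⟨e, rfl⟩)
    · obtain ⟨m, c, d, e⟩ := h.dir a b
      obtain ⟨s, s1, s2⟩ := d.fa k t x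
      obtain ⟨s', s3, s4⟩ := e.fa k t' y
      rw [s2.agr, Tup.agr_comm s t', s4.agr]
      exact k.A_inter _ _ (k.A_inter _ _ ((h.v m c).agr k _ _ s3 s1) ((h.v q b).agr k _ _ y y))
        ((h.v p a).agr k _ _ x x)
    · exact absurd (by rw [e]; rfl) (h.fr p k t a x)
    · exact absurd rfl (h.fr q _ t' b y)
    · rw [Tup.agr_idOn]
      rintro k t ⟨p, a, x⟩
      refine k.N_sub _ _ k.N_empty ?_
      rintro i ⟨v, y, z, -⟩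
      exact z ⟨p, a, (h.v p a).fa_car k t i v x y⟩
  B_flat := fun _ ⟨_, a, b⟩ => h.B_flat a b
  B_irr := fun ψ ⟨p, a, b⟩ => (h.v p a).B_irr ψ b
  B_dcl := fun ψ L x y u ⟨p, a, b⟩ => ((h.v p a).B_dcl ψ _ ((h.le0 a).flat_trace (h.v p a) x)
    ⟨y, (h.v p a).ri_car ((h.v p a).B_ri ψ u b)⟩ b).1
  germ := by
    rintro k t L (a | ⟨rfl, rfl⟩) x
    · have := x.2 _ _ (.inr ⟨rfl, rfl⟩)
      rw [Tup.pre_idOn, inter_eq_left.2 (show L ⊆ (un C).car from x.1)] at this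
      exact this k t a
    · trivial
  cone := fun φ s u L x ⟨p, a, b⟩ y z =>
    ((h.v p a).cone φ s u _ ((h.le0 a).flat_trace (h.v p a) x) b
      ⟨y, ((h.v p a).tag_car _ _ b).2.1⟩ ⟨z, ((h.v p a).tag_car _ _ b).1⟩).1
  own_null := by
    rintro ψ k t ⟨q, b, y⟩ (⟨p, a, x⟩ | ⟨rfl, rfl⟩)
    · obtain ⟨m, c, d, e⟩ := h.dir a b
      obtain ⟨s, s1, s2⟩ := d.fa k t x
      have r := e.ri_mono (h.v q b) y
      refine k.N_sub _ _ ((h.v m c).own_null ψ k s r s1) ?_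
      rintro i ⟨v, z, w⟩
      exact ⟨v, s2 i v z, (h.le0 c).own_back ⟨s, i, s1, s2 i v z⟩ ((h.v m c).ri_car r) w⟩
    · trivial
  head_B := fun ψ w ⟨p, a, x⟩ ⟨q, b, y⟩ => by
    obtain ⟨m, c, d, e⟩ := h.dir a b
    exact (h.v m c).head_B ψ w (d.tag _ _ x) (e.B_mono (h.v q b) y)
  ma_eq := fun u v ⟨p, a, x⟩ ⟨q, b, y⟩ z => by
    obtain ⟨m, c, d, e⟩ := h.dir a b
    have x' := d.ma_mono (h.v p a) x
    have y' := e.ma_mono (h.v q b) y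
    exact (h.v m c).ma_eq u v x' y'
      ((h.le c).equiv_back ((h.v m c).ma_car x') ((h.v m c).ma_car y') z)
  lab_con := fun u o ⟨p, a, x⟩ ⟨q, b, y⟩ => by
    obtain ⟨m, c, d, e⟩ := h.dir a b
    exact (h.v m c).lab_con u o (d.lab _ _ _ x) (e.lab _ _ _ y)

end LimAux
open LimAux

namespace Str

theorem exists_lim (C : Set Str) [Small.{0} C] (hne : C.Nonempty) (hv : ∀ p, p ∈ C → p.Valid)
    (hc : ∀ p q, p ∈ C → q ∈ C → Le p q ∨ Le q p) :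
    ∃ r : Str, r.Valid ∧ (∀ p, p ∈ C → Le p r) ∧ ∀ u, u ∈ r.car → ∃ p, p ∈ C ∧ u ∈ p.car := by
  have _ := hne
  have := small_un (fun p => {o : U | ∃ k t, p.fa k t ∧ k.ix = o}) fun p a => (hv p a).small_fa
  obtain ⟨o, ho⟩ := exists_fresh {u | ∃ p, p ∈ C ∧ u ∈ {o : U | ∃ k t, p.fa k t ∧ k.ix = o}}
  have h : Ch C o := ⟨hv, hc, fun p k t a b e => ho ⟨p, a, k, t, b, e⟩⟩
  exact ⟨lm C o, h.valid, fun _ a => h.le a, fun _ a => a⟩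

end Str

end Vale.Agent.P323
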