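import Vale.Agent.P323.Glue

/-! Amalgamation over the base of a rich atom that makes the new atoms definable from it. -/

namespace Vale.Agent.P323

open Set

namespace Str

namespace OwnX

def Th (φ s : U) (b : Prop) (X : Set U) : Prop := φ ∈ X ∧ (b → s ∈ X)

def T (q d : Str) (φ s : U) (b : Prop) (w : Wa) (v : U) : Prop :=
  v ∈ d.car ∧ v ∉ q.B φ ∧ (q.own w φ ∨ (b ∧ w = .c φ s))

def A (q d : Str) (φ s : U) (b : Prop) : Set (Set U) :=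
  {X | (Th φ s b X → d.car ⊆ X) ∧
    ∀ φ' s' v, T q d φ s b (.c φ' s') v → φ' ∈ X → v ∈ X → s' ∈ X}

def code (q d : Str) (φ s : U) (b : Prop) (o : U) : Code :=
  bigCode (A q d φ s b) (fun _ _ x y =>
    ⟨fun z => subset_inter (x.1 ⟨z.1.1, fun m => (z.2 m).1⟩) (y.1 ⟨z.1.2, fun m => (z.2 m).2⟩),
      fun φ' s' v a m n => ⟨x.2 φ' s' v a m.1 n.1, y.2 φ' s' v a m.2 n.2⟩⟩) o

def t0 (φ s u : U) : Tup where
  r i v := (i = 0 ∧ v = φ) ∨ (i = 1 ∧ v = s) ∨ (i = 2 ∧ v = u)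
  fn := by
    rintro i _ _ (⟨a, rfl⟩ | ⟨a, rfl⟩ | ⟨a, rfl⟩) (⟨b, rfl⟩ | ⟨b, rfl⟩ | ⟨b, rfl⟩) <;>
      first | rfl | (exfalso; rw [a] at b; norm_num at b)

theorem t0_0 {φ s u v : U} (h : (t0 φ s u).r 0 v) : v = φ :=
  (t0 φ s u).fn 0 _ _ h (Or.inl ⟨rfl, rfl⟩)

theorem t0_2 {φ s u v : U} (h : (t0 φ s u).r 2 v) : v = u :=
  (t0 φ s u).fn 2 _ _ h (Or.inr (Or.inr ⟨rfl, rfl⟩))

def X (q d : Str) (φ s u : U) (b : Prop) (o : U) (k : Code) (t : Tup) : Prop :=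
  (k = code q d φ s b o ∧ t = Tup.idOn (q.car ∪ d.car)) ∨ (b ∧ k = k0 ∧ t = t0 φ s u)

def Bf (q d : Str) (φ s : U) (b : Prop) (ψ : U) : Set U :=
  {v | v ∈ d.B ψ ∨ v ∈ q.B ψ ∨ (v ∈ d.car ∧ ((¬ b ∧ ψ = φ) ∨ Th φ s b (q.B ψ)))}

def ow (q d : Str) (φ s u : U) (b : Prop) (o : U) : Str :=
  glue q d (X q d φ s u b o) (T q d φ s b) (Bf q d φ s b)

structure Ctx (q d : Str) (φ s u : U) (b : Prop) : Prop extends Span q (q.B φ) d where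
  hφ : φ ∈ q.ri
  hf : d.Flat (q.B φ)
  hs : b → s ∈ q.car ∧ u ∈ d.car ∧ u ∉ q.B φ

variable {q d : Str} {φ s u o : U} {b : Prop}

theorem Ctx.nd (h : Ctx q d φ s u b) : φ ∉ d.car := fun x =>
  h.hq.B_irr φ (h.mem (h.hq.ri_car h.hφ) x)

theorem Ctx.T_new (h : Ctx q d φ s u b) {w : Wa} {v : U} (a : T q d φ s b w v) :
    v ∈ d.car ∧ v ∉ q.B φ ∧ w.In q.car ∧ w.head ∉ q.B φ := by
  obtain ⟨a1, a2, a3 | ⟨a3, rfl⟩⟩ := a
  · refine ⟨a1, a2, (h.hq.own_car a3).2, ?_⟩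
    rcases a3 with a3 | ⟨k, rfl, _⟩
    · exact h.hq.head_B φ w a3
    · exact h.hq.B_irr φ
  · exact ⟨a1, a2, ⟨h.hq.ri_car h.hφ, (h.hs a3).1⟩, h.hq.B_irr φ⟩

theorem Ctx.flat (h : Ctx q d φ s u b) {L : Set U} : (ow q d φ s u b o).Flat L ↔
    L ⊆ q.car ∪ d.car ∧ q.Flat (L ∩ q.car) ∧ d.Flat (L ∩ d.car) ∧ L ∈ A q d φ s b := by
  unfold ow
  rw [flat_glue h.hq h.hd]
  refine and_congr_right fun a => and_congr_right fun _ => and_congr_right fun _ => ⟨fun c => ?_, ?_⟩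
  · have := c _ _ (Or.inl ⟨rfl, rfl⟩)
    rwa [Tup.pre_idOn, inter_eq_left.mpr a] at this
  · rintro c k t (⟨rfl, rfl⟩ | ⟨x, rfl, rfl⟩)
    · rw [Tup.pre_idOn, inter_eq_left.mpr a]; exact c
    · rintro ⟨v, y, y'⟩ ⟨v', z, z'⟩
      obtain rfl := t0_0 y'
      obtain rfl := t0_2 z'
      exact ⟨s, c.2 _ s _ ⟨(h.hs x).2.1, (h.hs x).2.2, Or.inr ⟨x, rfl⟩⟩ y z,
        Or.inr (Or.inl ⟨rfl, rfl⟩)⟩

theorem Ctx.flat_qd (h : Ctx q d φ s u b) {I : Set U} (a : q.Flat I) : d.Flat (I ∩ d.car) := by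
  have e1 : I ∩ d.car = d.dcl (I ∩ q.B φ) :=
    Subset.antisymm (fun v x => d.subset_dcl _ ⟨x.1, h.mem (a.1 x.1) x.2⟩) fun v x =>
      have y := h.hf.dcl_subset inter_subset_right x
      ⟨(h.hle.trace _ (h.flat_p a) ⟨x, y⟩).1, h.e_d y⟩
  rw [e1]; exact h.hle.hull _ (h.flat_p a)

theorem Ctx.flat1 (h : Ctx q d φ s u b) {I : Set U} (a : q.Flat I) (n : ¬ Th φ s b I) :
    (ow q d φ s u b o).Flat I :=
  h.flat.mpr ⟨fun _ x => Or.inl (a.1 x), a.inter h.hq.flat_car, h.flat_qd a,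
    fun x => absurd x n, fun _ _ _ x _ y => absurd (h.mem (a.1 y) x.1) x.2.1⟩

theorem Ctx.tr2 (h : Ctx q d φ s u b) {I : Set U} (a : q.Flat I) (n : φ ∈ I) {v : U}
    (x : v ∈ I ∪ d.car) (y : v ∈ q.car) : v ∈ I :=
  x.elim id fun z => h.hq.B_dcl φ I a n (h.mem y z)

theorem Ctx.flat2 (h : Ctx q d φ s u b) {I : Set U} (a : q.Flat I) (n : Th φ s b I) :
    (ow q d φ s u b o).Flat (I ∪ d.car) := by
  have e1 : (I ∪ d.car) ∩ q.car = I :=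
    Subset.antisymm (fun v x => h.tr2 a n.1 x.1 x.2) fun v x => ⟨Or.inl x, a.1 x⟩
  have e2 : (I ∪ d.car) ∩ d.car = d.car := inter_eq_right.mpr subset_union_right
  refine h.flat.mpr ⟨union_subset_union a.1 Subset.rfl, e1.symm ▸ a, e2.symm ▸ h.hd.flat_car,
    fun _ => subset_union_right, fun φ' s' v x y _ => Or.inl ?_⟩
  have y' := h.tr2 a n.1 y (h.T_new x).2.2.1.1
  obtain ⟨_, _, (x | ⟨k, x, _⟩) | ⟨x, x'⟩⟩ := x
  · exact h.hq.cone φ' s' φ I a x y' n.1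
  · cases x
  · cases x'; exact n.2 x

theorem Ctx.dcl1 (h : Ctx q d φ s u b) {I : Set U} (a : q.Flat I) (n : ¬ Th φ s b I) :
    (ow q d φ s u b o).dcl I = I := (h.flat1 a n).dcl_eq

theorem Ctx.dcl2 (h : Ctx q d φ s u b) {I : Set U} (a : q.Flat I) (n : Th φ s b I) :
    (ow q d φ s u b o).dcl I = I ∪ d.car :=
  dcl_eq_of (h.flat2 a n) subset_union_left fun _ x y =>
    union_subset y ((h.flat.mp x).2.2.2.1 ⟨y n.1, fun m => y (n.2 m)⟩)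

theorem Ctx.new_mem (h : Ctx q d φ s u b) {I : Set U} (a : q.Flat I) {v : U}
    (x : v ∈ (ow q d φ s u b o).dcl I) (n : v ∉ q.car) : Th φ s b I ∧ v ∈ d.car := by
  by_cases m : Th φ s b I
  · rw [h.dcl2 a m] at x
    exact ⟨m, x.elim (fun y => absurd (a.1 y) n) id⟩
  · rw [h.dcl1 a m] at x
    exact absurd (a.1 x) n

theorem Ctx.Bf_d (h : Ctx q d φ s u b) {ψ : U} (a : ψ ∈ d.car) : Bf q d φ s b ψ = d.B ψ := by
  refine Subset.antisymm ?_ fun _ x => Or.inl x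
  rintro v (x | x | ⟨_, ⟨_, rfl⟩ | x⟩)
  · exact x
  · exact h.B_qd a x
  · exact absurd a h.nd
  · exact absurd (h.hd.B_car (h.B_qd a x.1)) h.nd

/-- new atoms in the base of an old rich atom -/
theorem Ctx.new_B (h : Ctx q d φ s u b) {ψ v : U} (a : ψ ∈ q.ri) (x : v ∈ Bf q d φ s b ψ)
    (n : v ∉ q.car) : φ = ψ ∨ φ ∈ q.B ψ := by
  rcases x with x | x | ⟨_, ⟨_, rfl⟩ | x⟩
  · exact absurd (h.he.1 (h.hd.B_dcl ψ _ h.hf
      (h.mem (h.hq.ri_car a) (h.hd.ri_car (h.hd.B_ri ψ v x))) x)) n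
  · exact absurd (h.hq.B_car x) n
  · exact Or.inl rfl
  · exact Or.inr x.1

theorem Ctx.B_sub (h : Ctx q d φ s u b) {ψ : U} (a : φ = ψ ∨ φ ∈ q.B ψ) : q.B φ ⊆ q.B ψ := by
  rcases a with rfl | a
  · exact Subset.rfl
  · exact h.hq.B_dcl φ _ (h.hq.B_flat ψ (h.hq.B_ri ψ φ a)) a

theorem Ctx.glue (h : Ctx q d φ s u b) (o0 : o ≠ 0) (o1 : ∀ k t, q.fa k t → k.ix ≠ o)
    (o2 : ∀ k t, d.fa k t → k.ix ≠ o) :
    Glue q (q.B φ) d (X q d φ s u b o) (T q d φ s b) (Bf q d φ s b) where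
  toSpan := h.toSpan
  X_N := by rintro k t S (⟨rfl, _⟩ | ⟨_, rfl, _⟩) <;> trivial
  X_car := by
    rintro k t i v (⟨_, rfl⟩ | ⟨x, _, rfl⟩) a
    · obtain ⟨rfl, a⟩ := a; exact a
    · rcases a with ⟨_, rfl⟩ | ⟨_, rfl⟩ | ⟨_, rfl⟩
      · exact Or.inl (h.hq.ri_car h.hφ)
      · exact Or.inl (h.hs x).1
      · exact Or.inr (h.hs x).2.1
  X_small := by
    have : Small.{0} ({o, 0} : Set U) := small_pair _ _
    refine small_subset (s := {o, 0}) ?_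
    rintro _ ⟨k, t, ⟨rfl, _⟩ | ⟨_, rfl, _⟩, rfl⟩
    · exact Or.inl rfl
    · exact Or.inr rfl
  X_agr := by
    rintro k t t' (⟨rfl, rfl⟩ | ⟨x, rfl, rfl⟩) a
    · rcases a with a | a | ⟨_, rfl⟩ | ⟨_, a, _⟩
      · exact absurd rfl (o1 _ _ a)
      · exact absurd rfl (o2 _ _ a)
      · rw [Tup.agr_idOn]
        exact ⟨fun _ => subset_union_right, fun _ _ _ x _ _ => Or.inl (h.T_new x).2.2.1.2⟩
      · exact absurd (congrArg Code.ix a) o0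
    · rintro ⟨v, y, y'⟩ ⟨v', z, z'⟩
      obtain rfl := t0_0 y
      obtain rfl := t0_2 z
      rcases a with a | a | ⟨a, _⟩ | ⟨_, _, rfl⟩
      · exact absurd (h.mem (h.hq.fa_car _ _ _ _ a z') (h.hs x).2.1) (h.hs x).2.2
      · exact absurd (h.hd.fa_car _ _ _ _ a y') h.nd
      · exact absurd (congrArg Code.ix a).symm o0
      · exact ⟨s, Or.inr (Or.inl ⟨rfl, rfl⟩), Or.inr (Or.inl ⟨rfl, rfl⟩)⟩
  X_d := by
    rintro k t L (⟨rfl, rfl⟩ | ⟨x, rfl, rfl⟩) a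
    · rw [Tup.pre_idOn]
      exact ⟨fun x => absurd (a.1 x.1.1) h.nd, fun φ' s' v x y _ =>
        absurd (h.mem (h.T_new x).2.2.1.1 (a.1 y.1)) (h.T_new x).2.2.2⟩
    · rintro ⟨v, y, y'⟩
      obtain rfl := t0_0 y'
      exact absurd (a.1 y) h.nd
  T_new w v a := h.T_new a
  T_act := by
    rintro k v v' ⟨_, _, (a | ⟨k', a, a'⟩) | ⟨_, a⟩⟩
    · exact h.hq.tag_act k v φ a
    · cases a; exact a'
    · cases a
  T_null k t a := k.N_sub _ _ (h.hq.own_null φ k t h.hφ a) (by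
    rintro i ⟨v, x, _, _, _, y | ⟨_, y⟩⟩
    · exact ⟨v, x, y⟩
    · cases y)
  T_cone φ' s' v L a := (h.flat.mp a).2.2.2.2 φ' s' v
  hull I a := by
    by_cases m : Th φ s b I
    · exact ⟨_, h.flat2 a m, Subset.antisymm (fun v x => h.tr2 a m.1 x.1 x.2)
        fun v x => ⟨Or.inl x, a.1 x⟩⟩
    · exact ⟨I, h.flat1 a m, inter_eq_left.mpr a.1⟩
  B_d ψ a := h.Bf_d a
  B_q ψ v a c := by
    refine ⟨?_, fun x => Or.inr (Or.inl x)⟩
    rintro (x | x | ⟨x, y⟩)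
    · exact absurd (h.hd.ri_car (h.hd.B_ri ψ v x)) a
    · exact x
    · exact h.B_sub (y.imp (fun z => z.2.symm) fun z => z.1) (h.mem c x)
  B_ri := by
    rintro ψ v a (x | x | ⟨_, ⟨_, rfl⟩ | x⟩)
    · exact absurd (h.hd.ri_car (h.hd.B_ri ψ v x)) a
    · exact h.hq.B_ri ψ v x
    · exact h.hφ
    · exact h.hq.B_ri ψ φ x.1
  B_flat ψ a c := by
    have nd : ∀ v, v ∉ d.B ψ := fun v x => a (h.hd.ri_car (h.hd.B_ri ψ v x))
    by_cases m : Th φ s b (q.B ψ)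
    · have e1 : Bf q d φ s b ψ = q.B ψ ∪ d.car := Subset.antisymm
        (fun v x => x.elim (fun y => absurd y (nd v)) (Or.imp_right fun y => y.1))
        fun v x => Or.inr (x.imp_right fun y => ⟨y, Or.inr m⟩)
      rw [e1]; exact h.flat2 (h.hq.B_flat ψ c) m
    · by_cases m' : ¬ b ∧ ψ = φ
      · have e1 : Bf q d φ s b ψ = d.car := Subset.antisymm
          (fun v x => x.elim (fun y => absurd y (nd v))
            fun y => y.elim (fun z => h.e_d (m'.2 ▸ z)) fun z => z.1)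
          fun v x => Or.inr (Or.inr ⟨x, Or.inl m'⟩)
        rw [e1]
        refine h.flat.mpr ⟨subset_union_right, h.flat_back h.hd.flat_car,
          h.hd.flat_car.inter h.hd.flat_car, fun _ => Subset.rfl, fun φ' s' v x y _ => ?_⟩
        exact absurd (h.mem (h.T_new x).2.2.1.1 y) (h.T_new x).2.2.2
      · have e1 : Bf q d φ s b ψ = q.B ψ := Subset.antisymm
          (fun v x => x.elim (fun y => absurd y (nd v))
            fun y => y.elim id fun z => z.2.elim (fun z => absurd z m') fun z => absurd z m)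
          fun v x => Or.inr (Or.inl x)
        rw [e1]; exact h.flat1 (h.hq.B_flat ψ c) m
  B_dcl ψ L a c c' := by
    obtain ⟨c1, c2, _, c3⟩ := h.flat.mp c
    have z : q.B ψ ⊆ L :=
      (h.hq.B_dcl ψ _ c2 ⟨c', (c1 c').elim id fun x => absurd x a⟩).trans inter_subset_left
    rintro v (x | x | ⟨x, ⟨y, rfl⟩ | y⟩)
    · exact absurd (h.hd.ri_car (h.hd.B_ri ψ v x)) a
    · exact z x
    · exact c3.1 ⟨c', fun m => absurd m y⟩ x
    · exact c3.1 ⟨z y.1, fun m => z (y.2 m)⟩ x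

theorem Ctx.under (h : Ctx q d φ s u b) {v : U} (a : v ∈ d.car) (n : v ∉ q.car) :
    v ∈ Under q (ow q d φ s u b o) φ :=
  ⟨Or.inr a, n, fun _ x => Or.inr (Or.inr ⟨a, fun y => n (h.he.1 y), Or.inl x⟩),
    fun _ x y => (h.new_mem x y n).1.1, fun _ x y => h.new_B x y n⟩

theorem Ctx.tag_new (h : Ctx q d φ s u b) {k : Code} {v v' : U} (a : q.act k v) (n : v' ∉ q.car)
    (x : (ow q d φ s u b o).tag (.g k v) v') : q.own (.g k v) φ ∨ v ∈ q.B φ := by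
  rcases x with x | x | ⟨_, _, x | ⟨_, x⟩⟩
  · exact absurd (h.hq.tag_car _ _ x).1 n
  · exact Or.inr (h.mem (h.hq.act_car a) (h.hd.tag_car _ _ x).2)
  · exact Or.inl x
  · cases x

theorem Ctx.le_q (h : Ctx q d φ s u b)
    (g : Glue q (q.B φ) d (X q d φ s u b o) (T q d φ s b) (Bf q d φ s b)) :
    Le q (ow q d φ s u b o) where
  toLe0 := g.le0_q
  hull I a := by
    by_cases m : Th φ s b I
    · rw [h.dcl2 a m]; exact h.flat2 a m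
    · rw [h.dcl1 a m]; exact h.flat1 a m
  trace I a v x := by
    by_cases m : Th φ s b I
    · rw [h.dcl2 a m] at x; exact h.tr2 a m.1 x.1 x.2
    · rw [h.dcl1 a m] at x; exact x.1
  tight I L L' a c c' _ f f' v x := by
    by_cases n : v ∈ q.car
    · by_cases m : Th φ s b I
      · rw [h.dcl2 a m] at x; exact f ⟨x.1, h.tr2 a m.1 x.2 n⟩
      · rw [h.dcl1 a m] at x; exact f x
    · obtain ⟨m, y⟩ := h.new_mem a x.2 n
      by_cases z : φ ∈ L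
      · refine (h.flat.mp c').2.2.2.1 ⟨f ⟨z, m.1⟩, fun hb => f ⟨?_, m.2 hb⟩⟩ y
        exact (h.flat.mp c).2.2.2.2 φ s v ⟨y, fun y => n (h.he.1 y), Or.inr ⟨hb, rfl⟩⟩ z x.1
      · exact f' φ h.hφ m.1 z ⟨x.1, h.under y n⟩
  rich I ρ a _ c n := by
    obtain ⟨m, y⟩ := h.new_mem a c n
    exact ⟨φ, h.hφ, m.1, h.under y n, fun L x z z' => (h.flat.mp x).2.2.2.1
      ⟨z, fun hb => z' φ s (Or.inr (Or.inr ⟨y, fun y => n (h.he.1 y), Or.inr ⟨hb, rfl⟩⟩)) z⟩ y⟩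
  tagI k v I v' a c c' n x := by
    obtain ⟨m, _⟩ := h.new_mem c c' n
    rcases h.tag_new a n x with y | y
    · exact ⟨φ, m.1, y⟩
    · exact ⟨v, h.hq.B_dcl φ I c m.1 y, Or.inr ⟨k, rfl, a⟩⟩
  tagB k v ψ v' a c c' n x := by
    have m := h.new_B c c' n
    rcases h.tag_new a n x with y | y
    · exact ⟨φ, m, y⟩
    · exact ⟨v, Or.inr (h.B_sub m y), Or.inr ⟨k, rfl, a⟩⟩

theorem Ctx.exists_o (h : Ctx q d φ s u b) : ∃ o,
    Glue q (q.B φ) d (X q d φ s u b o) (T q d φ s b) (Bf q d φ s b) := by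
  have := h.hd.small_fa
  obtain ⟨o, o1, o0, o2⟩ := h.hq.exists_code {o : U | ∃ k t, d.fa k t ∧ k.ix = o}
  exact ⟨o, h.glue o0 o2 fun k t a b => o1 ⟨k, t, a, b⟩⟩

end OwnX

theorem exists_ownA {q d : Str} {φ : U} (hq : q.Valid) (hd : d.Valid) (hφ : φ ∈ q.ri)
    (hle : Le (q.res (q.B φ)) d) (hcap : q.car ∩ d.car ⊆ q.B φ) (hf : d.Flat (q.B φ)) :
    ∃ r : Str, r.Valid ∧ Le q r ∧ Le d r ∧ d.car ⊆ r.B φ := by
  have h : OwnX.Ctx q d φ φ φ False :=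
    ⟨⟨hq, hd, hq.B_flat φ hφ, hle, hcap⟩, hφ, hf, False.elim⟩
  obtain ⟨o, g⟩ := h.exists_o
  exact ⟨_, g.valid, h.le_q g, g.le_d, fun v x => Or.inr (Or.inr ⟨x, Or.inl ⟨id, rfl⟩⟩)⟩

theorem exists_ownB {q d : Str} {φ s u : U} (hq : q.Valid) (hd : d.Valid) (hφ : φ ∈ q.ri)
    (hle : Le (q.res (q.B φ)) d) (hcap : q.car ∩ d.car ⊆ q.B φ) (hf : d.Flat (q.B φ))
    (hs : s ∈ q.car) (hu : u ∈ d.car) (hu' : u ∉ q.B φ) :
    ∃ r : Str, r.Valid ∧ Le q r ∧ Le d r ∧ u ∉ r.B φ ∧ r.Pi φ s u ∧ u ∈ r.dcl {φ, s} := by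
  have h : OwnX.Ctx q d φ s u True :=
    ⟨⟨hq, hd, hq.B_flat φ hφ, hle, hcap⟩, hφ, hf, fun _ => ⟨hs, hu, hu'⟩⟩
  obtain ⟨o, g⟩ := h.exists_o
  refine ⟨_, g.valid, h.le_q g, g.le_d, ?_, ⟨_, Or.inr (Or.inr (Or.inr ⟨trivial, rfl, rfl⟩)),
    Or.inl ⟨rfl, rfl⟩, Or.inr (Or.inl ⟨rfl, rfl⟩), Or.inr (Or.inr ⟨rfl, rfl⟩)⟩, fun L x y => ?_⟩
  · rintro (x | x | ⟨_, x | x⟩)
    · exact h.nd (hd.ri_car (hd.B_ri φ u x))
    · exact hu' x
    · exact x.1 trivial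
    · exact hq.B_irr φ x.1
  · exact (h.flat.mp x).2.2.2.1 ⟨y (Or.inl rfl), fun _ => y (Or.inr rfl)⟩ hu

end Str

end Vale.Agent.P323
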