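import Vale.Agent.P323.Basic

/-! One step extensions. -/

namespace Vale.Agent.P323

open Set

namespace StepAux

open Str

/-- `q` arises from `p` by adding one fact with a new code and no tags -/
structure Ext (p q : Str) (k : Code) (t : Tup) : Prop where
  fresh : ∀ t', ¬ p.fa k t'
  fa : ∀ k' t', q.fa k' t' ↔ p.fa k' t' ∨ (k' = k ∧ t' = t)
  tag : q.tag = p.tag
  car : p.car ⊆ q.car
  small : Small.{0} q.car
  t_car : ∀ i u, t.r i u → u ∈ q.car
  t_agr : t.agr t ∈ k.A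
  t_null : ∀ ψ, {i | t.r i ψ} ∈ k.N
  ri : ∀ u, u ∈ p.car → (u ∈ q.ri ↔ u ∈ p.ri)
  ma : ∀ u, u ∈ p.car → (u ∈ q.ma ↔ u ∈ p.ma)
  B : ∀ ψ u, ψ ∈ p.ri → u ∈ p.car → (u ∈ q.B ψ ↔ u ∈ p.B ψ)
  lab : ∀ u o b, p.lab u o b → q.lab u o b
  ri_car : q.ri ⊆ q.car
  ma_car : q.ma ⊆ q.car
  B_ri : ∀ ψ u, u ∈ q.B ψ → ψ ∈ q.ri
  small_lab : Small.{0} {o : U | ∃ u b, q.lab u o b}
  lab_car : ∀ u o b, q.lab u o b → u ∈ q.car
  lab_con : ∀ u o, q.lab u o true → q.lab u o false → False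

variable {p q : Str} {k : Code} {t : Tup}

theorem Ext.not_act (h : Ext p q k t) (v : U) : ¬ p.act k v := fun ⟨t', _, a, _⟩ => h.fresh t' a

theorem Ext.le0 (h : Ext p q k t) : Le0 p q where
  car := h.car
  fa k' t' a := ⟨t', (h.fa _ _).2 (.inl a), Tup.Sub.refl t'⟩
  ri := h.ri
  ma := h.ma
  B := h.B
  tag w u a := h.tag ▸ a
  frozen k v u _ _ a := h.tag ▸ a
  lab := h.lab
  cov k' t' E a b c := by
    rcases (h.fa _ _).1 a with a | ⟨rfl, rfl⟩
    · exact (Le0.refl p).cov k' t' E a b c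
    · refine k'.N_sub _ _ k'.N_empty fun i hi => ?_
      obtain ⟨v, -, x⟩ := b i hi
      exact h.not_act v x

theorem Ext.flat (h : Ext p q k t) {L : Set U} : q.Flat L ↔
    L ⊆ q.car ∧ (∀ k' t', p.fa k' t' → t'.pre L ∈ k'.A) ∧ t.pre L ∈ k.A := by
  refine and_congr_right fun _ => ⟨fun a => ⟨fun k' t' b => a _ _ ((h.fa _ _).2 (.inl b)),
    a _ _ ((h.fa _ _).2 (.inr ⟨rfl, rfl⟩))⟩, fun a k' t' b => ?_⟩
  rcases (h.fa _ _).1 b with b | ⟨rfl, rfl⟩
  exacts [a.1 _ _ b, a.2]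

theorem Ext.B_sub (h : Ext p q k t) (hp : p.Valid) {ψ : U} {L : Set U} (hL : q.Flat L)
    (a : ψ ∈ L) : p.B ψ ⊆ L := fun u b =>
  (hp.B_dcl ψ _ (h.le0.flat_trace hp hL) ⟨a, hp.ri_car (hp.B_ri ψ u b)⟩ b).1

theorem Ext.valid (h : Ext p q k t) (hp : p.Valid) (B_flat : ∀ ψ, ψ ∈ q.ri → q.Flat (q.B ψ))
    (B_irr : ∀ ψ, ψ ∉ q.B ψ) (B_dcl : ∀ ψ L, q.Flat L → ψ ∈ L → q.B ψ ⊆ L)
    (ma_eq : ∀ u v, u ∈ q.ma → v ∈ q.ma → (∀ L, q.Flat L → (u ∈ L ↔ v ∈ L)) → u = v) :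
    q.Valid where
  small_car := h.small
  small_fa := by
    have := hp.small_fa
    refine small_subset (s := insert k.ix {o : U | ∃ k t, p.fa k t ∧ k.ix = o}) ?_
    rintro o ⟨k', t', a, rfl⟩
    rcases (h.fa _ _).1 a with a | ⟨rfl, rfl⟩
    exacts [.inr ⟨_, _, a, rfl⟩, .inl rfl]
  small_lab := h.small_lab
  fa_car k' t' i u a b := by
    rcases (h.fa _ _).1 a with a | ⟨rfl, rfl⟩
    exacts [h.car (hp.fa_car _ _ i u a b), h.t_car i u b]
  ri_car := h.ri_car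
  ma_car := h.ma_car
  B_ri := h.B_ri
  tag_car w u a := by
    rw [h.tag] at a
    exact ⟨h.car (hp.tag_car w u a).1, (hp.tag_car w u a).2.mono h.car⟩
  tag_act k v u a := h.le0.act (hp.tag_act k v u (h.tag ▸ a))
  lab_car := h.lab_car
  agr k' t1 t2 a b := by
    rcases (h.fa _ _).1 a with a | ⟨rfl, rfl⟩ <;> rcases (h.fa _ _).1 b with b | ⟨e, rfl⟩
    · exact hp.agr _ _ _ a b
    · exact absurd (e ▸ a) (h.fresh _)
    · exact absurd b (h.fresh _)
    · exact h.t_agr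
  B_flat := B_flat
  B_irr := B_irr
  B_dcl := B_dcl
  germ k' t' L a b := by
    rcases (h.fa _ _).1 a with a | ⟨rfl, rfl⟩
    · refine k'.N_sub _ _ (hp.germ k' t' _ a (h.le0.flat_trace hp b)) ?_
      rintro i ⟨v, x, y, u, z, w⟩
      rw [h.tag] at w
      exact ⟨v, x, fun e => y e.1, u, ⟨z, (hp.tag_car _ _ w).1⟩, w⟩
    · refine k'.N_sub _ _ k'.N_empty ?_
      rintro i ⟨v, -, -, u, -, w⟩
      exact h.not_act v (hp.tag_act _ v u (h.tag ▸ w))
  cone φ s u L a b c d := by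
    rw [h.tag] at b
    obtain ⟨x, y, -⟩ := hp.tag_car _ _ b
    exact (hp.cone φ s u _ (h.le0.flat_trace hp a) b ⟨c, y⟩ ⟨d, x⟩).1
  own_null ψ k' t' a b := by
    rcases (h.fa _ _).1 b with b | ⟨rfl, rfl⟩
    · by_cases m : ψ ∈ p.car
      · refine k'.N_sub _ _ (hp.own_null ψ k' t' ((h.ri ψ m).1 a) b) ?_
        rintro i ⟨v, x, y⟩
        exact ⟨v, x, h.le0.own_back ⟨t', i, b, x⟩ m y⟩
      · refine k'.N_sub _ _ k'.N_empty ?_
        rintro i ⟨v, x, y | ⟨_, e, -⟩⟩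
        · exact m (hp.tag_car _ _ (h.tag ▸ y)).1
        · cases e
          exact m (hp.fa_car _ _ i _ b x)
    · refine k'.N_sub _ _ (h.t_null ψ) ?_
      rintro i ⟨v, x, y | ⟨_, e, -⟩⟩
      · exact absurd (hp.tag_act _ v _ (h.tag ▸ y)) (h.not_act v)
      · cases e
        exact x
  head_B ψ w a b := by
    rw [h.tag] at a
    obtain ⟨x, y⟩ := hp.tag_car _ _ a
    exact hp.head_B ψ w a ((h.B ψ _ ((h.ri ψ x).1 (h.B_ri ψ _ b)) y.head).1 b)
  ma_eq := ma_eq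
  lab_con := h.lab_con

/-- new atoms, new labels and a promise without influence on the flats -/
theorem simple (hp : p.Valid) (E : Set U) [Small.{0} E] {S : Set U} (hS : S ⊆ p.car)
    (N : Set (Set U)) (h0 : ∅ ∈ N) (h1 : ∀ A B, A ∈ N → B ∈ N → A ∪ B ∈ N)
    (h2 : ∀ A B, A ∈ N → B ⊆ A → B ∈ N) (h3 : ∀ v, v ∈ S → {v} ∈ N) (lab : U → U → Bool → Prop)
    (l1 : ∀ u o b, p.lab u o b → lab u o b) (l2 : Small.{0} {o : U | ∃ u b, lab u o b})
    (l3 : ∀ u o b, lab u o b → u ∈ p.car) (l4 : ∀ u o, lab u o true → lab u o false → False) :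
    ∃ (q : Str) (k : Code), q.Valid ∧ Le p q ∧ q.car = p.car ∪ E ∧ q.ri = p.ri ∧
      (∀ L, L ⊆ p.car → (q.Flat L ↔ p.Flat L)) ∧ k.N = N ∧ q.fa k (Tup.idOn S) ∧ q.lab = lab := by
  obtain ⟨o, -, -, ho⟩ := hp.exists_code ∅
  have := hp.small_car
  let k : Code := ⟨univ, N, o, fun _ _ _ _ => trivial, h0, h1, h2⟩
  let q : Str := ⟨p.car ∪ E, fun k' t' => p.fa k' t' ∨ (k' = k ∧ t' = Tup.idOn S), p.ri, p.ma, p.B,
    p.tag, lab⟩
  have h : Ext p q k (Tup.idOn S) :=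
    { fresh t a := ho k t a rfl
      fa _ _ := Iff.rfl
      tag := rfl
      car := subset_union_left
      small := inferInstanceAs (Small.{0} (p.car ∪ E : Set U))
      t_car i u a := .inl (a.1 ▸ hS a.2)
      t_agr := trivial
      t_null ψ := by
        by_cases m : ψ ∈ S
        · exact h2 _ _ (h3 ψ m) fun i a => a.1.symm
        · exact h2 _ _ h0 fun i a => m (a.1 ▸ a.2)
      ri _ _ := Iff.rfl
      ma _ _ := Iff.rfl
      B _ _ _ _ := Iff.rfl
      lab := l1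
      ri_car := hp.ri_car.trans subset_union_left
      ma_car := hp.ma_car.trans subset_union_left
      B_ri := hp.B_ri
      small_lab := l2
      lab_car u o b a := .inl (l3 u o b a)
      lab_con := l4 }
  have hf : ∀ L, p.Flat L → q.Flat L := fun L a => h.flat.2 ⟨a.1.trans h.car, a.2, trivial⟩
  have hq : q.Valid := h.valid hp (fun ψ a => hf _ (hp.B_flat ψ a)) hp.B_irr
    (fun ψ L a b => h.B_sub hp a b) fun u v a b c => hp.ma_eq u v a b fun L x => c L (hf L x)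
  exact ⟨q, k, hq, le_of_flat hp hq h.le0 hf, rfl, rfl,
    fun L a => ⟨fun b => ⟨a, (h.flat.1 b).2.1⟩, hf L⟩, rfl, .inr ⟨rfl, rfl⟩, rfl⟩

end StepAux
open StepAux

namespace Str

theorem exists_valid : ∃ p : Str, p.Valid := by
  refine ⟨⟨∅, fun _ _ => False, ∅, ∅, fun _ => ∅, fun _ _ => False, fun _ _ _ => False⟩, ?_⟩
  constructor <;> simp
  all_goals infer_instance

/-- new atoms without structure -/
theorem exists_absorb {p : Str} (hp : p.Valid) (E : Set U) [Small.{0} E] :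
    ∃ q : Str, q.Valid ∧ Le p q ∧ E ⊆ q.car := by
  obtain ⟨q, -, a, b, c, -⟩ := simple hp E (empty_subset _) univ trivial (fun _ _ _ _ => trivial)
    (fun _ _ _ _ => trivial) (fun _ _ => trivial) p.lab (fun _ _ _ a => a) hp.small_lab hp.lab_car
    hp.lab_con
  exact ⟨q, a, b, c ▸ subset_union_right⟩

/-- a new rich atom whose base is everything -/
theorem exists_rich {p : Str} (hp : p.Valid) :
    ∃ (q : Str) (φ : U), q.Valid ∧ Le p q ∧ φ ∈ q.ri ∧ q.B φ = p.car := by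
  classical
  obtain ⟨o, -, -, ho⟩ := hp.exists_code ∅
  have := hp.small_car
  obtain ⟨φ, hφ⟩ := exists_fresh p.car
  let k : Code := bigCode {X | φ ∈ X → p.car ⊆ X}
    (fun _ _ a b c => subset_inter (a c.1) (b c.2)) o
  let q : Str := ⟨insert φ p.car, fun k' t' => p.fa k' t' ∨ (k' = k ∧ t' = .idOn (insert φ p.car)),
    insert φ p.ri, p.ma, fun ψ => if ψ = φ then p.car else p.B ψ, p.tag, p.lab⟩
  have B1 : q.B φ = p.car := if_pos rfl
  have B2 : ∀ ψ, ψ ≠ φ → q.B ψ = p.B ψ := fun ψ a => if_neg a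
  have ne : ∀ u, u ∈ p.car → u ≠ φ := fun u a e => hφ (e ▸ a)
  have h : Ext p q k (.idOn (insert φ p.car)) :=
    { fresh t a := ho k t a rfl
      fa _ _ := Iff.rfl
      tag := rfl
      car := subset_insert _ _
      small := inferInstanceAs (Small.{0} (insert φ p.car : Set U))
      t_car i u a := a.1 ▸ a.2
      t_agr := by rw [Tup.agr_idOn]; exact fun _ => subset_insert _ _
      t_null ψ := trivial
      ri u a := ⟨fun b => b.resolve_left (ne u a), .inr⟩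
      ma _ _ := Iff.rfl
      B ψ u a _ := by rw [B2 ψ (ne ψ (hp.ri_car a))]
      lab _ _ _ a := a
      ri_car := insert_subset_insert hp.ri_car
      ma_car := hp.ma_car.trans (subset_insert _ _)
      B_ri ψ u a := by
        rcases eq_or_ne ψ φ with e | e
        · exact .inl e
        · exact .inr (hp.B_ri ψ u (B2 ψ e ▸ a))
      small_lab := hp.small_lab
      lab_car u o b a := .inr (hp.lab_car u o b a)
      lab_con := hp.lab_con }
  have hf : ∀ L, p.Flat L → q.Flat L := fun L a => h.flat.2 ⟨a.1.trans h.car, a.2, by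
    rw [Tup.pre_idOn]
    exact fun b => absurd (a.1 b.1) hφ⟩
  have hq : q.Valid := by
    refine h.valid hp (fun ψ a => ?_) (fun ψ => ?_) (fun ψ L a b => ?_)
      fun u v a b c => hp.ma_eq u v a b fun L x => c L (hf L x)
    · rcases eq_or_ne ψ φ with rfl | e
      · rw [B1]; exact hf _ hp.flat_car
      · rw [B2 ψ e]; exact hf _ (hp.B_flat ψ (a.resolve_left e))
    · rcases eq_or_ne ψ φ with rfl | e
      · rwa [B1]
      · rw [B2 ψ e]; exact hp.B_irr ψ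
    · rcases eq_or_ne ψ φ with rfl | e
      · have c := (h.flat.1 a).2.2
        rw [Tup.pre_idOn] at c
        rw [B1]
        exact (c ⟨b, .inl rfl⟩).trans inter_subset_left
      · rw [B2 ψ e]; exact h.B_sub hp a b
  exact ⟨q, φ, hq, le_of_flat hp hq h.le0 hf, .inl rfl, B1⟩

/-- two atoms get different labels -/
theorem exists_label {p : Str} (hp : p.Valid) {u v : U} (hu : u ∈ p.car) (hv : v ∈ p.car)
    (h : u ≠ v) : ∃ (q : Str) (o : U), q.Valid ∧ Le p q ∧ q.lab u o true ∧ q.lab v o false := by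
  have := hp.small_lab
  obtain ⟨o, ho⟩ := exists_fresh {o : U | ∃ u b, p.lab u o b}
  obtain ⟨q, -, a, b, -, -, -, -, -, c⟩ := simple hp ∅ (empty_subset _) univ trivial
    (fun _ _ _ _ => trivial) (fun _ _ _ _ => trivial) (fun _ _ => trivial)
    (fun x y b => p.lab x y b ∨ (y = o ∧ (x = u ∧ b = true ∨ x = v ∧ b = false)))
    (fun _ _ _ a => .inl a)
    (small_subset (s := insert o {o : U | ∃ u b, p.lab u o b}) (by
      rintro y ⟨x, b, a | a⟩
      exacts [.inr ⟨x, b, a⟩, .inl a.1]))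
    (by
      rintro x y b (a | ⟨-, ⟨rfl, -⟩ | ⟨rfl, -⟩⟩)
      exacts [hp.lab_car _ _ _ a, hu, hv])
    (by
      rintro x y (a | ⟨rfl, a⟩) (b | ⟨e, b⟩)
      · exact hp.lab_con x y a b
      · exact ho ⟨x, _, e ▸ a⟩
      · exact ho ⟨x, _, b⟩
      · simp only [and_true, Bool.true_eq_false, Bool.false_eq_true, and_false, or_false,
          false_or] at a b
        exact h (a.symm.trans b))
  exact ⟨q, o, a, b, c ▸ .inr ⟨rfl, .inl ⟨rfl, rfl⟩⟩, c ▸ .inr ⟨rfl, .inr ⟨rfl, rfl⟩⟩⟩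

/-- a new promise on the atoms in `S` with the ideal `N` -/
theorem exists_watch {p : Str} (hp : p.Valid) {S : Set U} (hS : S ⊆ p.car) (N : Set (Set U))
    (h0 : ∅ ∈ N) (h1 : ∀ A B, A ∈ N → B ∈ N → A ∪ B ∈ N) (h2 : ∀ A B, A ∈ N → B ⊆ A → B ∈ N)
    (h3 : ∀ v, v ∈ S → {v} ∈ N) :
    ∃ (q : Str) (k : Code), q.Valid ∧ Le p q ∧ q.car = p.car ∧ q.ri = p.ri ∧
      (∀ L, q.Flat L ↔ p.Flat L) ∧ k.N = N ∧ q.fa k (Tup.idOn S) := by
  obtain ⟨q, k, a, b, c, d, e, f, g, -⟩ := simple hp ∅ hS N h0 h1 h2 h3 p.lab (fun _ _ _ a => a)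
    hp.small_lab hp.lab_car hp.lab_con
  rw [union_empty] at c
  exact ⟨q, k, a, b, c, d, fun L => ⟨fun x => (e L (c ▸ x.1)).1 x, fun x => (e L x.1).2 x⟩, f, g⟩

/-- a marked atom that codes the filter `T` -/
theorem exists_tight {p : Str} (hp : p.Valid) (T : Set (Set U))
    (h0 : p.car ∈ T) (h1 : ∀ A B, A ∈ T → B ∈ T → A ∩ B ∈ T)
    (h2 : ∀ A B, A ∈ T → A ⊆ B → B ∈ T) :
    ∃ (q : Str) (γ : U), q.Valid ∧ Le p q ∧ γ ∈ q.ma ∧
      ∀ L, q.Flat L → (γ ∈ L ↔ L ∩ p.car ∈ T) := by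
  by_cases hc : ∃ γ, γ ∈ p.ma ∧ ∀ L, p.Flat L → (γ ∈ L ↔ L ∩ p.car ∈ T)
  · obtain ⟨γ, a, b⟩ := hc
    exact ⟨p, γ, hp, Le.refl hp, a, b⟩
  obtain ⟨o, -, -, ho⟩ := hp.exists_code ∅
  have := hp.small_car
  obtain ⟨b, hb⟩ := exists_fresh p.car
  let k : Code := bigCode {X | b ∈ X ↔ X ∩ p.car ∈ T} (fun X Y x y => ⟨fun z =>
    h2 _ _ (h1 _ _ (x.1 z.1) (y.1 z.2)) fun _ w => ⟨⟨w.1.1, w.2.1⟩, w.1.2⟩, fun z =>
    ⟨x.2 (h2 _ _ z fun _ w => ⟨w.1.1, w.2⟩), y.2 (h2 _ _ z fun _ w => ⟨w.1.2, w.2⟩)⟩⟩) o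
  let q : Str := ⟨insert b p.car, fun k' t' => p.fa k' t' ∨ (k' = k ∧ t' = .idOn (insert b p.car)),
    p.ri, insert b p.ma, fun ψ => {u | u ∈ p.B ψ ∨ (u = b ∧ ψ ∈ p.ri ∧ p.B ψ ∈ T)}, p.tag, p.lab⟩
  have ne : ∀ u, u ∈ p.car → u ≠ b := fun u a e => hb (e ▸ a)
  have h : Ext p q k (.idOn (insert b p.car)) :=
    { fresh t a := ho k t a rfl
      fa _ _ := Iff.rfl
      tag := rfl
      car := subset_insert _ _
      small := inferInstanceAs (Small.{0} (insert b p.car : Set U))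
      t_car i u a := a.1 ▸ a.2
      t_agr := by
        rw [Tup.agr_idOn]
        exact ⟨fun _ => h2 _ _ h0 fun _ x => ⟨.inr x, x⟩, fun _ => .inl rfl⟩
      t_null ψ := trivial
      ri _ _ := Iff.rfl
      ma u a := ⟨fun b => b.resolve_left (ne u a), .inr⟩
      B ψ u _ a := ⟨fun b => b.resolve_right fun c => ne u a c.1, .inl⟩
      lab _ _ _ a := a
      ri_car := hp.ri_car.trans (subset_insert _ _)
      ma_car := insert_subset_insert hp.ma_car
      B_ri ψ u a := a.elim (hp.B_ri ψ u) fun c => c.2.1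
      small_lab := hp.small_lab
      lab_car u o b a := .inr (hp.lab_car u o b a)
      lab_con := hp.lab_con }
  have key : ∀ L, q.Flat L → (b ∈ L ↔ L ∩ p.car ∈ T) := fun L a => by
    have c := (h.flat.1 a).2.2
    rwa [Tup.pre_idOn, inter_eq_left.2 (show L ⊆ insert b p.car from a.1)] at c
  obtain ⟨cl, hcl⟩ : ∃ cl : Set U → Set U, ∀ I u, u ∈ cl I ↔ u ∈ I ∨ (u = b ∧ I ∈ T) :=
    ⟨fun I => {u | u ∈ I ∨ (u = b ∧ I ∈ T)}, fun _ _ => Iff.rfl⟩
  have old : ∀ I u, u ∈ p.car → (u ∈ cl I ↔ u ∈ I) := fun I u a =>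
    (hcl I u).trans (or_iff_left fun c => ne u a c.1)
  have new : ∀ I, I ⊆ p.car → (b ∈ cl I ↔ I ∈ T) := fun I a =>
    (hcl I b).trans ⟨fun c => c.elim (fun d => absurd (a d) hb) And.right, fun c => .inr ⟨rfl, c⟩⟩
  have cf : ∀ I, p.Flat I → q.Flat (cl I) := fun I a => by
    have s : cl I ⊆ insert b p.car := fun u x =>
      ((hcl I u).1 x).elim (fun y => .inr (a.1 y)) fun y => .inl y.1
    refine h.flat.2 ⟨s, fun k' t' x => ?_, ?_⟩
    · convert a.2 k' t' x using 1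
      ext i
      exact exists_congr fun u => and_congr_left fun y => old I u (hp.fa_car _ _ i u x y)
    · rw [Tup.pre_idOn, inter_eq_left.2 s]
      have e : cl I ∩ p.car = I := by
        ext u
        exact ⟨fun x => (old I u x.2).1 x.1, fun x => ⟨(old I u (a.1 x)).2 x, a.1 x⟩⟩
      exact (new I a.1).trans (by rw [e])
  have cs : ∀ I L, I ⊆ p.car → q.Flat L → I ⊆ L → cl I ⊆ L := fun I L a x y u z => by
    rcases (hcl I u).1 z with z | ⟨rfl, z⟩
    exacts [y z, (key L x).2 (h2 _ _ z (subset_inter y a))]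
  have cd : ∀ I, p.Flat I → q.dcl I = cl I := fun I a =>
    dcl_eq_of (cf I a) (fun u x => (hcl I u).2 (.inl x)) fun L => cs I L a.1
  have cB : ∀ ψ, ψ ∈ p.ri → q.B ψ = cl (p.B ψ) := fun ψ a => by
    ext u
    rw [hcl]
    exact or_congr_right (and_congr_right fun _ => and_iff_right a)
  have mix : ∀ v, v ∈ p.ma → ¬ ∀ L, q.Flat L → (b ∈ L ↔ v ∈ L) := fun v a c =>
    hc ⟨v, a, fun L x => by
      rw [inter_eq_left.2 x.1, ← new L x.1, c _ (cf L x), old L v (hp.ma_car a)]⟩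
  have hq : q.Valid := by
    refine h.valid hp (fun ψ a => cB ψ a ▸ cf _ (hp.B_flat ψ a)) (fun ψ a => ?_)
      (fun ψ L x y u z => ?_) ?_
    · exact a.elim (hp.B_irr ψ) fun c => ne ψ (hp.ri_car c.2.1) c.1
    · have r := h.B_ri ψ u z
      rw [cB ψ r] at z
      exact cs _ L (fun _ w => hp.B_car w) x (h.B_sub hp x y) z
    · rintro u v (rfl | a) (rfl | a') c
      · rfl
      · exact absurd c (mix v a')
      · exact absurd (fun L x => (c L x).symm) (mix u a)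
      · exact hp.ma_eq u v a a' fun L x => by
          rw [← old L u (hp.ma_car a), c _ (cf L x), old L v (hp.ma_car a')]
  refine ⟨q, b, hq, ?_, .inl rfl, key⟩
  exact
    { toLe0 := h.le0
      hull I a := cd I a ▸ cf I a
      trace I a u x := (old I u x.2).1 (cd I a ▸ x.1)
      tight I L L' a x y _ z _ u w := by
        rw [cd I a] at w
        rcases (hcl I u).1 w.2 with c | ⟨rfl, c⟩
        · exact z ⟨w.1, c⟩
        · exact (key L' y).2 (h2 _ _ (h1 _ _ ((key L x).1 w.1) c)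
            fun _ d => ⟨z ⟨d.1.1, d.2⟩, d.1.2⟩)
      rich I ρ _ a _ c := absurd (hp.ri_car a) c
      tagI k v I u _ _ _ c d := absurd (hp.tag_car _ _ d).1 c
      tagB k v ψ u _ _ _ c d := absurd (hp.tag_car _ _ d).1 c }

end Str

end Vale.Agent.P323
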