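import Vale.Agent.P323.Act
import Vale.Agent.P323.Am
import Vale.Agent.P323.Own
import Vale.Agent.P323.Lim
import Vale.Agent.P323.Step

/-! The forcing conditions. -/

namespace Vale.Agent.P323

open Set

def Cond : Type 1 := {p : Str // p.Valid}

namespace Cond

instance : Preorder Cond where
  le p q := Str.Le p.1 q.1
  le_refl p := Str.Le.refl p.2
  le_trans p q r h h' := Str.Le.trans p.2 q.2 r.2 h h'

instance : MulAction G Cond where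
  smul σ p := ⟨p.1.sm σ, p.2.sm σ⟩
  one_smul p := Subtype.ext p.1.sm_one
  mul_smul σ τ p := Subtype.ext (p.1.sm_mul σ τ)

instance : CovariantClass G Cond (· • ·) (· ≤ ·) := ⟨fun σ _ _ h => Str.Le.sm h σ⟩

instance : Nonempty Cond := Str.exists_valid.elim fun p h => ⟨⟨p, h⟩⟩

theorem le_def {p q : Cond} : p ≤ q ↔ Str.Le p.1 q.1 := Iff.rfl

theorem smul_val (σ : G) (p : Cond) : (σ • p).1 = p.1.sm σ := rfl

theorem absorb (p : Cond) (E : Set U) [Small.{0} E] : ∃ q, p ≤ q ∧ E ⊆ q.1.car := by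
  obtain ⟨q, a, b, c⟩ := Str.exists_absorb p.2 E
  exact ⟨⟨q, a⟩, b, c⟩

theorem rich (p : Cond) : ∃ q φ, p ≤ q ∧ φ ∈ q.1.ri ∧ q.1.B φ = p.1.car := by
  obtain ⟨q, φ, a, b, c⟩ := Str.exists_rich p.2
  exact ⟨⟨q, a⟩, φ, b, c⟩

theorem label (p : Cond) {u v : U} (hu : u ∈ p.1.car) (hv : v ∈ p.1.car) (h : u ≠ v) :
    ∃ q o, p ≤ q ∧ q.1.lab u o true ∧ q.1.lab v o false := by
  obtain ⟨q, o, a, b, c⟩ := Str.exists_label p.2 hu hv h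
  exact ⟨⟨q, a⟩, o, b, c⟩

/-- equalizers are flat -/
theorem flat_eq {q r : Cond} {σ τ : G} (h : σ • q ≤ r) (h' : τ • q ≤ r) :
    q.1.Flat {u | u ∈ q.1.car ∧ σ u = τ u} :=
  Str.flat_eq q.2 r.2 (le_def.mp h).toLe0 (le_def.mp h').toLe0

/-- a copy of `q` that meets `q` exactly in the flat `e` -/
theorem exists_copy (q : Cond) {e : Set U} (he : q.1.Flat e) :
    ∃ σ : G, Fixes σ e ∧ (∀ u, u ∈ q.1.car → u ∉ e → σ u ∉ q.1.car) ∧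
      Str.Le (q.1.res e) (σ • q).1 ∧ q.1.car ∩ (σ • q).1.car ⊆ e ∧ (σ • q).1.Flat e := by
  have := q.2.small_car
  have : Small.{0} e := small_subset he.1
  obtain ⟨σ, a, b⟩ := exists_perm e q.1.car q.1.car id (injOn_id e)
  have c : Fixes σ e := fun u x => a x
  have d : (σ • q).1.Flat e := by
    rw [← c.image]; exact (Str.flat_sm σ).mpr he
  refine ⟨σ, c, b, ?_, ?_, d⟩
  · have e1 : q.1.res e = (σ • q).1.res e := by
      have e2 := Str.sm_res q.1 e σ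
      rw [c.image, Str.sm_congr (q.2.res he) (τ := 1) (fun u x => c u x), Str.sm_one] at e2
      exact e2
    rw [e1]; exact Str.res_le (σ • q).2 d
  · rintro _ ⟨x, u, y, rfl⟩
    by_cases z : u ∈ e
    · rwa [c u z]
    · exact absurd x (b u y z)

theorem double (q : Cond) {e : Set U} (he : q.1.Flat e) :
    ∃ (σ : G) (r : Cond), Fixes σ e ∧ q ≤ r ∧ σ • q ≤ r ∧
      ∀ u, u ∈ q.1.car → u ∉ e → σ u ∉ q.1.car := by
  obtain ⟨σ, a, b, c, d, _⟩ := q.exists_copy he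
  obtain ⟨r, r1, r2, r3, _⟩ := Str.exists_am q.2 (σ • q).2 he c d
  exact ⟨σ, ⟨r, r1⟩, a, r2, r3, b⟩

theorem ownA (q : Cond) {φ : U} (hφ : φ ∈ q.1.ri) :
    ∃ (σ : G) (r : Cond), Fixes σ (q.1.B φ) ∧ q ≤ r ∧ σ • q ≤ r ∧
      ∀ u, u ∈ q.1.car → σ u ∈ r.1.B φ := by
  obtain ⟨σ, a, _, c, d, e⟩ := q.exists_copy (q.2.B_flat φ hφ)
  obtain ⟨r, r1, r2, r3, r4⟩ := Str.exists_ownA q.2 (σ • q).2 hφ c d e
  exact ⟨σ, ⟨r, r1⟩, a, r2, r3, fun u x => r4 ⟨u, x, rfl⟩⟩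

theorem ownB (q : Cond) {φ s u : U} (hφ : φ ∈ q.1.ri) (hs : s ∈ q.1.car) (hu : u ∈ q.1.car)
    (hu' : u ∉ q.1.B φ) :
    ∃ (σ : G) (r : Cond), Fixes σ (q.1.B φ) ∧ q ≤ r ∧ σ • q ≤ r ∧ σ u ∉ r.1.B φ ∧
      r.1.Pi φ s (σ u) ∧ σ u ∈ r.1.dcl {φ, s} := by
  obtain ⟨σ, a, b, c, d, e⟩ := q.exists_copy (q.2.B_flat φ hφ)
  obtain ⟨r, r1, r2, r3, r4⟩ := Str.exists_ownB (u := σ u) q.2 (σ • q).2 hφ c d e hs ⟨u, hu, rfl⟩
    fun x => b u hu hu' (q.2.B_car x)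
  exact ⟨σ, ⟨r, r1⟩, a, r2, r3, r4⟩

theorem lim (C : Set Cond) [Small.{0} C] (hne : C.Nonempty) (hc : IsChain (· ≤ ·) C) :
    ∃ r : Cond, (∀ p, p ∈ C → p ≤ r) ∧ ∀ u, u ∈ r.1.car → ∃ p, p ∈ C ∧ u ∈ p.1.car := by
  have hs : Small.{0} (Subtype.val '' C : Set Str) := small_image (fun p : Cond => p.1) C
  obtain ⟨r, r1, r2, r3⟩ := Str.exists_lim (Subtype.val '' C) (hne.image _)
    (by rintro _ ⟨p, _, rfl⟩; exact p.2)
    (by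
      rintro _ _ ⟨p, a, rfl⟩ ⟨q, b, rfl⟩
      exact hc.total a b)
  refine ⟨⟨r, r1⟩, fun p a => r2 _ ⟨p, a, rfl⟩, fun u a => ?_⟩
  obtain ⟨_, ⟨p, b, rfl⟩, c⟩ := r3 u a
  exact ⟨p, b, c⟩

end Cond

/-- the relation `r` forces `σ y = τ y`, abstractly -/
structure ERel where
  R : G → G → Cond → Prop
  refl : ∀ σ r, R σ σ r
  symm : ∀ σ τ r, R σ τ r → R τ σ r
  trans : ∀ σ τ ρ r, R σ τ r → R τ ρ r → R σ ρ r
  mono : ∀ σ τ r r', R σ τ r → r ≤ r' → R σ τ r'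
  reg : ∀ σ τ r, (∀ r', r ≤ r' → ∃ r'', r' ≤ r'' ∧ R σ τ r'') → R σ τ r
  equi : ∀ σ τ ρ r, R σ τ r → R (ρ * σ) (ρ * τ) (ρ • r)
  supp : ∃ E : Set U, Small.{0} E ∧ ∀ σ r, Fixes σ E → R σ 1 r

namespace ERel

/-- `J` supports the object above `q` -/
def Sp (y : ERel) (q : Cond) (J : Set U) : Prop :=
  ∀ σ r, Fixes σ J → q ≤ r → σ • q ≤ r → y.R σ 1 r

/-- the marked atom `γ` is the least support -/
def LS (y : ERel) (q : Cond) (γ : U) : Prop :=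
  γ ∈ q.1.ma ∧ y.Sp q {γ} ∧ ∀ q' J, q ≤ q' → q'.1.Flat J → y.Sp q' J → γ ∈ J

variable {y : ERel} {q q' : Cond} {J J' : Set U}

theorem Sp.mono (h : y.Sp q J) (hq : q ≤ q') (hJ : J ⊆ J') : y.Sp q' J' :=
  fun σ r a b c => h σ r (fun u x => a u (hJ x)) (hq.trans b)
    (le_trans (Str.Le.sm (Cond.le_def.mp hq) σ) c)

theorem Sp.two (h : y.Sp q J) {σ τ : G} {r : Cond} (he : EqOn σ τ J) (h1 : σ • q ≤ r)
    (h2 : τ • q ≤ r) : y.R σ τ r := by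
  have a : τ⁻¹ • τ • q ≤ τ⁻¹ • r := Str.Le.sm (Cond.le_def.mp h2) τ⁻¹
  have b : τ⁻¹ • σ • q ≤ τ⁻¹ • r := Str.Le.sm (Cond.le_def.mp h1) τ⁻¹
  rw [inv_smul_smul] at a
  rw [← mul_smul] at b
  have c := y.equi _ _ τ _ (h (τ⁻¹ * σ) _ (fun u x => by
    rw [Equiv.Perm.mul_apply, he x]; exact τ.symm_apply_apply u) a b)
  rwa [mul_inv_cancel_left, mul_one, smul_inv_smul] at c

end ERel

end Vale.Agent.P323
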