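import Mathlib

/-! Small structures with a lattice of flats: the forcing conditions. -/

namespace Vale.Agent.P323

open Set

/-- atoms, indices and fresh labels -/
abbrev U : Type 1 := Ordinal.{0}

abbrev G : Type 1 := Equiv.Perm U

/-- `A` lists the allowed agreement sets, `N` is an ideal of null sets of indices -/
structure Code where
  A : Set (Set U)
  N : Set (Set U)
  ix : U
  A_inter : ∀ S T, S ∈ A → T ∈ A → S ∩ T ∈ A
  N_empty : ∅ ∈ N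
  N_union : ∀ S T, S ∈ N → T ∈ N → S ∪ T ∈ N
  N_sub : ∀ S T, S ∈ N → T ⊆ S → T ∈ N

/-- a partially defined map from indices to atoms -/
@[ext] structure Tup where
  r : U → U → Prop
  fn : ∀ i u v, r i u → r i v → u = v

namespace Tup

def pre (t : Tup) (L : Set U) : Set U := {i | ∃ u, u ∈ L ∧ t.r i u}
def agr (t t' : Tup) : Set U := {i | ∃ u, t.r i u ∧ t'.r i u}
def Sub (t t' : Tup) : Prop := ∀ i u, t.r i u → t'.r i u
def res (t : Tup) (e : Set U) : Tup :=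
  ⟨fun i u => t.r i u ∧ u ∈ e, fun i u v h h' => t.fn i u v h.1 h'.1⟩
def sm (σ : G) (t : Tup) : Tup :=
  ⟨fun i u => t.r i (σ⁻¹ u), fun i _ _ h h' => σ⁻¹.injective (t.fn i _ _ h h')⟩
def idOn (S : Set U) : Tup := ⟨fun i u => u = i ∧ i ∈ S, fun _ _ _ h h' => h.1.trans h'.1.symm⟩

end Tup

/-- watches: germ watches `g k v` and cone watches `c φ s` -/
inductive Wa : Type 1
  | g (k : Code) (v : U)
  | c (φ s : U)

namespace Wa

def head : Wa → U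
  | g _ v => v
  | c φ _ => φ

def In : Wa → Set U → Prop
  | g _ v, e => v ∈ e
  | c φ s, e => φ ∈ e ∧ s ∈ e

def sm (σ : G) : Wa → Wa
  | g k v => g k (σ v)
  | c φ s => c (σ φ) (σ s)

end Wa

@[ext] structure Str where
  car : Set U
  fa : Code → Tup → Prop
  ri : Set U
  ma : Set U
  B : U → Set U
  tag : Wa → U → Prop
  lab : U → U → Bool → Prop

namespace Str

def Flat (p : Str) (L : Set U) : Prop := L ⊆ p.car ∧ ∀ k t, p.fa k t → t.pre L ∈ k.A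

def dcl (p : Str) (I : Set U) : Set U := {u | ∀ L, p.Flat L → I ⊆ L → u ∈ L}

def act (p : Str) (k : Code) (v : U) : Prop := ∃ t i, p.fa k t ∧ t.r i v

def own (p : Str) (w : Wa) (t : U) : Prop := p.tag w t ∨ ∃ k, w = .g k t ∧ p.act k t

def leak (p : Str) (k : Code) (t : Tup) (L : Set U) : Set U :=
  {i | ∃ v, t.r i v ∧ v ∉ L ∧ ∃ u, u ∈ L ∧ p.tag (.g k v) u}

structure Valid (p : Str) : Prop where
  small_car : Small.{0} p.car
  small_fa : Small.{0} {o : U | ∃ k t, p.fa k t ∧ k.ix = o}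
  small_lab : Small.{0} {o : U | ∃ u b, p.lab u o b}
  fa_car : ∀ k t i u, p.fa k t → t.r i u → u ∈ p.car
  ri_car : p.ri ⊆ p.car
  ma_car : p.ma ⊆ p.car
  B_ri : ∀ ψ u, u ∈ p.B ψ → ψ ∈ p.ri
  tag_car : ∀ w u, p.tag w u → u ∈ p.car ∧ w.In p.car
  tag_act : ∀ k v u, p.tag (.g k v) u → p.act k v
  lab_car : ∀ u o b, p.lab u o b → u ∈ p.car
  agr : ∀ k t t', p.fa k t → p.fa k t' → t.agr t' ∈ k.A
  B_flat : ∀ ψ, ψ ∈ p.ri → p.Flat (p.B ψ)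
  B_irr : ∀ ψ, ψ ∉ p.B ψ
  B_dcl : ∀ ψ L, p.Flat L → ψ ∈ L → p.B ψ ⊆ L
  germ : ∀ k t L, p.fa k t → p.Flat L → p.leak k t L ∈ k.N
  cone : ∀ φ s u L, p.Flat L → p.tag (.c φ s) u → φ ∈ L → u ∈ L → s ∈ L
  own_null : ∀ ψ k t, ψ ∈ p.ri → p.fa k t → {i | ∃ v, t.r i v ∧ p.own (.g k v) ψ} ∈ k.N
  head_B : ∀ ψ w, p.tag w ψ → w.head ∉ p.B ψ
  ma_eq : ∀ u v, u ∈ p.ma → v ∈ p.ma → (∀ L, p.Flat L → (u ∈ L ↔ v ∈ L)) → u = v
  lab_con : ∀ u o, p.lab u o true → p.lab u o false → False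

/-- the new atom `u` of `q` can only enter a hull or a base through `t` -/
def IU (p q : Str) (u t : U) : Prop :=
  (∀ I, p.Flat I → u ∈ q.dcl I → t ∈ I) ∧ ∀ ψ, ψ ∈ p.ri → u ∈ q.B ψ → t = ψ ∨ t ∈ p.B ψ

/-- the new atoms of `q` that lie under the atom `t` of `p` -/
def Under (p q : Str) (t : U) : Set U :=
  {u | u ∈ q.car ∧ u ∉ p.car ∧ (∀ w, p.own w t → q.tag w u) ∧ IU p q u t}

/-- `ρ` is neutralised over `t` -/
def Neu (q : Str) (t ρ : U) : Prop :=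
  ∀ L, q.Flat L → t ∈ L → (∀ φ s, q.tag (.c φ s) ρ → φ ∈ L → s ∈ L) → ρ ∈ L

/-- the elementary part of the order -/
structure Le0 (p q : Str) : Prop where
  car : p.car ⊆ q.car
  fa : ∀ k t, p.fa k t → ∃ t', q.fa k t' ∧ t.Sub t'
  ri : ∀ u, u ∈ p.car → (u ∈ q.ri ↔ u ∈ p.ri)
  ma : ∀ u, u ∈ p.car → (u ∈ q.ma ↔ u ∈ p.ma)
  B : ∀ ψ u, ψ ∈ p.ri → u ∈ p.car → (u ∈ q.B ψ ↔ u ∈ p.B ψ)
  tag : ∀ w u, p.tag w u → q.tag w u
  frozen : ∀ k v u, p.act k v → u ∈ p.car → q.tag (.g k v) u → p.tag (.g k v) u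
  lab : ∀ u o b, p.lab u o b → q.lab u o b
  cov : ∀ k t' E, q.fa k t' → (∀ i, i ∈ E → ∃ v, t'.r i v ∧ p.act k v) →
    (∀ t, p.fa k t → E ∩ t.agr t' ∈ k.N) → E ∈ k.N

/-- `q` extends `p` -/
structure Le (p q : Str) : Prop extends Le0 p q where
  hull : ∀ I, p.Flat I → q.Flat (q.dcl I)
  trace : ∀ I, p.Flat I → q.dcl I ∩ p.car ⊆ I
  tight : ∀ I L L', p.Flat I → q.Flat L → q.Flat L' → L' ⊆ L → L ∩ I ⊆ L' →
    (∀ t, t ∈ p.ri → t ∈ I → t ∉ L → L ∩ Under p q t ⊆ L') → L ∩ q.dcl I ⊆ L'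
  rich : ∀ I ρ, p.Flat I → ρ ∈ q.ri → ρ ∈ q.dcl I → ρ ∉ p.car →
    ∃ t, t ∈ p.ri ∧ t ∈ I ∧ ρ ∈ Under p q t ∧ Neu q t ρ
  tagI : ∀ k v I u, p.act k v → p.Flat I → u ∈ q.dcl I → u ∉ p.car → q.tag (.g k v) u →
    ∃ t, t ∈ I ∧ p.own (.g k v) t
  tagB : ∀ k v ψ u, p.act k v → ψ ∈ p.ri → u ∈ q.B ψ → u ∉ p.car → q.tag (.g k v) u →
    ∃ t, (t = ψ ∨ t ∈ p.B ψ) ∧ p.own (.g k v) t

/-- restriction to a flat -/
def res (p : Str) (e : Set U) : Str where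
  car := e
  fa k t := ∃ t0, p.fa k t0 ∧ t = t0.res e
  ri := p.ri ∩ e
  ma := p.ma ∩ e
  B ψ := {u | ψ ∈ e ∧ u ∈ p.B ψ}
  tag w u := p.tag w u ∧ w.In e ∧ u ∈ e
  lab u o b := p.lab u o b ∧ u ∈ e

/-- transport along a permutation of the atoms -/
def sm (σ : G) (p : Str) : Str where
  car := σ '' p.car
  fa k t := p.fa k (t.sm σ⁻¹)
  ri := σ '' p.ri
  ma := σ '' p.ma
  B ψ := σ '' p.B (σ⁻¹ ψ)
  tag w u := p.tag (w.sm σ⁻¹) (σ⁻¹ u)
  lab u o b := p.lab (σ⁻¹ u) o b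

end Str

/-- the reserved code: the atoms at the indices `0` and `2` determine the atom at `1` -/
def k0 : Code where
  A := {S | 0 ∈ S → 2 ∈ S → 1 ∈ S}
  N := univ
  ix := 0
  A_inter _ _ h h' a b := ⟨h a.1 b.1, h' a.2 b.2⟩
  N_empty := trivial
  N_union _ _ _ _ := trivial
  N_sub _ _ _ _ := trivial

def Str.Pi (p : Str) (φ s u : U) : Prop := ∃ t, p.fa k0 t ∧ t.r 0 φ ∧ t.r 1 s ∧ t.r 2 u

/-- a code all of whose index sets are null -/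
def bigCode (A : Set (Set U)) (h : ∀ S T, S ∈ A → T ∈ A → S ∩ T ∈ A) (o : U) : Code where
  A := A
  N := univ
  ix := o
  A_inter := h
  N_empty := trivial
  N_union _ _ _ _ := trivial
  N_sub _ _ _ _ := trivial

/-- `σ` fixes `E` pointwise -/
def Fixes (σ : G) (E : Set U) : Prop := ∀ u, u ∈ E → σ u = u

end Vale.Agent.P323
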