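import Vale.Agent.P323.Frc

/-! A countable generic model (Henkin construction). -/

namespace Vale.Agent.P323

namespace GenX

def code : Fm → ℕ
  | .mem i j => Nat.pair 0 (Nat.pair i j)
  | .eq i j => Nat.pair 1 (Nat.pair i j)
  | .fal => Nat.pair 2 0
  | .imp a b => Nat.pair 3 (Nat.pair (code a) (code b))
  | .all a => Nat.pair 4 (code a)

theorem code_inj : ∀ a b : Fm, code a = code b → a = b := by
  intro a
  induction a with
  | mem i j => intro b h; cases b <;> simp_all [code, Nat.pair_eq_pair]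
  | eq i j => intro b h; cases b <;> simp_all [code, Nat.pair_eq_pair]
  | fal => intro b h; cases b <;> simp_all [code, Nat.pair_eq_pair]
  | imp a a' ih ih' =>
    intro b h
    cases b <;> simp only [code, Nat.pair_eq_pair] at h
    case imp b b' => rw [ih b h.2.1, ih' b' h.2.2]
    all_goals exact absurd h.1 (by decide)
  | all a ih =>
    intro b h
    cases b <;> simp only [code, Nat.pair_eq_pair] at h
    case all b => rw [ih b h.2]
    all_goals exact absurd h.1 (by decide)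

theorem countable_fm : Countable Fm := ⟨⟨code, code_inj⟩⟩

def bd : Fm → ℕ
  | .mem i j => max i j + 1
  | .eq i j => max i j + 1
  | .fal => 0
  | .imp a b => max (bd a) (bd b)
  | .all a => bd a

variable {P : Type 1} [Preorder P] [MulAction G P]

theorem cons_agree {M : Type*} {x : M} {e e' : ℕ → M} {n : ℕ} (h : ∀ i < n, e i = e' i) :
    ∀ i < n, cons x e i = cons x e' i := by
  intro i hi
  cases i with
  | zero => rfl
  | succ i => exact h i (by omega)

theorem coin (a : Fm) {e e' : ℕ → Nm P} {p : P} (h : ∀ i < bd a, e i = e' i) :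
    Frc a e p ↔ Frc a e' p := by
  induction a generalizing e e' p with
  | mem i j =>
    rw [frc_mem, frc_mem, h i (by simp only [bd]; omega), h j (by simp only [bd]; omega)]
  | eq i j =>
    rw [frc_eq, frc_eq, h i (by simp only [bd]; omega), h j (by simp only [bd]; omega)]
  | fal => exact Iff.rfl
  | imp a b iha ihb =>
    exact forall_congr' fun r => imp_congr Iff.rfl (imp_congr
      (iha fun i hi => h i (lt_of_lt_of_le hi (le_max_left _ _)))
      (ihb fun i hi => h i (lt_of_lt_of_le hi (le_max_right _ _))))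
  | all a ih => exact forall_congr' fun x => imp_congr Iff.rfl (ih (cons_agree h))

theorem coin_not (a : Fm) {e e' : ℕ → Nm P} {p : P} (h : ∀ i < bd a, e i = e' i) :
    Frc a.not e p ↔ Frc a.not e' p :=
  coin _ fun i hi => h i (by simpa [Fm.not, bd] using hi)

abbrev St (P : Type 1) [Preorder P] [MulAction G P] : Type 2 :=
  {s : P × (ℕ → Nm P) // ∀ i, HS (s.2 i)}

theorem step_ex (n : ℕ) (a : Fm) (env : ℕ → Nm P) (s : St P) :
    ∃ s' : St P, s.1.1 ≤ s'.1.1 ∧ (∀ i ≤ n, s'.1.2 i = s.1.2 i) ∧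
      (Frc a env s'.1.1 ∨ Frc a.not env s'.1.1) ∧
      (Frc a.all env s'.1.1 ∨ Frc a.not (cons (s'.1.2 (n + 1)) env) s'.1.1) := by
  have h1 : ∃ c, s.1.1 ≤ c ∧ (Frc a env c ∨ Frc a.not env c) := by
    by_cases h : ∃ c, s.1.1 ≤ c ∧ Frc a env c
    · obtain ⟨c, h, h'⟩ := h
      exact ⟨c, h, Or.inl h'⟩
    · exact ⟨_, le_rfl, Or.inr fun c h1 h2 => h ⟨c, h1, h2⟩⟩
  obtain ⟨c, hc, hd⟩ := h1
  by_cases h : ∃ r, c ≤ r ∧ ∃ x, HS x ∧ Frc a.not (cons x env) r
  · obtain ⟨r, hr, x, hx, hf⟩ := h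
    refine ⟨⟨(r, Function.update s.1.2 (n + 1) x), fun i => ?_⟩, hc.trans hr, fun i hi => ?_,
      hd.imp (fun h => h.mono hr) fun h => h.mono hr, Or.inr ?_⟩
    · by_cases hi : i = n + 1
      · subst hi; simpa using hx
      · simpa [Function.update_of_ne hi] using s.2 i
    · exact Function.update_of_ne (by omega) _ _
    · simpa using hf
  · refine ⟨⟨(c, s.1.2), s.2⟩, hc, fun _ _ => rfl, hd, Or.inl fun x hx => Frc.reg ?_⟩
    intro r hr
    by_contra hn
    exact h ⟨r, hr, x, hx, fun t h1 h2 => hn ⟨t, h1, h2⟩⟩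

theorem generic (P : Type 1) [Preorder P] [MulAction G P]
    [CovariantClass G P (· • ·) (· ≤ ·)] [Nonempty P] :
    ∃ (c : ℕ → P) (nm : ℕ → Nm P), Monotone c ∧ (∀ i, HS (nm i)) ∧
      ∀ (a : Fm) (ρ : ℕ → ℕ), ∃ n, (Frc a (nm ∘ ρ) (c n) ∨ Frc a.not (nm ∘ ρ) (c n)) ∧
        (Frc a.all (nm ∘ ρ) (c n) ∨ ∃ k, Frc a.not (cons (nm k) (nm ∘ ρ)) (c n)) := by
  haveI := countable_fm
  haveI : Nonempty Fm := ⟨.fal⟩
  obtain ⟨f, hf⟩ := exists_surjective_nat (Fm × List ℕ)
  choose nx h1 h2 h3 h4 using fun (n : ℕ) (s : St P) =>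
    step_ex n (f n.unpair.1).1 (fun i => s.1.2 ((f n.unpair.1).2.getD i 0)) s
  let s0 : St P := ⟨(Classical.arbitrary P, fun _ => chk 0), fun _ => hs_chk 0⟩
  let s : ℕ → St P := fun n => Nat.rec s0 nx n
  have hs : ∀ n, s (n + 1) = nx n (s n) := fun _ => rfl
  have stab : ∀ i n, i ≤ n → (s n).1.2 i = (s i).1.2 i := by
    intro i n h
    induction n, h using Nat.le_induction with
    | base => rfl
    | succ n h ih => rw [hs, h2 n (s n) i h, ih]
  refine ⟨fun n => (s n).1.1, fun i => (s i).1.2 i,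
    monotone_nat_of_le_succ fun n => h1 n (s n), fun i => (s i).2 i, fun a ρ => ?_⟩
  obtain ⟨m, hm⟩ := hf (a, (List.range (bd a)).map ρ)
  let n := Nat.pair m (∑ i ∈ Finset.range (bd a), ρ i)
  have hn : f n.unpair.1 = (a, (List.range (bd a)).map ρ) := by
    simp only [n, Nat.unpair_pair, hm]
  have ag : ∀ i < bd a, (s n).1.2 ((f n.unpair.1).2.getD i 0)
      = ((fun i => (s i).1.2 i) ∘ ρ) i := by
    intro i hi
    have e1 : (f n.unpair.1).2.getD i 0 = ρ i := by
      rw [hn]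
      simp [List.getD_eq_getElem?_getD, hi]
    rw [e1]
    refine stab _ _ (le_trans ?_ (Nat.right_le_pair _ _))
    exact Finset.single_le_sum (f := ρ) (fun _ _ => Nat.zero_le _) (Finset.mem_range.2 hi)
  have a3 := h3 n (s n)
  have a4 := h4 n (s n)
  have e2 : (f n.unpair.1).1 = a := by rw [hn]
  rw [e2] at a3 a4
  refine ⟨n + 1, a3.imp (coin a ag).1 (coin_not a ag).1,
    a4.imp (coin a.all ag).1 fun h => ⟨n + 1, (coin_not a (cons_agree ag)).1 h⟩⟩

end GenX

open GenX in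
theorem exists_model (P : Type 1) [Preorder P] [MulAction G P]
    [CovariantClass G P (· • ·) (· ≤ ·)] [Nonempty P] :
    ∃ (M : Type) (E : M → M → Prop), Nonempty M ∧ Transfer P E := by
  obtain ⟨c, nm, hc, hs, hg⟩ := generic P
  have l1 : ∀ n m, c n ≤ c (max n m) := fun n m => hc (le_max_left _ _)
  have l2 : ∀ n m, c m ≤ c (max n m) := fun n m => hc (le_max_right _ _)
  let S : Setoid ℕ := ⟨fun i j => ∃ n, Eqv (nm i) (nm j) (c n),
    ⟨fun i => ⟨0, Eqv.refl _ _⟩, fun ⟨n, h⟩ => ⟨n, h.symm⟩,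
      fun ⟨n, h⟩ ⟨m, h'⟩ => ⟨max n m, (h.mono (l1 n m)).trans (h'.mono (l2 n m))⟩⟩⟩
  let mk : ℕ → Quotient S := Quotient.mk S
  have hmk : ∀ i j, mk i = mk j ↔ ∃ n, Eqv (nm i) (nm j) (c n) := fun i j => Quotient.eq
  let E : Quotient S → Quotient S → Prop := fun a b =>
    ∃ i j n, a = mk i ∧ b = mk j ∧ Mem (nm i) (nm j) (c n)
  have hE : ∀ i j, E (mk i) (mk j) ↔ ∃ n, Mem (nm i) (nm j) (c n) := by
    intro i j
    constructor
    · rintro ⟨i', j', n, h1, h2, h3⟩
      obtain ⟨n1, h1⟩ := (hmk _ _).1 h1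
      obtain ⟨n2, h2⟩ := (hmk _ _).1 h2
      exact ⟨max n (max n1 n2), (h3.mono (l1 _ _)).congr
        (h1.mono ((l1 n1 n2).trans (l2 _ _))).symm (h2.mono ((l2 n1 n2).trans (l2 _ _))).symm⟩
    · rintro ⟨n, h⟩
      exact ⟨i, j, n, rfl, rfl, h⟩
  have cc : ∀ {M : Type 2} (g : ℕ → M) (k : ℕ) (ρ : ℕ → ℕ),
      g ∘ cons k ρ = cons (g k) (g ∘ ρ) := by
    intro M g k ρ; funext i; cases i <;> rfl
  have cm : ∀ (k : ℕ) (ρ : ℕ → ℕ), mk ∘ cons k ρ = cons (mk k) (mk ∘ ρ) := by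
    intro k ρ; funext i; cases i <;> rfl
  have truth : ∀ (a : Fm) (ρ : ℕ → ℕ), Sat E a (mk ∘ ρ) ↔ ∃ n, Frc a (nm ∘ ρ) (c n) := by
    intro a
    induction a with
    | mem i j => exact fun ρ => hE _ _
    | eq i j => exact fun ρ => hmk _ _
    | fal => exact fun ρ => ⟨fun h => h.elim, fun ⟨_, h⟩ => h⟩
    | imp a b iha ihb =>
      intro ρ
      constructor
      · intro h
        obtain ⟨n, h1 | h1, _⟩ := hg a ρ
        · obtain ⟨m, h2⟩ := (ihb ρ).1 (h ((iha ρ).2 ⟨n, h1⟩))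
          exact ⟨m, fun r hr _ => h2.mono hr⟩
        · exact ⟨n, fun r hr h2 => (h1 r hr h2).elim⟩
      · rintro ⟨n, h⟩ h1
        obtain ⟨m, h2⟩ := (iha ρ).1 h1
        exact (ihb ρ).2 ⟨max n m, h _ (l1 n m) (h2.mono (l2 n m))⟩
    | all a ih =>
      intro ρ
      constructor
      · intro h
        obtain ⟨n, _, h1 | ⟨k, h1⟩⟩ := hg a ρ
        · exact ⟨n, h1⟩
        · have h2 := h (mk k)
          rw [← cm] at h2
          obtain ⟨m, h3⟩ := (ih _).1 h2
          rw [cc] at h3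
          exact (h1 _ (l1 n m) (h3.mono (l2 n m))).elim
      · rintro ⟨n, h⟩ x
        obtain ⟨k, rfl⟩ := Quotient.exists_rep x
        show Sat E a (cons (mk k) (mk ∘ ρ))
        rw [← cm]
        exact (ih _).2 ⟨n, by rw [cc]; exact h _ (hs k)⟩
  refine ⟨Quotient S, E, ⟨mk 0⟩, fun a ha env => ?_⟩
  have e1 : env = mk ∘ fun i => (env i).out := by
    funext i
    exact (Quotient.out_eq _).symm
  rw [e1]
  exact (truth a _).2 ⟨0, ha _ _ fun i => hs _⟩

end Vale.Agent.P323
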