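import Vale.Agent.P323.Frc

/-! Ordered pairs of names and the external forms of PP and of the failure of AC. -/

namespace Vale.Agent.P323

variable {P : Type 1}

/-- name of the unordered pair -/
def up (a b : Nm P) : Nm P :=
  Nm.of (ULift.{1} Bool) (fun i => cond i.down a b) fun _ _ => True

/-- name of the Kuratowski pair -/
def op (a b : Nm P) : Nm P := up (up a a) (up a b)

variable [Preorder P]

/-- the pair of `a` and `b` is forced into `f` -/
def Ap (f a b : Nm P) (p : P) : Prop := Mem (op a b) f p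

theorem mem_up {z a b : Nm P} {p : P} :
    Mem z (up a b) p ↔ Dns p fun r => Eqv z a r ∨ Eqv z b r := by
  refine (mem_of_mono fun _ _ _ _ _ => trivial).trans ⟨fun h => h.imp ?_, fun h => h.imp ?_⟩
  · rintro r _ ⟨⟨i⟩, _, h⟩
    cases i
    · exact Or.inr h
    · exact Or.inl h
  · rintro r _ (h | h)
    · exact ⟨⟨true⟩, trivial, h⟩
    · exact ⟨⟨false⟩, trivial, h⟩

theorem mem_up_self {z a : Nm P} {p : P} : Mem z (up a a) p ↔ Eqv z a p :=
  mem_up.trans ⟨fun h => Eqv.reg (h.imp fun _ _ b => b.elim id id),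
    fun h => Dns.of_mono fun _ b => Or.inl (h.mono b)⟩

theorem up_congr {a a' b b' : Nm P} {p : P} (h : Eqv a a' p) (h' : Eqv b b' p) :
    Eqv (up a b) (up a' b') p := by
  have k : ∀ (i : ULift.{1} Bool) r, p ≤ r → Eqv (cond i.down a b) (cond i.down a' b') r := by
    rintro ⟨i⟩ r hr
    cases i
    · exact h'.mono hr
    · exact h.mono hr
  exact ⟨fun i r c d => ⟨r, le_rfl, i, d, k i.1.2 r c⟩, fun i r c d => ⟨r, le_rfl, i, d, k i.1.2 r c⟩⟩

theorem up_left {a b c d : Nm P} {p : P} (h : Eqv (up a b) (up c d) p) :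
    Dns p fun r => Eqv a c r ∨ Eqv a d r :=
  mem_up.1 ((mem_up.2 (Dns.of_mono fun _ _ => Or.inl (Eqv.refl _ _))).congr (Eqv.refl _ _) h)

theorem up_right {a b c d : Nm P} {p : P} (h : Eqv (up a b) (up c d) p) :
    Dns p fun r => Eqv b c r ∨ Eqv b d r :=
  mem_up.1 ((mem_up.2 (Dns.of_mono fun _ _ => Or.inr (Eqv.refl _ _))).congr (Eqv.refl _ _) h)

theorem up_cancel {a a' b b' : Nm P} {p : P} (h : Eqv (up a b) (up a' b') p) (ha : Eqv a a' p) :
    Eqv b b' p := by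
  refine Eqv.reg fun r hr => ?_
  obtain ⟨s, h1, h2 | h2⟩ := up_right h r hr
  · obtain ⟨t, h3, h4 | h4⟩ := up_right h.symm s (hr.trans h1)
    · exact ⟨t, h1.trans h3, (h2.mono h3).trans
        ((ha.mono (hr.trans (h1.trans h3))).symm.trans h4.symm)⟩
    · exact ⟨t, h1.trans h3, h4.symm⟩
  · exact ⟨s, h1, h2⟩

theorem op_congr {a a' b b' : Nm P} {p : P} (h : Eqv a a' p) (h' : Eqv b b' p) :
    Eqv (op a b) (op a' b') p := up_congr (up_congr h h) (up_congr h h')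

theorem op_inj {a a' b b' : Nm P} {p : P} (h : Eqv (op a b) (op a' b') p) :
    Eqv a a' p ∧ Eqv b b' p := by
  have ha : Eqv a a' p := by
    refine Eqv.reg fun r hr => ?_
    obtain ⟨s, h1, h2 | h2⟩ := up_left h r hr
    · obtain ⟨t, h3, h4⟩ := up_left h2.symm s le_rfl
      exact ⟨t, h1.trans h3, (h4.elim id id).symm⟩
    · obtain ⟨t, h3, h4⟩ := up_left h2.symm s le_rfl
      exact ⟨t, h1.trans h3, (h4.elim id id).symm⟩
  exact ⟨ha, up_cancel (up_cancel h (up_congr ha ha)) ha⟩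

theorem Ap.mono {f a b : Nm P} {p p' : P} (h : Ap f a b p) (h' : p ≤ p') : Ap f a b p' :=
  Mem.mono h h'

theorem Ap.congr {f f' a a' b b' : Nm P} {p : P} (h : Ap f a b p) (hf : Eqv f f' p)
    (ha : Eqv a a' p) (hb : Eqv b b' p) : Ap f' a' b' p := Mem.congr h (op_congr ha hb) hf

variable [MulAction G P]

/-- `p` forces that `f` is a function from `X` to `Y` -/
structure FnAt (f X Y : Nm P) (p : P) : Prop where
  sub : ∀ z p', HS z → p ≤ p' → Mem z f p' → ∃ p'', p' ≤ p'' ∧ ∃ a b, HS a ∧ HS b ∧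
    Mem a X p'' ∧ Mem b Y p'' ∧ Eqv z (op a b) p''
  tot : ∀ a p', HS a → p ≤ p' → Mem a X p' → ∃ p'', p' ≤ p'' ∧ ∃ b, HS b ∧ Ap f a b p''
  fn : ∀ a b b' p', HS a → HS b → HS b' → p ≤ p' → Ap f a b p' → Ap f a b' p' → Eqv b b' p'

def ExtPP (P : Type 1) [Preorder P] [MulAction G P] : Prop :=
  ∀ (X Y f : Nm P) (p : P), HS X → HS Y → HS f → FnAt f X Y p →
    (∀ b p', HS b → p ≤ p' → Mem b Y p' → ∃ p'', p' ≤ p'' ∧ ∃ a, HS a ∧ Ap f a b p'') →
    ∃ q, p ≤ q ∧ ∃ j, HS j ∧ FnAt j Y X q ∧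
      ∀ b b' a q', HS b → HS b' → HS a → q ≤ q' → Ap j b a q' → Ap j b' a q' → Eqv b b' q'

def ExtNAC (P : Type 1) [Preorder P] [MulAction G P] : Prop :=
  ∃ X : Nm P, HS X ∧
    (∀ z p, HS z → Mem z X p → ∃ p', p ≤ p' ∧ ∃ w, HS w ∧ Mem w z p') ∧
    ∀ c Y p, HS c → HS Y → FnAt c X Y p →
      ¬ ∀ z w p', HS z → HS w → p ≤ p' → Ap c z w p' → Mem w z p'

variable [CovariantClass G P (· • ·) (· ≤ ·)]

omit [CovariantClass G P (· • ·) (· ≤ ·)] in
theorem up_sm (a b : Nm P) (σ : G) (p : P) : Eqv (up (a.sm σ) (b.sm σ)) ((up a b).sm σ) p := by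
  have k : ∀ (i : ULift.{1} Bool) r,
      Eqv (cond i.down (a.sm σ) (b.sm σ)) ((cond i.down a b).sm σ) r := by
    rintro ⟨i⟩ r
    cases i <;> exact Eqv.refl _ _
  exact ⟨fun i r _ _ => ⟨r, le_rfl, ⟨(σ⁻¹ • r, i.1.2), trivial⟩, (smul_inv_smul σ r).le, k i.1.2 r⟩,
    fun i r _ _ => ⟨r, le_rfl, ⟨(r, i.1.2), trivial⟩, le_rfl, k i.1.2 r⟩⟩

theorem op_sm (a b : Nm P) (σ : G) (p : P) : Eqv (op (a.sm σ) (b.sm σ)) ((op a b).sm σ) p :=
  (up_congr (up_sm a a σ p) (up_sm a b σ p)).trans (up_sm _ _ σ p)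

theorem hs_up {a b : Nm P} (ha : HS a) (hb : HS b) : HS (up a b) := by
  obtain ⟨F, hF, hs⟩ := exists_sup (cons a fun _ => b) (hs_cons ha fun _ => hb)
  refine hs_of (E := F) ?_ hF ?_
  · rintro ⟨i⟩
    cases i
    · exact hb
    · exact ha
  · rintro σ hσ r ⟨i⟩ _
    refine ⟨⟨i⟩, trivial, fun p => ?_⟩
    cases i
    · exact (hs 1 σ hσ p).symm
    · exact (hs 0 σ hσ p).symm

theorem hs_op {a b : Nm P} (ha : HS a) (hb : HS b) : HS (op a b) :=
  hs_up (hs_up ha ha) (hs_up ha hb)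

theorem Ap.sm {f a b : Nm P} {p : P} (h : Ap f a b p) (σ : G) :
    Ap (f.sm σ) (a.sm σ) (b.sm σ) (σ • p) :=
  Mem.congr (Mem.sm h σ) (op_sm a b σ _).symm (Eqv.refl _ _)

/-- a forced value of a function lies in the domain and in the codomain -/
theorem FnAt.mem {f X Y a b : Nm P} {p p' : P} (h : FnAt f X Y p) (ha : HS a) (hb : HS b)
    (h' : p ≤ p') (hab : Ap f a b p') : Mem a X p' ∧ Mem b Y p' := by
  have k : Dns p' fun r => Mem a X r ∧ Mem b Y r := by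
    intro r hr
    obtain ⟨s, h1, a', b', _, _, h2, h3, h4⟩ :=
      h.sub _ r (hs_op ha hb) (h'.trans hr) (Mem.mono hab hr)
    obtain ⟨h5, h6⟩ := op_inj h4
    exact ⟨s, h1, h2.congr h5.symm (Eqv.refl _ _), h3.congr h6.symm (Eqv.refl _ _)⟩
  exact ⟨Mem.reg (k.imp fun _ _ c => c.1), Mem.reg (k.imp fun _ _ c => c.2)⟩

namespace PairX

def isS (w a : ℕ) : Fm := .all (.iff (.mem 0 (w + 1)) (.eq 0 (a + 1)))

def isU (w a b : ℕ) : Fm :=
  .all (.iff (.mem 0 (w + 1)) (.or (.eq 0 (a + 1)) (.eq 0 (b + 1))))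

def isOP (z a b : ℕ) : Fm :=
  .all (.iff (.mem 0 (z + 1)) (.or (isS 0 (a + 1)) (isU 0 (a + 1) (b + 1))))

def app (f a b : ℕ) : Fm := .ex (.and (.mem 0 (f + 1)) (isOP 0 (a + 1) (b + 1)))

def isFn (f X Y : ℕ) : Fm :=
  .and (.all (.imp (.mem 0 (f + 1))
      (.ex (.ex (.and (.mem 1 (X + 2 + 1)) (.and (.mem 0 (Y + 2 + 1)) (isOP 2 1 0)))))))
    (.and (.all (.imp (.mem 0 (X + 1)) (.ex (app (f + 1 + 1) 1 0))))
      (.all (.all (.all (.imp (app (f + 2 + 1) 2 1) (.imp (app (f + 2 + 1) 2 0) (.eq 1 0)))))))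

section

variable {M : Type} {E : M → M → Prop} {e : ℕ → M}

theorem sat_isOP {z a b : ℕ} : Sat E (isOP z a b) e ↔ IsOP E (e z) (e a) (e b) := by
  simp only [isOP, isS, isU, IsOP, sat_all, sat_iff, sat_or, sat_mem, sat_eq, cons_zero,
    cons_succ]

theorem sat_app {f a b : ℕ} : Sat E (app f a b) e ↔ App E (e f) (e a) (e b) := by
  simp only [app, App, sat_ex, sat_and, sat_mem, sat_isOP, cons_zero, cons_succ]

theorem sat_isFn {f X Y : ℕ} : Sat E (isFn f X Y) e ↔ IsFn E (e f) (e X) (e Y) := by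
  simp only [isFn, IsFn, sat_ex, sat_and, sat_all, sat_imp, sat_mem, sat_eq, sat_isOP, sat_app,
    cons_zero, cons_succ]

end

variable {e : ℕ → Nm P} {p : P}

omit [CovariantClass G P (· • ·) (· ≤ ·)] in
theorem ext_iff {w u : Nm P} (hw : HS w) (hu : HS u) :
    (∀ z, HS z → ∀ p', p ≤ p' → (Mem z w p' ↔ Mem z u p')) ↔ Eqv w u p :=
  ⟨eqv_of_ext hw hu, fun h _ _ _ a => ⟨fun b => b.congr (Eqv.refl _ _) (h.mono a),
    fun b => b.congr (Eqv.refl _ _) (h.mono a).symm⟩⟩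

theorem frc_isS (he : ∀ i, HS (e i)) {w a : ℕ} :
    Frc (isS w a) e p ↔ Eqv (e w) (up (e a) (e a)) p := by
  rw [← ext_iff (he w) (hs_up (he a) (he a))]
  simp only [isS, frc_all, frc_iff, frc_mem, frc_eq, cons_zero, cons_succ, mem_up_self]

theorem frc_isU (he : ∀ i, HS (e i)) {w a b : ℕ} :
    Frc (isU w a b) e p ↔ Eqv (e w) (up (e a) (e b)) p := by
  rw [← ext_iff (he w) (hs_up (he a) (he b))]
  simp only [isU, frc_all, frc_iff, frc_or, frc_mem, frc_eq, cons_zero, cons_succ, mem_up]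

theorem frc_isOP (he : ∀ i, HS (e i)) {z a b : ℕ} :
    Frc (isOP z a b) e p ↔ Eqv (e z) (op (e a) (e b)) p := by
  rw [← ext_iff (he z) (hs_op (he a) (he b))]
  refine forall_congr' fun x => imp_congr_right fun hx => ?_
  simp only [frc_iff, frc_or, frc_mem, frc_isS (hs_cons hx he), frc_isU (hs_cons hx he),
    cons_zero, cons_succ, op, mem_up]

theorem frc_app (he : ∀ i, HS (e i)) {f a b : ℕ} :
    Frc (app f a b) e p ↔ Ap (e f) (e a) (e b) p := by
  rw [app, frc_ex]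
  constructor
  · intro h
    refine Mem.reg (h.imp fun r _ ⟨x, hx, h1⟩ => ?_)
    obtain ⟨h2, h3⟩ := frc_and.1 h1
    exact Mem.congr h2 ((frc_isOP (hs_cons hx he)).1 h3) (Eqv.refl _ _)
  · intro h
    have hx := hs_op (he a) (he b)
    exact Dns.of_mono fun r hr => ⟨_, hx, frc_and.2 ⟨Mem.mono h hr,
      (frc_isOP (hs_cons hx he)).2 (Eqv.refl _ _)⟩⟩

theorem frc_isFn (he : ∀ i, HS (e i)) {f X Y : ℕ} :
    Frc (isFn f X Y) e p ↔ FnAt (e f) (e X) (e Y) p := by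
  rw [isFn, frc_and, frc_and]
  constructor
  · rintro ⟨h1, h2, h3⟩
    refine ⟨fun z r hz hr hm => ?_, fun a r ha hr hm => ?_,
      fun a b b' r ha hb hb' hr h4 h5 => ?_⟩
    · obtain ⟨s, h4, a, ha, h5⟩ := frc_ex.1 (h1 z hz r hr hm) r le_rfl
      obtain ⟨t, h6, b, hb, h7⟩ := frc_ex.1 h5 s le_rfl
      rw [frc_and, frc_and, frc_isOP (hs_cons hb (hs_cons ha (hs_cons hz he)))] at h7
      exact ⟨t, h4.trans h6, a, b, ha, hb, h7.1, h7.2.1, h7.2.2⟩
    · obtain ⟨s, h4, b, hb, h5⟩ := frc_ex.1 (h2 a ha r hr hm) r le_rfl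
      exact ⟨s, h4, b, hb, (frc_app (hs_cons hb (hs_cons ha he))).1 h5⟩
    · have hh := hs_cons hb' (hs_cons hb (hs_cons ha he))
      exact h3 a ha b hb b' hb' r hr ((frc_app hh).2 h4) r le_rfl ((frc_app hh).2 h5)
  · intro h
    refine ⟨fun z hz r hr hm => frc_ex.2 fun s hs => ?_, fun a ha r hr hm => frc_ex.2 fun s hs => ?_,
      fun a ha b hb b' hb' r hr h4 s hs h5 => ?_⟩
    · obtain ⟨t, h1, a, b, ha, hb, h2, h3, h4⟩ := h.sub z s hz (hr.trans hs) (Mem.mono hm hs)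
      refine ⟨t, h1, a, ha, frc_ex.2 (Dns.of_mono fun u hu => ⟨b, hb, ?_⟩)⟩
      rw [frc_and, frc_and, frc_isOP (hs_cons hb (hs_cons ha (hs_cons hz he)))]
      exact ⟨Mem.mono h2 hu, Mem.mono h3 hu, Eqv.mono h4 hu⟩
    · obtain ⟨t, h1, b, hb, h2⟩ := h.tot a s ha (hr.trans hs) (Mem.mono hm hs)
      exact ⟨t, h1, b, hb, (frc_app (hs_cons hb (hs_cons ha he))).2 h2⟩
    · have hh := hs_cons hb' (hs_cons hb (hs_cons ha he))
      exact h.fn a b b' s ha hb hb' (hr.trans hs) (((frc_app hh).1 h4).mono hs)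
        ((frc_app hh).1 h5)

end PairX

open PairX

variable {M : Type} {E : M → M → Prop}

theorem pp_of (h : Transfer P E) (hP : ExtPP P) : PP E := by
  intro X Y
  have := h (.imp (.ex (.and (isFn 0 1 2) (.all (.imp (.mem 0 3) (.ex (app 2 0 1))))))
    (.ex (.and (isFn 0 2 1) (.all (.all (.all
      (.imp (app 3 2 0) (.imp (app 3 1 0) (.eq 2 1))))))))) ?_ (cons X fun _ => Y)
  · simp only [sat_ex, sat_and, sat_all, sat_imp, sat_mem, sat_eq, sat_isFn, sat_app,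
      cons_zero, cons_succ] at this
    exact this
  · intro e p he r _ hr
    refine frc_ex.2 fun s hs => ?_
    obtain ⟨t, h1, f, hf, h2⟩ := frc_ex.1 hr s hs
    rw [frc_and, frc_isFn (hs_cons hf he)] at h2
    obtain ⟨q, h3, j, hj, h4, h5⟩ := hP (e 0) (e 1) f t (he 0) (he 1) hf h2.1 (by
      intro b u hb hu hm
      obtain ⟨v, h3, a, ha, h4⟩ := frc_ex.1 (h2.2 b hb u hu hm) u le_rfl
      exact ⟨v, h3, a, ha, (frc_app (hs_cons ha (hs_cons hb (hs_cons hf he)))).1 h4⟩)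
    refine ⟨q, h1.trans h3, j, hj, frc_and.2 ⟨(frc_isFn (hs_cons hj he)).2 h4, ?_⟩⟩
    intro b hb b' hb' a ha u hu h6 v hv h7
    have hh := hs_cons ha (hs_cons hb' (hs_cons hb (hs_cons hj he)))
    exact h5 b b' a v hb hb' ha (hu.trans hv) (((frc_app hh).1 h6).mono hv) ((frc_app hh).1 h7)

theorem nac_of [Nonempty M] (h : Transfer P E) (hP : ExtNAC P) : ¬ AC E := by
  intro hAC
  have := h (.ex (.and (.all (.imp (.mem 0 1) (.ex (.mem 0 1))))
    (.all (.all (.not (.and (isFn 1 2 0) (.all (.all (.imp (app 3 1 0) (.mem 0 1)))))))))) ?_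
    (fun _ => Classical.arbitrary M)
  · simp only [sat_ex, sat_and, sat_all, sat_imp, sat_not, sat_mem, sat_isFn, sat_app,
      cons_zero, cons_succ] at this
    obtain ⟨X, h1, h2⟩ := this
    obtain ⟨c, Y, h3⟩ := hAC X h1
    exact h2 c Y h3
  · intro e p he
    obtain ⟨X, hX, h1, h2⟩ := hP
    refine frc_ex.2 (Dns.of_mono fun r _ => ⟨X, hX, frc_and.2 ⟨?_, ?_⟩⟩)
    · intro z hz s _ hm
      exact frc_ex.2 fun t ht => h1 z t hz (Mem.mono hm ht)
    · intro c hc Y hY s _ h3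
      have hh := hs_cons hY (hs_cons hc (hs_cons hX he))
      rw [frc_and, frc_isFn hh] at h3
      exact h2 c Y s hc hY h3.1 fun z w t hz hw ht h4 =>
        h3.2 z hz w hw t ht ((frc_app (hs_cons hw (hs_cons hz hh))).2 h4)

end Vale.Agent.P323
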