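import Vale.Agent.P323.Cond
import Vale.Agent.P323.Pair

/-! The axiom of choice fails in the symmetric extension. -/

namespace Vale.Agent.P323

open Set

namespace NacX

theorem of_sm {y y' : U → Nm Cond} {S S' : Cond → U → Prop} (σ f : G)
    (hS : ∀ r i, S' (σ • r) (f i) ↔ S r i) (hy : ∀ i p, Eqv (y' (f i)) ((y i).sm σ) p)
    (p : Cond) : Eqv (Nm.of U y' S') ((Nm.of U y S).sm σ) p := by
  refine ⟨fun a r _ b => ?_, fun a r _ b => ?_⟩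
  · refine ⟨r, le_rfl, ⟨(σ⁻¹ • a.1.1, f.symm a.1.2), ?_⟩, ?_, ?_⟩
    · rw [← hS, smul_inv_smul, Equiv.apply_symm_apply]; exact a.2
    · show σ • σ⁻¹ • a.1.1 ≤ r
      rw [smul_inv_smul]; exact b
    · have := hy (f.symm a.1.2) r
      rw [Equiv.apply_symm_apply] at this
      exact this
  · exact ⟨r, le_rfl, ⟨(σ • a.1.1, f a.1.2), (hS _ _).2 a.2⟩, b, hy _ r⟩

noncomputable def atm (u : U) : Nm Cond := Nm.of U chk fun r o => r.1.lab u o true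

noncomputable def zn (a : U) : Nm Cond := Nm.of U atm fun r ψ => ψ ∈ r.1.ri ∧ a ∈ r.1.B ψ

noncomputable def xn : Nm Cond := Nm.of U zn fun r a => a ∈ r.1.car

theorem chk_sm (o : U) (σ : G) (p : Cond) : Eqv (chk o) ((chk o : Nm Cond).sm σ) p :=
  (sup_chk o σ (fun _ h => h.elim) p).symm

theorem atm_sm (u : U) (σ : G) (p : Cond) : Eqv (atm (σ u)) ((atm u).sm σ) p :=
  of_sm σ 1 (fun r _ => Str.lab_sm (p := r.1) σ) (fun o p => chk_sm o σ p) p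

theorem z_iff (σ : G) (r : Cond) (a ψ : U) :
    (σ ψ ∈ (σ • r).1.ri ∧ σ a ∈ (σ • r).1.B (σ ψ)) ↔ (ψ ∈ r.1.ri ∧ a ∈ r.1.B ψ) := by
  rw [Cond.smul_val, Str.B_sm, mem_img]
  exact and_congr mem_img Iff.rfl

theorem zn_sm (a : U) (σ : G) (p : Cond) : Eqv (zn (σ a)) ((zn a).sm σ) p :=
  of_sm σ σ (fun r ψ => z_iff σ r a ψ) (fun u p => atm_sm u σ p) p

theorem hs_atm (u : U) : HS (atm u) :=
  ⟨⟨{u}, inferInstance, fun σ h p => by
    have := atm_sm u σ p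
    rw [h u rfl] at this
    exact this.symm⟩, fun _ => hs_chk _⟩

theorem hs_zn (a : U) : HS (zn a) :=
  ⟨⟨{a}, inferInstance, fun σ h p => by
    have := zn_sm a σ p
    rw [h a rfl] at this
    exact this.symm⟩, fun _ => hs_atm _⟩

theorem hs_xn : HS xn :=
  ⟨⟨∅, inferInstance, fun σ _ p =>
    (of_sm (S := fun r a => a ∈ r.1.car) (S' := fun r a => a ∈ r.1.car) σ σ
      (fun _ _ => mem_img) (fun u p => zn_sm u σ p) p).symm⟩, fun _ => hs_zn _⟩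

theorem mem_atm {z : Nm Cond} {u : U} {p : Cond} :
    Mem z (atm u) p ↔ Dns p fun r => ∃ o, r.1.lab u o true ∧ Eqv z (chk o) r :=
  mem_of_mono (S := fun (r : Cond) o => r.1.lab u o true)
    fun _ _ _ h a => (Cond.le_def.mp h).lab _ _ _ a

theorem mem_zn {z : Nm Cond} {a : U} {p : Cond} :
    Mem z (zn a) p ↔ Dns p fun r => ∃ ψ, (ψ ∈ r.1.ri ∧ a ∈ r.1.B ψ) ∧ Eqv z (atm ψ) r :=
  mem_of_mono (S := fun (r : Cond) ψ => ψ ∈ r.1.ri ∧ a ∈ r.1.B ψ) fun r _ _ h a =>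
    ⟨(Cond.le_def.mp h).toLe0.ri_mono r.2 a.1, (Cond.le_def.mp h).toLe0.B_mono r.2 a.2⟩

theorem mem_xn {z : Nm Cond} {p : Cond} :
    Mem z xn p ↔ Dns p fun r => ∃ a, a ∈ r.1.car ∧ Eqv z (zn a) r :=
  mem_of_mono (S := fun (r : Cond) a => a ∈ r.1.car) fun _ _ _ h a => (Cond.le_def.mp h).car a

end NacX

open NacX in
theorem extNAC : ExtNAC Cond := by
  refine ⟨xn, hs_xn, fun z p _ hz => ?_, fun c Y p hc _ hf hall => ?_⟩
  · obtain ⟨r, h1, a, h2, h3⟩ := mem_xn.1 hz p le_rfl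
    obtain ⟨q, φ, h4, h5, h6⟩ := r.rich
    refine ⟨q, h1.trans h4, atm φ, hs_atm φ, Mem.congr ?_ (Eqv.refl _ _) (h3.mono h4).symm⟩
    refine mem_zn.2 (Dns.of_mono fun s hs => ⟨φ, ⟨?_, ?_⟩, Eqv.refl _ _⟩)
    · exact (Cond.le_def.mp hs).toLe0.ri_mono q.2 h5
    · exact (Cond.le_def.mp hs).toLe0.B_mono q.2 (h6 ▸ h2)
  · obtain ⟨E, hE, hs⟩ := hc.sup
    obtain ⟨p1, a1, b1⟩ := p.absorb E
    obtain ⟨p2, φ, a2, b2, c2⟩ := p1.rich
    have m1 : Mem (zn φ) xn p2 := mem_xn.2 (Dns.of_mono fun s h =>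
      ⟨φ, (Cond.le_def.mp h).car (p2.2.ri_car b2), Eqv.refl _ _⟩)
    obtain ⟨p3, a3, b, hb, hab⟩ := hf.tot _ p2 (hs_zn φ) (a1.trans a2) m1
    have hp3 : p ≤ p3 := (a1.trans a2).trans a3
    obtain ⟨q, a4, ψ, ⟨hψ, hφ⟩, hbψ⟩ := mem_zn.1 (hall _ _ p3 (hs_zn φ) hb hp3 hab) p3 le_rfl
    have fl := q.2.B_flat ψ hψ
    have hEB : E ⊆ q.1.B ψ := fun u hu => q.2.B_dcl φ _ fl hφ
      ((Cond.le_def.mp (a3.trans a4)).toLe0.B_mono p2.2 (c2 ▸ b1 hu))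
    obtain ⟨σ, r, f1, r1, r2, r3⟩ := q.double fl
    have hψc : ψ ∈ q.1.car := q.2.ri_car hψ
    have hne : ψ ≠ σ ψ := fun h => r3 ψ hψc (q.2.B_irr ψ) (h ▸ hψc)
    have ap1 : Ap c (zn φ) (atm ψ) q := (hab.mono a4).congr (Eqv.refl _ _) (Eqv.refl _ _) hbψ
    have ap2 : Ap c (zn φ) (atm (σ ψ)) r := by
      refine ((ap1.sm σ).mono r2).congr (hs σ (fun u hu => f1 u (hEB hu)) r) ?_
        (atm_sm ψ σ r).symm
      have := zn_sm φ σ r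
      rw [f1 φ hφ] at this
      exact this.symm
    have he : Eqv (atm ψ) (atm (σ ψ)) r := hf.fn _ _ _ r (hs_zn φ) (hs_atm _) (hs_atm _)
      ((hp3.trans a4).trans r1) (ap1.mono r1) ap2
    obtain ⟨s, o, s1, l1, l2⟩ := r.label ((Cond.le_def.mp r1).car hψc)
      ((Cond.le_def.mp r2).car ⟨ψ, hψc, rfl⟩) hne
    have m2 : Mem (chk o) (atm ψ) s := mem_atm.2 (Dns.of_mono fun t h =>
      ⟨o, (Cond.le_def.mp h).lab _ _ _ l1, Eqv.refl _ _⟩)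
    obtain ⟨t, t1, o', l3, e⟩ := mem_atm.1 (m2.congr (Eqv.refl _ _) (he.mono s1)) s le_rfl
    rw [← chk_inj e] at l3
    exact t.2.lab_con _ _ l3 ((Cond.le_def.mp t1).lab _ _ _ l2)

end Vale.Agent.P323
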