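import Vale.Agent.P323.ZFx

/-! The axioms of extensionality, foundation, pairing, union, infinity. -/

namespace Vale.Agent.P323

variable {P : Type 1} [Preorder P] [MulAction G P] [CovariantClass G P (· • ·) (· ≤ ·)]
  {M : Type} {E : M → M → Prop}

theorem zf_ext (h : Transfer P E) : ∀ a b, (∀ x, E x a ↔ E x b) → a = b := by
  intro a b hab
  have := h (.imp (.all (.iff (.mem 0 1) (.mem 0 2))) (.eq 0 1))
    (fun e p he r _ hr => eqv_of_ext (he 0) (he 1) fun z hz s hs => frc_iff.1 (hr z hz) s hs)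
    (cons a fun _ => b)
  exact this fun x => sat_iff.2 (hab x)

omit [CovariantClass G P (· • ·) (· ≤ ·)] in
theorem found_aux (a x : Nm P) (hx : HS x) (p : P) (h : Mem x a p) :
    ∃ p', p ≤ p' ∧ ∃ x', HS x' ∧ Mem x' a p' ∧
      ∀ y p'', HS y → p' ≤ p'' → Mem y x' p'' → ¬ Mem y a p'' := by
  induction x generalizing p with
  | mk ι q x ih =>
    by_cases hn : ∀ y p'', HS y → p ≤ p'' → Mem y (.mk ι q x) p'' → ¬ Mem y a p''
    · exact ⟨p, le_rfl, _, hx, h, hn⟩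
    · simp only [not_forall, not_not] at hn
      obtain ⟨y, r, _, h2, h3, h4⟩ := hn
      obtain ⟨s, h5, j, _, h7⟩ := h3 r le_rfl
      obtain ⟨t, h8, k⟩ := ih j (hx.2 j) s ((h4.mono h5).congr h7 (Eqv.refl _ _))
      exact ⟨t, h2.trans (h5.trans h8), k⟩

theorem zf_found (h : Transfer P E) :
    ∀ a, (∃ x, E x a) → ∃ x, E x a ∧ ∀ y, E y x → ¬ E y a := by
  intro a ha
  have := h (.imp (.ex (.mem 0 1))
    (.ex (.and (.mem 0 1) (.all (.imp (.mem 0 1) (.not (.mem 0 2))))))) ?_ (fun _ => a)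
  · simp only [sat_imp, sat_ex, sat_and, sat_all, sat_not, sat_mem, cons_zero, cons_succ] at this
    exact this ha
  · intro e p _ r _ hr
    rw [frc_ex] at hr ⊢
    intro s hs
    obtain ⟨t, h1, x, hx, h2⟩ := hr s hs
    obtain ⟨u, h3, x', h4, h5, h6⟩ := found_aux (e 0) x hx t h2
    refine ⟨u, h1.trans h3, x', h4, frc_and.2 ⟨h5, fun y hy v hv h7 w hw h8 => ?_⟩⟩
    exact h6 y w hy (hv.trans hw) (Mem.mono h7 hw) h8

theorem zf_pair (h : Transfer P E) : ∀ a b, ∃ c, ∀ x, E x c ↔ x = a ∨ x = b := by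
  intro a b
  have := h (.ex (.all (.iff (.mem 0 1) (.or (.eq 0 2) (.eq 0 3))))) ?_ (cons a fun _ => b)
  · simp only [sat_ex, sat_all, sat_iff, sat_or, sat_mem, sat_eq, cons_zero, cons_succ] at this
    exact this
  · intro e p he
    obtain ⟨F, hF, hs⟩ := exists_sup e he
    obtain ⟨c, hc, k⟩ := comp_name (ι := ULift.{1} ℕ) (fun i => e i.down) (fun i => he i.down)
      (fun z r => Eqv z (e 0) r ∨ Eqv z (e 1) r) hF
      (fun z r r' a b => a.imp (fun a => a.mono b) fun a => a.mono b)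
      (fun z z' r a b => a.imp (fun a => b.symm.trans a) fun a => b.symm.trans a)
      (fun σ z r a b => b.imp (fun b => (b.sm σ).trans (hs 0 σ a _))
        fun b => (b.sm σ).trans (hs 1 σ a _))
    have k2 := k p fun z r _ _ a => ⟨r, le_rfl, a.elim (fun a => ⟨⟨0⟩, a⟩) fun a => ⟨⟨1⟩, a⟩⟩
    refine frc_ex.2 (Dns.of_mono fun r hr => ⟨c, hc, fun z hz => frc_iff.2 fun s hs => ?_⟩)
    rw [frc_or]
    exact k2 z s hz (hr.trans hs)

theorem zf_union (h : Transfer P E) : ∀ a, ∃ c, ∀ x, E x c ↔ ∃ y, E y a ∧ E x y := by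
  intro a
  have := h (.ex (.all (.iff (.mem 0 1) (.ex (.and (.mem 0 3) (.mem 1 0)))))) ?_ (fun _ => a)
  · simp only [sat_ex, sat_all, sat_iff, sat_and, sat_mem, cons_zero, cons_succ] at this
    exact this
  · intro e p he
    obtain ⟨F, hF, hs⟩ := (he 0).sup
    obtain ⟨c, hc, k⟩ := comp_name (ι := Σ i : (e 0).ι, ((e 0).el i).ι)
      (fun d => ((e 0).el d.1).el d.2) (fun d => ((he 0).el d.1).el d.2)
      (fun z r => ∃ w, HS w ∧ Mem w (e 0) r ∧ Mem z w r) hF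
      (fun z r r' ⟨w, a, b, c⟩ d => ⟨w, a, b.mono d, c.mono d⟩)
      (fun z z' r ⟨w, a, b, c⟩ d => ⟨w, a, b, c.congr d (Eqv.refl _ _)⟩)
      (fun σ z r d ⟨w, a, b, c⟩ => ⟨w.sm σ, a.sm σ, b.smE hs d, c.sm σ⟩)
    have k2 := k p fun z r _ _ ⟨w, _, b, c⟩ => by
      obtain ⟨s, h1, i, _, h3⟩ := b r le_rfl
      obtain ⟨t, h4, j, _, h6⟩ := ((c.mono h1).congr (Eqv.refl _ _) h3) s le_rfl
      exact ⟨t, h1.trans h4, ⟨i, j⟩, h6⟩
    refine frc_ex.2 (Dns.of_mono fun r hr => ⟨c, hc, fun z hz => frc_iff.2 fun s hs => ?_⟩)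
    refine (k2 z s hz (hr.trans hs)).trans ?_
    rw [frc_ex]
    simp only [frc_and]
    exact Iff.rfl

theorem zf_inf [Nonempty M] (h : Transfer P E) : ∃ w, (∃ z, E z w ∧ ∀ y, ¬ E y z) ∧
    ∀ x, E x w → ∃ s, E s w ∧ ∀ y, E y s ↔ E y x ∨ y = x := by
  have := h (.ex (.and (.ex (.and (.mem 0 1) (.all (.not (.mem 0 1)))))
    (.all (.imp (.mem 0 1) (.ex (.and (.mem 0 2)
      (.all (.iff (.mem 0 1) (.or (.mem 0 2) (.eq 0 2)))))))))) ?_
    (fun _ => Classical.arbitrary M)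
  · simp only [sat_ex, sat_all, sat_iff, sat_and, sat_or, sat_not, sat_imp, sat_mem, sat_eq,
      cons_zero, cons_succ] at this
    exact this
  · intro e p _
    refine frc_ex.2 (Dns.of_mono fun r _ => ⟨chk Ordinal.omega0, hs_chk _, frc_and.2 ⟨?_, ?_⟩⟩)
    · refine frc_ex.2 (Dns.of_mono fun s _ => ⟨chk 0, hs_chk _, frc_and.2
        ⟨chk_mem Ordinal.omega0_pos _, fun y _ t _ ht => ?_⟩⟩)
      obtain ⟨u, _, a, h1, _⟩ := mem_chk.1 ht t le_rfl
      exact absurd h1 (not_lt.2 bot_le)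
    · intro x _ s _ hx
      refine frc_ex.2 (Dns.imp (mem_chk.1 hx) fun t _ ⟨a, h1, h2⟩ => ⟨chk (a + 1), hs_chk _,
        frc_and.2 ⟨chk_mem (Ordinal.isSuccLimit_omega0.add_one_lt h1) _,
          fun y _ => frc_iff.2 fun u hu => ?_⟩⟩)
      rw [frc_or]
      show Mem y (chk (a + 1)) u ↔ Dns u fun v => Mem y x v ∨ Eqv y x v
      have h3 : Eqv x (chk a) u := Eqv.mono h2 hu
      constructor
      · intro h4
        refine Dns.imp (mem_chk.1 h4) fun v hv ⟨b, h5, h6⟩ => ?_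
        rcases (Order.lt_add_one_iff.1 h5).lt_or_eq with h7 | rfl
        · exact Or.inl ((chk_mem h7 v).congr h6.symm (h3.mono hv).symm)
        · exact Or.inr (h6.trans (h3.mono hv).symm)
      · intro h4
        refine Mem.reg (h4.imp fun v hv h5 => ?_)
        rcases h5 with h5 | h5
        · exact mem_chk.2 (Dns.imp (mem_chk.1 (h5.congr (Eqv.refl _ _) (h3.mono hv)))
            fun _ _ ⟨b, h6, h7⟩ => ⟨b, h6.trans (lt_add_one a), h7⟩)
        · exact (chk_mem (lt_add_one a) v).congr (h5.trans (h3.mono hv)).symm (Eqv.refl _ _)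

end Vale.Agent.P323
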