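import Vale.Agent.P323.ZFx

/-! The axioms of power set, separation, replacement. -/

namespace Vale.Agent.P323

variable {P : Type 1} [Preorder P] [MulAction G P] [CovariantClass G P (· • ·) (· ≤ ·)]
  {M : Type} {E : M → M → Prop}

/-- candidate names for subsets of `a` -/
def subN (a : Nm P) (T : Set (P × (G × a.ι))) : Nm P :=
  Nm.of (G × a.ι) (fun d => (a.el d.2).sm d.1) fun r d => (r, d) ∈ T

theorem subN_cover {a x : Nm P} (ha : HS a) (hx : HS x) {r : P}
    (h : ∀ y, HS y → ∀ r', r ≤ r' → Mem y x r' → Mem y a r') :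
    ∃ T, HS (subN a T) ∧ Eqv x (subN a T) r := by
  obtain ⟨F, hF, hs⟩ := hx.sup
  have hT : HS (subN a {d | Mem ((a.el d.2.2).sm d.2.1) x d.1}) := by
    refine hs_of (fun d => (ha.el d.2).sm d.1) hF fun σ hσ s d hd => ⟨(σ * d.1, d.2), ?_, fun p => ?_⟩
    · show Mem ((a.el d.2).sm (σ * d.1)) x (σ • s)
      rw [sm_mul]
      exact Mem.smE hd hs hσ
    · show Eqv ((a.el d.2).sm (σ * d.1)) _ p
      rw [sm_mul]
      exact Eqv.refl _ _
  refine ⟨_, hT, eqv_of_ext hx hT fun w hw s hs => ?_⟩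
  refine Iff.trans ?_ (mem_of_mono
    (S := fun s (d : G × a.ι) => Mem ((a.el d.2).sm d.1) x s)
    fun r r' d a b => Mem.mono b a).symm
  constructor
  · intro h1
    refine Dns.imp (h w hw s hs h1) fun t ht ⟨i, _, h3⟩ => ⟨(1, i), ?_, ?_⟩
    · show Mem ((a.el i).sm 1) x t
      rw [sm_one]
      exact (h1.mono ht).congr h3 (Eqv.refl _ _)
    · show Eqv w ((a.el i).sm 1) t
      rw [sm_one]
      exact h3
  · intro h1
    exact Mem.reg (h1.imp fun t _ ⟨d, h2, h3⟩ => h2.congr h3.symm (Eqv.refl _ _))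

theorem zf_power (h : Transfer P E) : ∀ a, ∃ c, ∀ x, E x c ↔ ∀ y, E y x → E y a := by
  intro a
  have := h (.ex (.all (.iff (.mem 0 1) (.all (.imp (.mem 0 1) (.mem 0 3)))))) ?_ (fun _ => a)
  · simp only [sat_ex, sat_all, sat_iff, sat_imp, sat_mem, cons_zero, cons_succ] at this
    exact this
  · intro e p he
    obtain ⟨F, hF, hs⟩ := (he 0).sup
    obtain ⟨c, hc, k⟩ := comp_name (ι := {T // HS (subN (e 0) T)})
      (fun T => subN (e 0) T.1) (fun T => T.2)
      (fun z r => ∀ y, HS y → ∀ r', r ≤ r' → Mem y z r' → Mem y (e 0) r') hF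
      (fun z r r' a b y hy s hs => a y hy s (b.trans hs))
      (fun z z' r a b y hy s hs c => a y hy s hs (c.congr (Eqv.refl _ _) (b.mono hs).symm))
      (fun σ z r a b y hy s hs' c => by
        have h1 := c.sm σ⁻¹
        rw [← sm_mul, inv_mul_cancel, sm_one] at h1
        have h2 := (b _ (hy.sm σ⁻¹) _ (smul_le_inv hs') h1).smE hs a
        rwa [← sm_mul, mul_inv_cancel, sm_one, smul_inv_smul] at h2)
    have k2 := k p fun z r hz _ a => by
      obtain ⟨T, h1, h2⟩ := subN_cover (he 0) hz a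
      exact ⟨r, le_rfl, ⟨T, h1⟩, h2⟩
    refine frc_ex.2 (Dns.of_mono fun r hr => ⟨c, hc, fun z hz => frc_iff.2 fun s hs => ?_⟩)
    refine (k2 z s hz (hr.trans hs)).trans ⟨fun a => Frc.reg a, fun a => ?_⟩
    exact Dns.of_mono fun t ht => Frc.mono a ht

/-- shift all variables except the first by two -/
def sh2 : ℕ → ℕ
  | 0 => 0
  | n + 1 => n + 3

theorem cons_sh2 {M : Type*} (x b a : M) (e : ℕ → M) :
    cons x (cons b (cons a e)) ∘ sh2 = cons x e := by
  funext n; cases n <;> rfl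

theorem cons_sh2' {M : Type*} (x b : M) (e : ℕ → M) :
    cons x (cons b e) ∘ sh2 = cons x fun i => e (i + 1) := by
  funext n; cases n <;> rfl

theorem zf_sep (h : Transfer P E) (φ : Fm) (e : ℕ → M) (a : M) :
    ∃ b, ∀ x, E x b ↔ E x a ∧ Sat E φ (cons x e) := by
  have := h (.ex (.all (.iff (.mem 0 1) (.and (.mem 0 2) (φ.ren sh2))))) ?_ (cons a e)
  · simp only [sat_ex, sat_all, sat_iff, sat_and, sat_mem, cons_zero, cons_succ, sat_ren,
      cons_sh2] at this
    exact this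
  · intro e p he
    obtain ⟨F, hF, hs⟩ := exists_sup e he
    obtain ⟨c, hc, k⟩ := comp_name (fun i => (e 0).el i) (fun i => (he 0).el i)
      (fun z r => Mem z (e 0) r ∧ Frc φ (cons z fun i => e (i + 1)) r) hF
      (fun z r r' a b => ⟨a.1.mono b, a.2.mono b⟩)
      (fun z z' r a b => ⟨a.1.congr b (Eqv.refl _ _), a.2.congr0 b⟩)
      (fun σ z r a b => ⟨b.1.smE (hs 0) a, b.2.smE (fun i => hs (i + 1)) a⟩)
    have k2 := k p fun z r _ _ a => by
      obtain ⟨s, h1, i, _, h3⟩ := a.1 r le_rfl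
      exact ⟨s, h1, i, h3⟩
    refine frc_ex.2 (Dns.of_mono fun r hr => ⟨c, hc, fun z hz => frc_iff.2 fun s hs => ?_⟩)
    refine (k2 z s hz (hr.trans hs)).trans ?_
    rw [frc_and, frc_ren, cons_sh2']
    exact ⟨fun a => ⟨Mem.reg (a.imp fun _ _ b => b.1), Frc.reg (a.imp fun _ _ b => b.2)⟩,
      fun a => Dns.of_mono fun t ht => ⟨Mem.mono a.1 ht, a.2.mono ht⟩⟩

/-- renaming: the first two variables go to `i`, `j`, the others are shifted -/
def shv (i j k : ℕ) : ℕ → ℕ
  | 0 => i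
  | 1 => j
  | n + 2 => n + k

theorem shvA {M : Type*} (y x : M) (e : ℕ → M) :
    cons y (cons x e) ∘ shv 0 1 3 = cons y (cons x fun i => e (i + 1)) := by
  funext n
  match n with
  | 0 => rfl
  | 1 => rfl
  | _ + 2 => rfl

theorem shvB {M : Type*} (y' y x : M) (e : ℕ → M) :
    cons y' (cons y (cons x e)) ∘ shv 0 2 4 = cons y' (cons x fun i => e (i + 1)) := by
  funext n
  match n with
  | 0 => rfl
  | 1 => rfl
  | _ + 2 => rfl

theorem shvC {M : Type*} (x y b : M) (e : ℕ → M) :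
    cons x (cons y (cons b e)) ∘ shv 1 0 4 = cons y (cons x fun i => e (i + 1)) := by
  funext n
  match n with
  | 0 => rfl
  | 1 => rfl
  | _ + 2 => rfl

theorem zf_repl (h : Transfer P E) (φ : Fm) (e : ℕ → M) (a : M)
    (hu : ∀ x, E x a → ∃! y, Sat E φ (cons y (cons x e))) :
    ∃ b, ∀ y, E y b ↔ ∃ x, E x a ∧ Sat E φ (cons y (cons x e)) := by
  have := h (.imp
    (.all (.imp (.mem 0 1) (.all (.imp (φ.ren (shv 0 1 3))
      (.all (.imp (φ.ren (shv 0 2 4)) (.eq 0 1)))))))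
    (.ex (.all (.iff (.mem 0 1) (.ex (.and (.mem 0 3) (φ.ren (shv 1 0 4)))))))) ?_ (cons a e)
  · simp only [sat_ex, sat_all, sat_iff, sat_and, sat_imp, sat_mem, sat_eq, cons_zero, cons_succ,
      sat_ren, shvA, shvB, shvC] at this
    exact this fun x hx y hy y' hy' => (hu x hx).unique hy' hy
  · intro e p he p0 _ hp
    have un : ∀ x y y' r, HS x → HS y → HS y' → p0 ≤ r → Mem x (e 0) r →
        Frc φ (cons y (cons x fun i => e (i + 1))) r →
        Frc φ (cons y' (cons x fun i => e (i + 1))) r → Eqv y' y r := by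
      intro x y y' r hx hy hy' h1 h2 h3 h4
      refine hp x hx r h1 h2 y hy r le_rfl ?_ y' hy' r le_rfl ?_
      · rw [frc_ren, shvA]; exact h3
      · rw [frc_ren, shvB]; exact h4
    obtain ⟨F, hF, hs⟩ := exists_sup e he
    have ch : ∀ d : P × (e 0).ι, ∃ w, HS w ∧ ∀ w', HS w' →
        Frc φ (cons w' (cons ((e 0).el d.2) fun i => e (i + 1))) d.1 →
        Frc φ (cons w (cons ((e 0).el d.2) fun i => e (i + 1))) d.1 := by
      intro d
      by_cases hd : ∃ w, HS w ∧ Frc φ (cons w (cons ((e 0).el d.2) fun i => e (i + 1))) d.1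
      · obtain ⟨w, h1, h2⟩ := hd
        exact ⟨w, h1, fun _ _ _ => h2⟩
      · exact ⟨chk 0, hs_chk 0, fun w h1 h2 => (hd ⟨w, h1, h2⟩).elim⟩
    choose w hw1 hw2 using ch
    obtain ⟨c, hc, k⟩ := comp_name w hw1
      (fun y r => ∃ x, HS x ∧ Mem x (e 0) r ∧ Frc φ (cons y (cons x fun i => e (i + 1))) r) hF
      (fun z r r' ⟨x, a, b, c⟩ d => ⟨x, a, b.mono d, c.mono d⟩)
      (fun z z' r ⟨x, a, b, c⟩ d => ⟨x, a, b, c.congr0 d⟩)
      (fun σ z r d ⟨x, a, b, c⟩ => ⟨x.sm σ, a.sm σ, b.smE (hs 0) d, (c.sm σ).congr fun i =>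
        match i with
        | 0 => Eqv.refl _ _
        | 1 => Eqv.refl _ _
        | i + 2 => hs (i + 1) σ d _⟩)
    have k2 := k p0 fun y r hy hr ⟨x, _, b, c⟩ => by
      obtain ⟨s, h1, i, h2, h3⟩ := b r le_rfl
      have h4 : Frc φ (cons y (cons ((e 0).el i) fun i => e (i + 1))) s :=
        (c.mono h1).congr fun n =>
          match n with
          | 0 => Eqv.refl _ _
          | 1 => h3
          | _ + 2 => Eqv.refl _ _
      exact ⟨s, h1, (s, i), un _ _ _ s ((he 0).el i) (hw1 _) hy (hr.trans h1) (mem_el _ i h2)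
        (hw2 (s, i) y hy h4) h4⟩
    refine frc_ex.2 (Dns.of_mono fun r hr => ⟨c, hc, fun z hz => frc_iff.2 fun s hs => ?_⟩)
    refine (k2 z s hz (hr.trans hs)).trans ?_
    rw [frc_ex]
    simp only [frc_and, frc_ren, shvC]
    exact Iff.rfl

end Vale.Agent.P323
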