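import Vale.Agent.P323.PPx
import Vale.Agent.P323.NAC
import Vale.Agent.P323.Gen
import Vale.Agent.P323.ZFa
import Vale.Agent.P323.ZFb

/-! A model of ZF with the partition principle and without choice. -/

namespace Vale.Agent.P323

theorem exists_zf_pp_nac : ∃ (M : Type) (E : M → M → Prop), IsZF E ∧ PP E ∧ ¬ AC E := by
  obtain ⟨M, E, hM, h⟩ := exists_model Cond
  exact ⟨M, E, ⟨zf_ext h, zf_found h, zf_pair h, zf_union h, zf_power h, zf_inf h, zf_sep h,
    zf_repl h⟩, pp_of h extPP, nac_of h extNAC⟩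

end Vale.Agent.P323
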