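import Mathlib

/-! First order set theory: formulas, satisfaction, the axioms of ZF, PP and AC. -/

namespace Vale.Agent.P323

/-- formulas of first order logic with equality in the language of one binary relation;
variables are de Bruijn indices -/
inductive Fm : Type
  | mem (i j : ℕ)
  | eq (i j : ℕ)
  | fal
  | imp (a b : Fm)
  | all (a : Fm)

/-- the assignment with value `x` at `0` and `e n` at `n + 1` -/
def cons {M : Type*} (x : M) (e : ℕ → M) : ℕ → M
  | 0 => x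
  | n + 1 => e n

/-- Tarski satisfaction in the structure `(M, E)` -/
def Sat {M : Type} (E : M → M → Prop) : Fm → (ℕ → M) → Prop
  | .mem i j, e => E (e i) (e j)
  | .eq i j, e => e i = e j
  | .fal, _ => False
  | .imp a b, e => Sat E a e → Sat E b e
  | .all a, e => ∀ x, Sat E a (cons x e)

/-- `(M, E)` is a model of ZF -/
structure IsZF {M : Type} (E : M → M → Prop) : Prop where
  ext : ∀ a b, (∀ x, E x a ↔ E x b) → a = b
  found : ∀ a, (∃ x, E x a) → ∃ x, E x a ∧ ∀ y, E y x → ¬ E y a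
  pair : ∀ a b, ∃ c, ∀ x, E x c ↔ x = a ∨ x = b
  union : ∀ a, ∃ c, ∀ x, E x c ↔ ∃ y, E y a ∧ E x y
  power : ∀ a, ∃ c, ∀ x, E x c ↔ ∀ y, E y x → E y a
  inf : ∃ w, (∃ z, E z w ∧ ∀ y, ¬ E y z) ∧
    ∀ x, E x w → ∃ s, E s w ∧ ∀ y, E y s ↔ E y x ∨ y = x
  sep : ∀ (φ : Fm) (e : ℕ → M) (a : M), ∃ b, ∀ x, E x b ↔ E x a ∧ Sat E φ (cons x e)
  repl : ∀ (φ : Fm) (e : ℕ → M) (a : M),
    (∀ x, E x a → ∃! y, Sat E φ (cons y (cons x e))) →
      ∃ b, ∀ y, E y b ↔ ∃ x, E x a ∧ Sat E φ (cons y (cons x e))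

/-- `z` is the Kuratowski pair of `a` and `b` -/
def IsOP {M : Type} (E : M → M → Prop) (z a b : M) : Prop :=
  ∀ w, E w z ↔ (∀ v, E v w ↔ v = a) ∨ (∀ v, E v w ↔ v = a ∨ v = b)

/-- the pair of `a` and `b` is an element of `f` -/
def App {M : Type} (E : M → M → Prop) (f a b : M) : Prop := ∃ z, E z f ∧ IsOP E z a b

/-- `f` is a function from `X` to `Y` -/
def IsFn {M : Type} (E : M → M → Prop) (f X Y : M) : Prop :=
  (∀ z, E z f → ∃ a b, E a X ∧ E b Y ∧ IsOP E z a b) ∧ (∀ a, E a X → ∃ b, App E f a b) ∧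
    ∀ a b b', App E f a b → App E f a b' → b = b'

/-- the Partition Principle -/
def PP {M : Type} (E : M → M → Prop) : Prop :=
  ∀ X Y, (∃ f, IsFn E f X Y ∧ ∀ b, E b Y → ∃ a, App E f a b) →
    ∃ j, IsFn E j Y X ∧ ∀ b b' a, App E j b a → App E j b' a → b = b'

/-- the Axiom of Choice: every family of nonempty sets has a choice function -/
def AC {M : Type} (E : M → M → Prop) : Prop :=
  ∀ X, (∀ z, E z X → ∃ w, E w z) → ∃ c Y, IsFn E c X Y ∧ ∀ z w, App E c z w → E w z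

end Vale.Agent.P323
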