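import Vale.Agent.P323.Nm
import Vale.Agent.P323.Fm

/-! The forcing relation of the symmetric extension. -/

namespace Vale.Agent.P323

namespace Fm

def not (a : Fm) : Fm := .imp a .fal
def and (a b : Fm) : Fm := (a.imp b.not).not
def or (a b : Fm) : Fm := a.not.imp b
def iff (a b : Fm) : Fm := (a.imp b).and (b.imp a)
def ex (a : Fm) : Fm := a.not.all.not

/-- lifting of a renaming under a binder -/
def lift (f : ℕ → ℕ) : ℕ → ℕ
  | 0 => 0
  | n + 1 => f n + 1

def ren : Fm → (ℕ → ℕ) → Fm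
  | .mem i j, f => .mem (f i) (f j)
  | .eq i j, f => .eq (f i) (f j)
  | .fal, _ => .fal
  | .imp a b, f => .imp (a.ren f) (b.ren f)
  | .all a, f => .all (a.ren (lift f))

end Fm

section SatL

variable {M : Type} {E : M → M → Prop} {a b : Fm} {e : ℕ → M}

theorem sat_imp : Sat E (a.imp b) e ↔ (Sat E a e → Sat E b e) := Iff.rfl
theorem sat_all : Sat E a.all e ↔ ∀ x, Sat E a (cons x e) := Iff.rfl
theorem sat_mem {i j : ℕ} : Sat E (.mem i j) e ↔ E (e i) (e j) := Iff.rfl
theorem sat_eq {i j : ℕ} : Sat E (.eq i j) e ↔ e i = e j := Iff.rfl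
theorem sat_not : Sat E a.not e ↔ ¬ Sat E a e := Iff.rfl
theorem sat_and : Sat E (a.and b) e ↔ Sat E a e ∧ Sat E b e := by
  simp only [Fm.and, sat_not, sat_imp]; tauto
theorem sat_or : Sat E (a.or b) e ↔ Sat E a e ∨ Sat E b e := by
  simp only [Fm.or, sat_not, sat_imp]; tauto
theorem sat_iff : Sat E (a.iff b) e ↔ (Sat E a e ↔ Sat E b e) := by
  simp only [Fm.iff, sat_and, sat_imp]; tauto
theorem sat_ex : Sat E a.ex e ↔ ∃ x, Sat E a (cons x e) := by
  simp only [Fm.ex, sat_not, sat_all, not_forall, not_not]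

theorem cons_lift {M : Type*} (x : M) (e : ℕ → M) (f : ℕ → ℕ) :
    cons x e ∘ Fm.lift f = cons x (e ∘ f) := by
  funext n; cases n <;> rfl

theorem sat_ren (a : Fm) (f : ℕ → ℕ) (e : ℕ → M) : Sat E (a.ren f) e ↔ Sat E a (e ∘ f) := by
  induction a generalizing f e with
  | mem i j => exact Iff.rfl
  | eq i j => exact Iff.rfl
  | fal => exact Iff.rfl
  | imp a b iha ihb => exact imp_congr (iha f e) (ihb f e)
  | all a ih => exact forall_congr' fun x => (ih _ _).trans (by rw [cons_lift])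

end SatL

theorem cons_zero {M : Type*} (x : M) (e : ℕ → M) : cons x e 0 = x := rfl
theorem cons_succ {M : Type*} (x : M) (e : ℕ → M) (n : ℕ) : cons x e (n + 1) = e n := rfl

variable {P : Type 1} [Preorder P] [MulAction G P]

def Frc : Fm → (ℕ → Nm P) → P → Prop
  | .mem i j, e, p => Mem (e i) (e j) p
  | .eq i j, e, p => Eqv (e i) (e j) p
  | .fal, _, _ => False
  | .imp a b, e, p => ∀ p', p ≤ p' → Frc a e p' → Frc b e p'
  | .all a, e, p => ∀ x, HS x → Frc a (cons x e) p

variable {a b : Fm} {e : ℕ → Nm P} {p : P}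

theorem hs_cons {x : Nm P} (hx : HS x) (he : ∀ i, HS (e i)) : ∀ i, HS (cons x e i)
  | 0 => hx
  | n + 1 => he n

theorem Frc.mono (h : Frc a e p) {p' : P} (h' : p ≤ p') : Frc a e p' := by
  induction a generalizing e with
  | mem i j => exact Mem.mono h h'
  | eq i j => exact Eqv.mono h h'
  | fal => exact h
  | imp a b _ _ => exact fun r c => h r (h'.trans c)
  | all a ih => exact fun x hx => ih (h x hx)

theorem Frc.reg (h : Dns p (Frc a e)) : Frc a e p := by
  induction a generalizing e p with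
  | mem i j => exact Mem.reg h
  | eq i j => exact Eqv.reg h
  | fal => obtain ⟨_, _, c⟩ := h p le_rfl; exact c
  | imp a b _ ihb =>
    intro r c d
    refine ihb fun s f => ?_
    obtain ⟨t, g, k⟩ := h s (c.trans f)
    exact ⟨t, g, k t le_rfl (d.mono (f.trans g))⟩
  | all a ih => exact fun x hx => ih (h.imp fun _ _ c => c x hx)

theorem Frc.congr {e' : ℕ → Nm P} (h : Frc a e p) (h' : ∀ i, Eqv (e i) (e' i) p) :
    Frc a e' p := by
  induction a generalizing e e' p with
  | mem i j => exact Mem.congr h (h' i) (h' j)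
  | eq i j => exact (h' i).symm.trans (Eqv.trans h (h' j))
  | fal => exact h
  | imp a b iha ihb =>
    exact fun r c d => ihb (h r c (iha d fun i => ((h' i).mono c).symm)) fun i => (h' i).mono c
  | all a ih =>
    refine fun x hx => ih (h x hx) fun i => ?_
    cases i with
    | zero => exact Eqv.refl _ _
    | succ i => exact h' i

theorem frc_ren (a : Fm) (f : ℕ → ℕ) (e : ℕ → Nm P) (p : P) :
    Frc (a.ren f) e p ↔ Frc a (e ∘ f) p := by
  induction a generalizing f e p with
  | mem i j => exact Iff.rfl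
  | eq i j => exact Iff.rfl
  | fal => exact Iff.rfl
  | imp a b iha ihb =>
    exact forall_congr' fun r => imp_congr Iff.rfl (imp_congr (iha f e r) (ihb f e r))
  | all a ih =>
    exact forall_congr' fun x => imp_congr Iff.rfl ((ih _ _ _).trans (by rw [cons_lift]))

theorem frc_mem {i j : ℕ} : Frc (.mem i j) e p ↔ Mem (e i) (e j) p := Iff.rfl
theorem frc_eq {i j : ℕ} : Frc (.eq i j) e p ↔ Eqv (e i) (e j) p := Iff.rfl
theorem frc_imp : Frc (a.imp b) e p ↔ ∀ p', p ≤ p' → Frc a e p' → Frc b e p' := Iff.rfl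
theorem frc_all : Frc a.all e p ↔ ∀ x, HS x → Frc a (cons x e) p := Iff.rfl
theorem frc_not : Frc a.not e p ↔ ∀ p', p ≤ p' → ¬ Frc a e p' := Iff.rfl

theorem frc_nn : Frc a.not.not e p ↔ Dns p (Frc a e) := by
  simp only [frc_not, Dns, not_forall, not_not, exists_prop]

theorem frc_and : Frc (a.and b) e p ↔ Frc a e p ∧ Frc b e p := by
  constructor
  · intro h
    have k : Dns p fun r => Frc a e r ∧ Frc b e r := by
      intro r c
      by_contra hn
      refine h r c fun s d f t g k => hn ⟨t, d.trans g, f.mono g, k⟩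
    exact ⟨Frc.reg (k.imp fun _ _ c => c.1), Frc.reg (k.imp fun _ _ c => c.2)⟩
  · rintro ⟨h1, h2⟩ r c d
    exact d r le_rfl (h1.mono c) r le_rfl (h2.mono c)

theorem frc_or : Frc (a.or b) e p ↔ Dns p fun r => Frc a e r ∨ Frc b e r := by
  constructor
  · intro h r c
    by_cases hn : ∃ s, r ≤ s ∧ Frc a e s
    · obtain ⟨s, d, f⟩ := hn
      exact ⟨s, d, Or.inl f⟩
    · exact ⟨r, le_rfl, Or.inr (h r c fun s d f => hn ⟨s, d, f⟩)⟩
  · intro h r c d
    refine Frc.reg fun s f => ?_
    obtain ⟨t, g, k | k⟩ := h s (c.trans f)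
    · exact (d t (f.trans g) k).elim
    · exact ⟨t, g, k⟩

theorem frc_iff : Frc (a.iff b) e p ↔ ∀ p', p ≤ p' → (Frc a e p' ↔ Frc b e p') :=
  frc_and.trans ⟨fun h r c => ⟨h.1 r c, h.2 r c⟩,
    fun h => ⟨fun r c => (h r c).1, fun r c => (h r c).2⟩⟩

theorem frc_ex : Frc a.ex e p ↔ Dns p fun r => ∃ x, HS x ∧ Frc a (cons x e) r := by
  constructor
  · intro h r c
    by_contra hn
    exact h r c fun x hx s d f => hn ⟨s, d, x, hx, f⟩
  · intro h r c d
    obtain ⟨s, f, x, hx, g⟩ := h r c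
    exact d x hx s f g

theorem Frc.sm [CovariantClass G P (· • ·) (· ≤ ·)] (h : Frc a e p) (σ : G) :
    Frc a (fun i => (e i).sm σ) (σ • p) := by
  induction a generalizing e p σ with
  | mem i j => exact Mem.sm h σ
  | eq i j => exact Eqv.sm h σ
  | fal => exact h
  | imp a b iha ihb =>
    intro r c d
    have h1 := iha d σ⁻¹
    simp only [← sm_mul, inv_mul_cancel, sm_one] at h1
    have h2 := ihb (h _ (smul_le_inv c) h1) σ
    rwa [smul_inv_smul] at h2
  | all a ih =>
    intro x hx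
    have h1 := ih (h _ (hx.sm σ⁻¹)) σ
    have e1 : (fun i => (cons (x.sm σ⁻¹) e i).sm σ) = cons x fun i => (e i).sm σ := by
      funext i
      cases i with
      | zero =>
        show (x.sm σ⁻¹).sm σ = x
        rw [← sm_mul, mul_inv_cancel, sm_one]
      | succ i => rfl
    rwa [e1] at h1

/-- everything that is forced by all conditions holds in `(M, E)` -/
def Transfer (P : Type 1) [Preorder P] [MulAction G P] {M : Type} (E : M → M → Prop) : Prop :=
  ∀ φ : Fm, (∀ (e : ℕ → Nm P) (p : P), (∀ i, HS (e i)) → Frc φ e p) → ∀ env, Sat E φ env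

end Vale.Agent.P323
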