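import Vale.Agent.P323.Am

/-! A free union of two flats lies below a double amalgam. -/

namespace Vale.Agent.P323

open Set

namespace Str

/-- `N` is a side of `F` that lies below `r` -/
def Sd (F r : Str) (I N : Set U) : Prop := F.Flat N ∧ I ⊆ N ∧ Le (F.res N) r

structure Free (F r : Str) (I N1 N2 : Set U) : Prop where
  hF : F.Valid
  hr : r.Valid
  fI : F.Flat I
  s1 : Sd F r I N1
  s2 : Sd F r I N2
  car : F.car ⊆ N1 ∪ N2
  fa : ∀ k t, F.fa k t → ∃ N, Sd F r I N ∧ ∀ i v, t.r i v → v ∈ N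
  tag : ∀ w u, F.tag w u → ∃ N, Sd F r I N ∧ w.In N ∧ u ∈ N
  flat : ∀ P, F.Flat P → r.Flat (P ∪ r.dcl (P ∩ I))
  cross : ∀ k v u, r.tag (.g k v) u → v ∈ F.car → u ∈ F.car → ∃ N, Sd F r I N ∧ v ∈ N ∧ u ∈ N
  iu : ∀ w t u, F.tag w t → t ∈ I → w.head ∉ I → u ∈ r.dcl I → u ∉ I →
    IU (F.res I) r u t → r.tag w u
  B : ∀ ψ, ψ ∈ F.ri → ψ ∉ I → r.B ψ ⊆ r.dcl (F.B ψ)

namespace Free

variable {F r : Str} {I N1 N2 : Set U}

theorem side (h : Free F r I N1 N2) {u : U} (a : u ∈ F.car) : ∃ N, Sd F r I N ∧ u ∈ N :=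
  (h.car a).elim (fun x => ⟨N1, h.s1, x⟩) fun x => ⟨N2, h.s2, x⟩

theorem lI (h : Free F r I N1 N2) : Le (F.res I) r := by
  have a := res_le (h.hF.res h.s1.1) ((flat_res h.s1.1).mpr ⟨h.fI, h.s1.2.1⟩)
  rw [res_res h.s1.2.1] at a
  exact a.trans (h.hF.res h.fI) (h.hF.res h.s1.1) h.hr h.s1.2.2

theorem flI (h : Free F r I N1 N2) {P : Set U} (a : F.Flat P) : (F.res I).Flat (P ∩ I) :=
  (flat_res h.fI).mpr ⟨a.inter h.fI, inter_subset_right⟩

theorem tr (h : Free F r I N1 N2) {P : Set U} (a : F.Flat P) {u : U} (b : u ∈ r.dcl (P ∩ I))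
    (c : u ∈ F.car) : u ∈ P ∩ I := by
  obtain ⟨N, s, x⟩ := h.side c
  exact s.2.2.trace _ ((flat_res s.1).mpr ⟨a.inter h.fI, fun _ y => s.2.1 y.2⟩) ⟨b, x⟩

theorem dcl (h : Free F r I N1 N2) {P : Set U} (a : F.Flat P) :
    r.dcl P = P ∪ r.dcl (P ∩ I) :=
  dcl_eq_of (h.flat P a) subset_union_left fun _ x y =>
    union_subset y (x.dcl_subset (inter_subset_left.trans y))

theorem new_mem (h : Free F r I N1 N2) {P : Set U} (a : F.Flat P) {u : U} (b : u ∈ r.dcl P)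
    (c : u ∉ F.car) : u ∈ r.dcl (P ∩ I) := by
  rw [h.dcl a] at b
  exact b.elim (fun x => absurd (a.1 x) c) id

theorem trace (h : Free F r I N1 N2) {P : Set U} (a : F.Flat P) {u : U} (b : u ∈ r.dcl P)
    (c : u ∈ F.car) : u ∈ P := by
  rw [h.dcl a] at b
  exact b.elim id fun x => (h.tr a x c).1

theorem le0 (h : Free F r I N1 N2) : Le0 F r where
  car u a := by
    obtain ⟨N, s, x⟩ := h.side a
    exact s.2.2.car x
  fa k t a := by
    obtain ⟨N, s, x⟩ := h.fa k t a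
    obtain ⟨t', y, z⟩ := s.2.2.fa k _ ⟨t, a, rfl⟩
    exact ⟨t', y, fun i v m => z i v ⟨m, x i v m⟩⟩
  ri u a := by
    obtain ⟨N, s, x⟩ := h.side a
    exact (s.2.2.ri u x).trans ⟨fun y => y.1, fun y => ⟨y, x⟩⟩
  ma u a := by
    obtain ⟨N, s, x⟩ := h.side a
    exact (s.2.2.ma u x).trans ⟨fun y => y.1, fun y => ⟨y, x⟩⟩
  B ψ u a b := by
    constructor
    · intro c
      by_cases m : ψ ∈ I
      · obtain ⟨N, s, x⟩ := h.side b
        exact ((s.2.2.B ψ u ⟨a, s.2.1 m⟩ x).mp c).2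
      · exact h.trace (h.hF.B_flat ψ a) (h.B ψ a m c) b
    · intro c
      obtain ⟨N, s, x⟩ := h.side (h.hF.ri_car a)
      exact s.2.2.B_mono (h.hF.res s.1) ⟨x, c⟩
  tag w u a := by
    obtain ⟨N, s, x⟩ := h.tag w u a
    exact s.2.2.tag w u ⟨a, x⟩
  frozen k v u a b c := by
    obtain ⟨N, s, x, y⟩ := h.cross k v u c (h.hF.act_car a) b
    exact (s.2.2.frozen k v u (act_res.mpr ⟨a, x⟩) y c).1
  lab u o b a := by
    obtain ⟨N, s, x⟩ := h.side (h.hF.lab_car u o b a)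
    exact s.2.2.lab u o b ⟨a, x⟩
  cov k t' E a b c := by
    have x : ∀ N, Sd F r I N → E ∩ {i | ∃ v, t'.r i v ∧ v ∈ N ∧ F.act k v} ∈ k.N := fun N s => by
      refine s.2.2.cov k t' _ a (fun i ⟨_, v, y, z, z'⟩ => ⟨v, y, act_res.mpr ⟨z', z⟩⟩) ?_
      rintro _ ⟨t, y, rfl⟩
      refine k.N_sub _ _ (c t y) ?_
      rintro i ⟨z, u, z1, z2⟩; exact ⟨z.1, u, z1.1, z2⟩
    refine k.N_sub _ _ (k.N_union _ _ (x N1 h.s1) (x N2 h.s2)) fun i hi => ?_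
    obtain ⟨v, y, z⟩ := b i hi
    exact (h.car (h.hF.act_car z)).imp (fun m => ⟨hi, v, y, m, z⟩) fun m => ⟨hi, v, y, m, z⟩

theorem under (h : Free F r I N1 N2) {t u : U} (ht : t ∈ I) (a : u ∈ Under (F.res I) r t)
    (b : u ∈ r.dcl I) : u ∈ Under F r t := by
  obtain ⟨a1, a2, a3, a4⟩ := a
  have n : u ∉ F.car := fun x => a2 (h.trace h.fI b x)
  have c : ∀ P, F.Flat P → u ∈ r.dcl P → t ∈ P := fun P x y =>
    (a4.1 _ (h.flI x) (h.new_mem x y n)).1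
  refine ⟨a1, n, fun w x => ?_, c, fun ψ x y => ?_⟩
  · by_cases m : w.head ∈ I
    · refine a3 w (own_res.mpr ⟨x, ?_, ht⟩)
      rcases x with x | ⟨k, rfl, _⟩
      · exact h.hF.in_of_head h.fI x m ht
      · exact ht
    · rcases x with x | ⟨k, rfl, _⟩
      · exact h.iu w t u x ht m b a2 a4
      · exact absurd ht m
  · by_cases m : ψ ∈ I
    · exact (a4.2 ψ ⟨x, m⟩ y).imp_right fun z => z.2
    · exact Or.inr (c _ (h.hF.B_flat ψ x) (h.B ψ x m y))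

theorem tagI (h : Free F r I N1 N2) {k : Code} {v u : U} {P : Set U} (a : F.act k v)
    (b : F.Flat P) (c : u ∈ r.dcl P) (n : u ∉ F.car) (x : r.tag (.g k v) u) :
    ∃ t, t ∈ P ∧ F.own (.g k v) t := by
  obtain ⟨N, s, y⟩ := h.side (h.hF.act_car a)
  obtain ⟨t, z, z'⟩ := s.2.2.tagI k v (P ∩ I) u (act_res.mpr ⟨a, y⟩)
    ((flat_res s.1).mpr ⟨b.inter h.fI, fun _ y => s.2.1 y.2⟩) (h.new_mem b c n)
    (fun m => n (s.1.1 m)) x
  exact ⟨t, z.1, (own_res.mp z').1⟩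

theorem le (h : Free F r I N1 N2) : Le F r where
  toLe0 := h.le0
  hull P a := by rw [h.dcl a]; exact h.flat P a
  trace P a u x := h.trace a x.1 x.2
  tight P L L' a b c c' f f' u x := by
    rw [h.dcl a] at x
    rcases x.2 with y | y
    · exact f ⟨x.1, y⟩
    · have he := h.lI.hull _ ((flat_res h.fI).mpr ⟨h.fI, Subset.rfl⟩)
      have s := h.lI.tight _ (L ∩ r.dcl I) (L' ∩ r.dcl I) (h.flI a) (b.inter he) (c.inter he)
        (inter_subset_inter_left _ c') (fun v z => ⟨f ⟨z.1.1, z.2.1⟩, z.1.2⟩)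
        fun t t1 t2 t3 v z => ⟨f' t t1.1 t2.1 (fun m => t3 ⟨m, r.subset_dcl I t2.2⟩)
          ⟨z.1.1, h.under t2.2 z.2 z.1.2⟩, z.1.2⟩
      exact (s ⟨⟨x.1, r.dcl_mono inter_subset_right y⟩, y⟩).1
  rich P ρ a b c n := by
    have c' := h.new_mem a c n
    obtain ⟨t, t1, t2, t3, t4⟩ := h.lI.rich _ ρ (h.flI a) b c' fun m => n (h.fI.1 m)
    exact ⟨t, t1.1, t2.1, h.under t2.2 t3 (r.dcl_mono inter_subset_right c'), t4⟩
  tagI k v P u a b c n x := h.tagI a b c n x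
  tagB k v ψ u a b c n x := by
    by_cases m : ψ ∈ I
    · obtain ⟨N, s, y⟩ := h.side (h.hF.act_car a)
      obtain ⟨t, z, z'⟩ := s.2.2.tagB k v ψ u (act_res.mpr ⟨a, y⟩) ⟨b, s.2.1 m⟩ c
        (fun m => n (s.1.1 m)) x
      exact ⟨t, z.imp_right fun z => z.2, (own_res.mp z').1⟩
    · obtain ⟨t, y, z⟩ := h.tagI a (h.hF.B_flat ψ b) (h.B ψ b m c) n x
      exact ⟨t, Or.inr y, z⟩

end Free

theorem IU.lift {p d : Str} (hp : p.Valid) (hd : d.Valid) (h : Le p d) {I : Set U}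
    (hI : p.Flat I) {u t : U} (a : u ∈ d.dcl I) (b : IU (p.res I) d u t) : IU p d u t := by
  have f : ∀ J, p.Flat J → (p.res I).Flat (J ∩ I) := fun J x =>
    (flat_res hI).mpr ⟨x.inter hI, inter_subset_right⟩
  refine ⟨fun J x y => (b.1 _ (f J x) (h.hull_inter x hI ⟨y, a⟩)).1, fun ψ x y => ?_⟩
  by_cases m : ψ ∈ I
  · exact (b.2 ψ ⟨x, m⟩ y).imp_right fun z => z.2
  · exact Or.inr (b.1 _ (f _ (hp.B_flat ψ x)) (h.B_hull hp hd hI x m ⟨y, a⟩)).1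

theorem IU.anti {p d d' : Str} (hd : d.Valid) (h : Le0 d d') (hc : p.car ⊆ d.car) {u t : U}
    (b : IU p d' u t) : IU p d u t :=
  ⟨fun J x y => b.1 J x (h.dcl_mono hd (x.1.trans hc) y), fun ψ x y => b.2 ψ x (h.B_mono hd y)⟩

/-- an amalgam with all its data -/
structure Amal (q : Str) (e : Set U) (d r : Str) : Prop extends Span q e d, AmSpec q e d r where
  hr : r.Valid
  lq : Le q r
  ld : Le d r

theorem Span.amal {q d : Str} {e : Set U} (h : Span q e d) : ∃ r, Amal q e d r := by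
  obtain ⟨r, a, b, c, x⟩ := exists_am h.hq h.hd h.he h.hle h.cap
  exact ⟨r, h, x, a, b, c⟩

namespace Amal

variable {q d r : Str} {e : Set U}

theorem dcl_d (h : Amal q e d r) {J : Set U} (a : J ⊆ d.car) (b : d.Flat (d.dcl J)) :
    r.dcl J = d.dcl J :=
  ((h.flat_d _ b).dcl_subset (d.subset_dcl J)).antisymm (h.ld.dcl_mono h.hd a)

theorem tag_iu (h : Amal q e d r) {I : Set U} (hI : q.Flat I) (hI' : I ⊆ e) {w : Wa} {t u : U}
    (a : q.tag w t) (b : t ∈ I) (c : w.head ∉ e) (x : u ∈ d.dcl I) (y : u ∉ I)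
    (z : IU (q.res I) d u t) : r.tag w u := by
  have f : (q.res e).Flat I := (flat_res h.he).mpr ⟨hI, hI'⟩
  refine (h.tag w u).mpr (Or.inr (Or.inr ⟨c, fun m => y (h.hle.trace I f ⟨x, m⟩),
    d.dcl_mono hI' x, t, hI' b, a, IU.lift h.hp h.hd h.hle f x ?_⟩))
  rwa [res_res hI']

theorem B_bound (h : Amal q e d r) {ψ : U} (a : ψ ∈ q.ri) (b : ψ ∉ e) :
    r.B ψ ⊆ r.dcl (q.B ψ) := by
  rw [h.B_q ψ a b]
  exact union_subset (r.subset_dcl _) ((h.ld.dcl_mono h.hd fun _ x => h.e_d x.2).trans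
    (r.dcl_mono inter_subset_left))

end Amal

theorem res_eq_B {p q : Str} {N : Set U} (h : p.res N = q.res N) {ψ : U} (a : ψ ∈ N) :
    p.B ψ = q.B ψ := by
  ext u
  have : u ∈ (p.res N).B ψ ↔ u ∈ (q.res N).B ψ := by rw [h]
  exact ⟨fun x => (this.mp ⟨a, x⟩).2, fun x => (this.mpr ⟨a, x⟩).2⟩

theorem res_eq_ri {p q : Str} {N : Set U} (h : p.res N = q.res N) {ψ : U} (a : ψ ∈ N)
    (b : ψ ∈ p.ri) : ψ ∈ q.ri := by
  have : ψ ∈ (q.res N).ri := h ▸ (⟨b, a⟩ : ψ ∈ (p.res N).ri)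
  exact this.1

theorem res_eq_tag {p q : Str} {N : Set U} (h : p.res N = q.res N) {w : Wa} {u : U}
    (a : w.In N) (a' : u ∈ N) (b : p.tag w u) : q.tag w u := by
  have : (q.res N).tag w u := h ▸ (⟨b, a, a'⟩ : (p.res N).tag w u)
  exact this.1

theorem res_eq_flat {p q : Str} {N : Set U} (h : p.res N = q.res N) (hp : p.Flat N)
    (hq : q.Flat N) {L : Set U} (a : p.Flat L) : q.Flat (L ∩ N) := by
  have : (q.res N).Flat (L ∩ N) :=
    h ▸ (flat_res hp).mpr ⟨a.inter hp, inter_subset_right⟩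
  exact ((flat_res hq).mp this).1

theorem res_eq_sub {p q : Str} {N I : Set U} (h : p.res N = q.res N) (a : I ⊆ N) :
    p.res I = q.res I := by
  rw [← res_res (p := p) a, h, res_res a]

theorem le_double {F q1 q2 r0 r1 r2 : Str} {e1 e2 N1 N2 I : Set U} (A1 : Amal q1 e1 r0 r1)
    (A2 : Amal q2 e2 r1 r2) (he : e2 ⊆ r0.car) (hF : F.Valid) (f1 : F.Flat N1) (f2 : F.Flat N2)
    (g1 : q2.Flat N1) (g2 : q1.Flat N2) (E1 : F.res N1 = q2.res N1) (E2 : F.res N2 = q1.res N2)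
    (i0 : N1 ∩ N2 = I) (i1 : N1 ∩ e2 = I) (i2 : N2 ∩ e1 = I) (car : F.car ⊆ N1 ∪ N2)
    (fa : ∀ k t, F.fa k t → (∀ i v, t.r i v → v ∈ N1) ∨ ∀ i v, t.r i v → v ∈ N2)
    (tag : ∀ w u, F.tag w u → (w.In N1 ∧ u ∈ N1) ∨ (w.In N2 ∧ u ∈ N2)) : Le F r2 := by
  have I1 : I ⊆ N1 := i0 ▸ inter_subset_left
  have I2 : I ⊆ N2 := i0 ▸ inter_subset_right
  have J1 : I ⊆ e1 := i2 ▸ inter_subset_right
  have J2 : I ⊆ e2 := i1 ▸ inter_subset_right
  have fI : F.Flat I := i0 ▸ f1.inter f2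
  have s1 : Sd F r2 I N1 := ⟨f1, I1, E1 ▸ (res_le A2.hq g1).trans (A2.hq.res g1) A2.hq A2.hr A2.lq⟩
  have s2 : Sd F r2 I N2 := ⟨f2, I2, E2 ▸ (res_le A1.hq g2).trans (A1.hq.res g2) A1.hq A2.hr
    (A1.lq.trans A1.hq A1.hr A2.hr A2.ld)⟩
  have ma : ∀ u, u ∈ N2 → u ∈ r0.car → u ∈ I := fun u x y => i2 ▸ ⟨x, A1.mem (g2.1 x) y⟩
  have mb : ∀ u, u ∈ N1 → u ∈ r1.car → u ∈ I := fun u x y => i1 ▸ ⟨x, A2.mem (g1.1 x) y⟩
  have mc : ∀ u, u ∈ N2 → u ∈ q2.car → u ∈ I := fun u x y =>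
    ma u x (he (A2.mem y (A1.lq.car (g2.1 x))))
  have d0 : r1.dcl e2 ⊆ r0.car := (A1.flat_d _ A1.hd.flat_car).dcl_subset he
  have key : ∀ P, F.Flat P → r0.Flat (r0.dcl (P ∩ I)) ∧ r1.dcl (P ∩ I) = r0.dcl (P ∩ I) ∧
      r2.dcl (P ∩ I) = r0.dcl (P ∩ I) := fun P a => by
    have x : r0.Flat (r0.dcl (P ∩ I)) := by
      have := A1.hle.hull _ (A1.flat_p (res_eq_flat E2 f2 g2 a))
      rwa [inter_assoc, i2] at this
    have y : P ∩ I ⊆ r0.car := fun _ m => A1.e_d (J1 m.2)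
    have z := A1.dcl_d y x
    refine ⟨x, z, ?_⟩
    rw [← z]
    exact A2.dcl_d (y.trans A1.ld.car) (z ▸ A1.flat_d _ x)
  refine Free.le (I := I) (N1 := N1) (N2 := N2) ⟨hF, A2.hr, fI, s1, s2, car,
    fun k t a => (fa k t a).elim (fun x => ⟨N1, s1, x⟩) fun x => ⟨N2, s2, x⟩,
    fun w u a => (tag w u a).elim (fun x => ⟨N1, s1, x⟩) fun x => ⟨N2, s2, x⟩,
    fun P a => ?_, fun k v u a b c => ?_, fun w t u a b c x y z => ?_, fun ψ a b => ?_⟩
  · obtain ⟨x, y, z⟩ := key P a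
    have p1 : P ∩ N1 ∩ e2 = P ∩ I := by rw [inter_assoc, i1]
    have p2 : P ∩ N2 ∩ e1 = P ∩ I := by rw [inter_assoc, i2]
    have Z := A1.flat_un (P ∩ N2) _ (res_eq_flat E2 f2 g2 a) x (by rw [p2])
      (by rw [p2]; exact inter_subset_left)
    have Z' := A2.flat_un (P ∩ N1) _ (res_eq_flat E1 f1 g1 a) Z
      (by rw [p1, y]; exact subset_union_right)
      (by
        rw [p1, y]
        rintro u ⟨m | m, n⟩
        · exact r0.subset_dcl _ ⟨m.1, ma u m.2 (d0 n)⟩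
        · exact m)
    rwa [← union_assoc, ← inter_union_distrib_left, inter_eq_left.mpr (a.1.trans car), ← z] at Z'
  · by_cases m : v ∈ I
    · exact (car c).elim (fun x => ⟨N1, s1, I1 m, x⟩) fun x => ⟨N2, s2, I2 m, x⟩
    by_cases n : u ∈ I
    · exact (car b).elim (fun x => ⟨N1, s1, x, I1 n⟩) fun x => ⟨N2, s2, x, I2 n⟩
    rcases car b with b | b <;> rcases car c with c | c
    · exact ⟨N1, s1, b, c⟩
    · rcases (A2.tag _ _).mp a with x | x | x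
      · exact absurd (mc u c (A2.hq.tag_car _ _ x).1) n
      · exact absurd (mb v b (A2.hd.tag_car _ _ x).2) m
      · exact absurd (ma u c (d0 x.2.2.1)) n
    · rcases (A2.tag _ _).mp a with x | x | x
      · exact absurd (mc v b (A2.hq.tag_car _ _ x).2) m
      · exact absurd (mb u c (A2.hd.tag_car _ _ x).1) n
      · exact absurd (mb u c (A1.ld.car (d0 x.2.2.1))) n
    · exact ⟨N2, s2, b, c⟩
  · obtain ⟨_, k1, k2⟩ := key I fI
    rw [inter_self] at k1 k2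
    have z1 : IU (F.res I) r1 u t :=
      z.anti A2.hd A2.ld.toLe0 fun _ m => A2.e_d (J2 m)
    rcases tag w t a with m | m
    · refine A2.tag_iu (by simpa only [inter_eq_left.mpr I1] using res_eq_flat E1 f1 g1 fI) J2
        (res_eq_tag E1 m.1 m.2 a) b (fun n => c (i1 ▸ ⟨m.1.head, n⟩)) (k1 ▸ k2 ▸ x) y ?_
      rwa [← res_eq_sub E1 I1]
    · refine A2.ld.tag _ _ (A1.tag_iu
        (by simpa only [inter_eq_left.mpr I2] using res_eq_flat E2 f2 g2 fI) J1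
        (res_eq_tag E2 m.1 m.2 a) b (fun n => c (i2 ▸ ⟨m.1.head, n⟩)) (k2 ▸ x) y ?_)
      rw [← res_eq_sub E2 I2]
      exact z1.anti A1.hd A1.ld.toLe0 fun _ m => A1.e_d (J1 m)
  · rcases car (hF.ri_car a) with m | m
    · rw [res_eq_B E1 m]
      exact A2.B_bound (res_eq_ri E1 m a) fun n => b (i1 ▸ ⟨m, n⟩)
    · rw [res_eq_B E2 m, A2.B_d ψ (A1.lq.car (g2.1 m))]
      have c := res_eq_ri E2 m a
      exact (A1.B_bound c fun n => b (i2 ▸ ⟨m, n⟩)).trans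
        (A2.ld.dcl_mono A2.hd ((A1.hq.B_flat ψ c).1.trans A1.lq.car))

end Str

end Vale.Agent.P323
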