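import Vale.Agent.P323.Res

/-! Gluing two structures along a flat, with extra null facts and extra tags. -/

namespace Vale.Agent.P323

open Set

namespace Str

def glue (q d : Str) (X : Code → Tup → Prop) (T : Wa → U → Prop) (Bf : U → Set U) : Str where
  car := q.car ∪ d.car
  fa k t := q.fa k t ∨ d.fa k t ∨ X k t
  ri := q.ri ∪ d.ri
  ma := q.ma ∪ d.ma
  B := Bf
  tag w u := q.tag w u ∨ d.tag w u ∨ T w u
  lab u o b := q.lab u o b ∨ d.lab u o b

/-- `d` extends the restriction of `q` to the flat `e` and meets `q` only there -/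
structure Span (q : Str) (e : Set U) (d : Str) : Prop where
  hq : q.Valid
  hd : d.Valid
  he : q.Flat e
  hle : Le (q.res e) d
  cap : q.car ∩ d.car ⊆ e

namespace Span

variable {q d : Str} {e : Set U}

theorem hp (h : Span q e d) : (q.res e).Valid := h.hq.res h.he

theorem e_d (h : Span q e d) : e ⊆ d.car := h.hle.car

theorem mem (h : Span q e d) {u : U} (a : u ∈ q.car) (b : u ∈ d.car) : u ∈ e := h.cap ⟨a, b⟩

theorem flat_p (h : Span q e d) {I : Set U} (a : q.Flat I) : (q.res e).Flat (I ∩ e) :=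
  (flat_res h.he).mpr ⟨a.inter h.he, inter_subset_right⟩

theorem flat_e (h : Span q e d) : (q.res e).Flat e := (flat_res h.he).mpr ⟨h.he, Subset.rfl⟩

theorem flat_back (h : Span q e d) {L : Set U} (a : d.Flat L) : q.Flat (L ∩ q.car) := by
  have e1 : L ∩ q.car = L ∩ e :=
    Subset.antisymm (fun u x => ⟨x.1, h.mem x.2 (a.1 x.1)⟩) fun u x => ⟨x.1, h.he.1 x.2⟩
  rw [e1]; exact ((flat_res h.he).mp (h.hle.flat_trace h.hp a)).1

theorem ri_d (h : Span q e d) {u : U} (a : u ∈ q.ri) (b : u ∈ d.car) : u ∈ d.ri :=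
  h.hle.ri_mono h.hp ⟨a, h.mem (h.hq.ri_car a) b⟩

theorem ri_q (h : Span q e d) {u : U} (a : u ∈ d.ri) (b : u ∈ q.car) : u ∈ q.ri :=
  ((h.hle.ri u (h.mem b (h.hd.ri_car a))).mp a).1

theorem ma_d (h : Span q e d) {u : U} (a : u ∈ q.ma) (b : u ∈ d.car) : u ∈ d.ma :=
  h.hle.ma_mono h.hp ⟨a, h.mem (h.hq.ma_car a) b⟩

theorem ma_q (h : Span q e d) {u : U} (a : u ∈ d.ma) (b : u ∈ q.car) : u ∈ q.ma :=
  ((h.hle.ma u (h.mem b (h.hd.ma_car a))).mp a).1

theorem tag_d (h : Span q e d) {w : Wa} {u : U} (a : q.tag w u) (b : w.head ∈ d.car)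
    (c : u ∈ d.car) : d.tag w u := by
  have x := h.hq.tag_car w u a
  have y := h.mem x.1 c
  exact h.hle.tag w u ⟨a, h.hq.in_of_head h.he a (h.mem x.2.head b) y, y⟩

theorem act_p (h : Span q e d) {k : Code} {v : U} (a : q.act k v) (b : v ∈ d.car) :
    (q.res e).act k v := act_res.mpr ⟨a, h.mem (h.hq.act_car a) b⟩

theorem tag_q (h : Span q e d) {k : Code} {v u : U} (a : d.tag (.g k v) u) (b : q.act k v)
    (c : u ∈ q.car) : q.tag (.g k v) u := by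
  have x := h.hd.tag_car _ u a
  exact (h.hle.frozen k v u (h.act_p b x.2) (h.mem c x.1) a).1

theorem B_dq (h : Span q e d) {ψ u : U} (a : ψ ∈ q.car) (b : u ∈ q.car) (c : u ∈ d.B ψ) :
    u ∈ q.B ψ := by
  have x := h.hd.B_ri ψ u c
  exact ((h.hle.B ψ u ⟨h.ri_q x a, h.mem a (h.hd.ri_car x)⟩ (h.mem b (h.hd.B_car c))).mp c).2

theorem B_qd (h : Span q e d) {ψ u : U} (a : ψ ∈ d.car) (c : u ∈ q.B ψ) : u ∈ d.B ψ :=
  h.hle.B_mono h.hp ⟨h.mem (h.hq.ri_car (h.hq.B_ri ψ u c)) a, c⟩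

/-- the part of a fact of `q` inside `d` extends to a fact of `d` -/
theorem ext (h : Span q e d) {k : Code} {t : Tup} (a : q.fa k t) :
    ∃ t', d.fa k t' ∧ ∀ i v, t.r i v → v ∈ d.car → t'.r i v := by
  obtain ⟨t', b, c⟩ := h.hle.fa k _ ⟨t, a, rfl⟩
  exact ⟨t', b, fun i v x y => c i v ⟨x, h.mem (h.hq.fa_car k t i v a x) y⟩⟩

theorem agr (h : Span q e d) {k : Code} {t t' : Tup} (a : q.fa k t) (b : d.fa k t') :
    t.agr t' ∈ k.A := by
  obtain ⟨t'', c, c'⟩ := h.hle.fa k _ ⟨t, a, rfl⟩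
  have e1 : t.agr t' = (t.res e).agr t' := by
    ext i; constructor
    · rintro ⟨u, x, y⟩
      exact ⟨u, ⟨x, h.mem (h.hq.fa_car k t i u a x) (h.hd.fa_car k t' i u b y)⟩, y⟩
    · rintro ⟨u, x, y⟩; exact ⟨u, x.1, y⟩
  rw [e1, c'.agr]
  exact k.A_inter _ _ (h.hd.agr k _ _ c b) (h.hp.agr k _ _ ⟨t, a, rfl⟩ ⟨t, a, rfl⟩)

/-- a property of active atoms of `q` that is null along the facts of `q` is null along the
facts of `d` -/
theorem cov (h : Span q e d) {k : Code} {t' : Tup} (b : d.fa k t') {E : Set U}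
    (h1 : ∀ i, i ∈ E → ∃ v, t'.r i v ∧ q.act k v) (h2 : ∀ t, q.fa k t → E ∩ t.agr t' ∈ k.N) :
    E ∈ k.N := by
  refine h.hle.cov k t' E b (fun i x => ?_) ?_
  · obtain ⟨v, y, z⟩ := h1 i x
    exact ⟨v, y, h.act_p z (h.hd.fa_car k t' i v b y)⟩
  · rintro _ ⟨t, x, rfl⟩
    refine k.N_sub _ _ (h2 t x) ?_
    rintro i ⟨y, u, z, z'⟩; exact ⟨y, u, z.1, z'⟩

theorem cov' (h : Span q e d) {k : Code} {t' : Tup} (b : d.fa k t') (Q : U → Prop)
    (h1 : ∀ v, Q v → q.act k v) (h2 : ∀ t, q.fa k t → {i | ∃ v, t.r i v ∧ Q v} ∈ k.N) :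
    {i | ∃ v, t'.r i v ∧ Q v} ∈ k.N := by
  refine h.cov b (fun i ⟨v, x, y⟩ => ⟨v, x, h1 v y⟩) fun t a => k.N_sub _ _ (h2 t a) ?_
  rintro i ⟨⟨v, x, y⟩, u, z, z'⟩
  obtain rfl := t'.fn i _ _ x z'
  exact ⟨v, z, y⟩

end Span

theorem flat_of_fa {p r : Str} (hp : p.Valid) (h : ∀ k t, p.fa k t → r.fa k t) {L : Set U}
    (a : r.Flat L) : p.Flat (L ∩ p.car) :=
  ⟨inter_subset_right, fun k t b => by
    have e1 : t.pre (L ∩ p.car) = t.pre L := by
      ext i; constructor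
      · rintro ⟨u, x, y⟩; exact ⟨u, x.1, y⟩
      · rintro ⟨u, x, y⟩; exact ⟨u, ⟨x, hp.fa_car k t i u b y⟩, y⟩
    rw [e1]; exact a.2 k t (h k t b)⟩

theorem pre_of_flat {p : Str} (hp : p.Valid) {L : Set U} (a : p.Flat (L ∩ p.car)) {k : Code}
    {t : Tup} (b : p.fa k t) : t.pre L ∈ k.A := by
  have e1 : t.pre (L ∩ p.car) = t.pre L := by
    ext i; constructor
    · rintro ⟨u, x, y⟩; exact ⟨u, x.1, y⟩
    · rintro ⟨u, x, y⟩; exact ⟨u, ⟨x, hp.fa_car k t i u b y⟩, y⟩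
  rw [← e1]; exact a.2 k t b

theorem flat_glue {q d : Str} {X : Code → Tup → Prop} {T : Wa → U → Prop} {Bf : U → Set U}
    (hq : q.Valid) (hd : d.Valid) {L : Set U} : (glue q d X T Bf).Flat L ↔
      L ⊆ q.car ∪ d.car ∧ q.Flat (L ∩ q.car) ∧ d.Flat (L ∩ d.car) ∧
        ∀ k t, X k t → t.pre L ∈ k.A := by
  constructor
  · intro a
    exact ⟨a.1, flat_of_fa hq (fun k t x => Or.inl x) a,
      flat_of_fa hd (fun k t x => Or.inr (Or.inl x)) a, fun k t x => a.2 k t (Or.inr (Or.inr x))⟩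
  · rintro ⟨a, b, c, x⟩
    refine ⟨a, ?_⟩
    rintro k t (y | y | y)
    · exact pre_of_flat hq b y
    · exact pre_of_flat hd c y
    · exact x k t y

structure Glue (q : Str) (e : Set U) (d : Str) (X : Code → Tup → Prop) (T : Wa → U → Prop)
    (Bf : U → Set U) : Prop extends Span q e d where
  X_N : ∀ k t S, X k t → S ∈ k.N
  X_car : ∀ k t i u, X k t → t.r i u → u ∈ q.car ∪ d.car
  X_small : Small.{0} {o : U | ∃ k t, X k t ∧ k.ix = o}
  X_agr : ∀ k t t', X k t → (q.fa k t' ∨ d.fa k t' ∨ X k t') → t.agr t' ∈ k.A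
  X_d : ∀ k t L, X k t → d.Flat L → t.pre L ∈ k.A
  T_new : ∀ w u, T w u → u ∈ d.car ∧ u ∉ e ∧ w.In q.car ∧ w.head ∉ e
  T_act : ∀ k v u, T (.g k v) u → q.act k v
  T_null : ∀ k t, q.fa k t → {i | ∃ v, t.r i v ∧ ∃ u, T (.g k v) u} ∈ k.N
  T_cone : ∀ φ s u L, (glue q d X T Bf).Flat L → T (.c φ s) u → φ ∈ L → u ∈ L → s ∈ L
  hull : ∀ I, q.Flat I → ∃ L, (glue q d X T Bf).Flat L ∧ L ∩ q.car = I
  B_d : ∀ ψ, ψ ∈ d.car → Bf ψ = d.B ψ
  B_q : ∀ ψ u, ψ ∉ d.car → u ∈ q.car → (u ∈ Bf ψ ↔ u ∈ q.B ψ)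
  B_ri : ∀ ψ u, ψ ∉ d.car → u ∈ Bf ψ → ψ ∈ q.ri
  B_flat : ∀ ψ, ψ ∉ d.car → ψ ∈ q.ri → (glue q d X T Bf).Flat (Bf ψ)
  B_dcl : ∀ ψ L, ψ ∉ d.car → (glue q d X T Bf).Flat L → ψ ∈ L → Bf ψ ⊆ L

namespace Glue

variable {q d : Str} {e : Set U} {X : Code → Tup → Prop} {T : Wa → U → Prop} {Bf : U → Set U}

theorem flat_d (h : Glue q e d X T Bf) {L : Set U} (a : d.Flat L) : (glue q d X T Bf).Flat L :=
  (flat_glue h.hq h.hd).mpr ⟨fun _ x => Or.inr (a.1 x), h.flat_back a,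
    a.inter h.hd.flat_car, fun k t x => h.X_d k t L x a⟩

theorem T_nd (h : Glue q e d X T Bf) {w : Wa} {u : U} (a : T w u) : w.head ∉ d.car := fun x =>
  (h.T_new w u a).2.2.2 (h.mem (h.T_new w u a).2.2.1.head x)

theorem T_nq (h : Glue q e d X T Bf) {w : Wa} {u : U} (a : T w u) : u ∉ q.car := fun x =>
  (h.T_new w u a).2.1 (h.mem x (h.T_new w u a).1)

theorem B_qq (h : Glue q e d X T Bf) {ψ u : U} (a : ψ ∈ q.car) (b : u ∈ q.car) :
    u ∈ Bf ψ ↔ u ∈ q.B ψ := by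
  by_cases c : ψ ∈ d.car
  · rw [h.B_d ψ c]; exact ⟨h.B_dq a b, h.B_qd c⟩
  · exact h.B_q ψ u c b

theorem valid (h : Glue q e d X T Bf) : (glue q d X T Bf).Valid where
  small_car := by
    have := h.hq.small_car
    have := h.hd.small_car
    exact small_union q.car d.car
  small_fa := by
    have := h.hq.small_fa
    have := h.hd.small_fa
    have := h.X_small
    refine small_subset (s := {o : U | ∃ k t, q.fa k t ∧ k.ix = o} ∪
      ({o : U | ∃ k t, d.fa k t ∧ k.ix = o} ∪ {o : U | ∃ k t, X k t ∧ k.ix = o})) ?_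
    rintro o ⟨k, t, a | a | a, b⟩
    · exact Or.inl ⟨k, t, a, b⟩
    · exact Or.inr (Or.inl ⟨k, t, a, b⟩)
    · exact Or.inr (Or.inr ⟨k, t, a, b⟩)
  small_lab := by
    have := h.hq.small_lab
    have := h.hd.small_lab
    refine small_subset (s := {o : U | ∃ u b, q.lab u o b} ∪ {o : U | ∃ u b, d.lab u o b}) ?_
    rintro o ⟨u, b, a | a⟩
    · exact Or.inl ⟨u, b, a⟩
    · exact Or.inr ⟨u, b, a⟩
  fa_car := by
    rintro k t i u (a | a | a) b
    · exact Or.inl (h.hq.fa_car k t i u a b)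
    · exact Or.inr (h.hd.fa_car k t i u a b)
    · exact h.X_car k t i u a b
  ri_car := union_subset_union h.hq.ri_car h.hd.ri_car
  ma_car := union_subset_union h.hq.ma_car h.hd.ma_car
  B_ri ψ u (a : u ∈ Bf ψ) := by
    by_cases c : ψ ∈ d.car
    · rw [h.B_d ψ c] at a; exact Or.inr (h.hd.B_ri ψ u a)
    · exact Or.inl (h.B_ri ψ u c a)
  tag_car := by
    rintro w u (a | a | a)
    · exact ⟨Or.inl (h.hq.tag_car w u a).1, (h.hq.tag_car w u a).2.mono subset_union_left⟩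
    · exact ⟨Or.inr (h.hd.tag_car w u a).1, (h.hd.tag_car w u a).2.mono subset_union_right⟩
    · exact ⟨Or.inr (h.T_new w u a).1, (h.T_new w u a).2.2.1.mono subset_union_left⟩
  tag_act := by
    rintro k v u (a | a | a)
    · obtain ⟨t, i, x, y⟩ := h.hq.tag_act k v u a; exact ⟨t, i, Or.inl x, y⟩
    · obtain ⟨t, i, x, y⟩ := h.hd.tag_act k v u a; exact ⟨t, i, Or.inr (Or.inl x), y⟩
    · obtain ⟨t, i, x, y⟩ := h.T_act k v u a; exact ⟨t, i, Or.inl x, y⟩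
  lab_car := by
    rintro u o b (a | a)
    · exact Or.inl (h.hq.lab_car u o b a)
    · exact Or.inr (h.hd.lab_car u o b a)
  agr := by
    rintro k t t' (a | a | a) b
    · rcases b with b | b | b
      · exact h.hq.agr k t t' a b
      · exact h.agr a b
      · rw [Tup.agr_comm]; exact h.X_agr k t' t b (Or.inl a)
    · rcases b with b | b | b
      · rw [Tup.agr_comm]; exact h.agr b a
      · exact h.hd.agr k t t' a b
      · rw [Tup.agr_comm]; exact h.X_agr k t' t b (Or.inr (Or.inl a))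
    · exact h.X_agr k t t' a b
  B_flat ψ a := by
    show (glue q d X T Bf).Flat (Bf ψ)
    by_cases c : ψ ∈ d.car
    · rw [h.B_d ψ c]
      exact h.flat_d (h.hd.B_flat ψ (a.elim (fun x => h.ri_d x c) id))
    · exact h.B_flat ψ c (a.elim id fun x => absurd (h.hd.ri_car x) c)
  B_irr ψ (a : ψ ∈ Bf ψ) := by
    by_cases c : ψ ∈ d.car
    · rw [h.B_d ψ c] at a; exact h.hd.B_irr ψ a
    · exact h.hq.B_irr ψ ((h.B_q ψ ψ c (h.hq.ri_car (h.B_ri ψ ψ c a))).mp a)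
  B_dcl ψ L a b := by
    show Bf ψ ⊆ L
    by_cases c : ψ ∈ d.car
    · rw [h.B_d ψ c]
      exact (h.hd.B_dcl ψ _ ((flat_glue h.hq h.hd).mp a).2.2.1 ⟨b, c⟩).trans inter_subset_left
    · exact h.B_dcl ψ L c a b
  germ := by
    intro k t L a b
    obtain ⟨_, b1, b2, _⟩ := (flat_glue h.hq h.hd).mp b
    rcases a with a | a | a
    · obtain ⟨t', x, y⟩ := h.ext a
      refine k.N_sub _ _ (k.N_union _ _ (h.hq.germ k t _ a b1)
        (k.N_union _ _ (h.hd.germ k t' _ x b2) (h.T_null k t a))) ?_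
      rintro i ⟨v, z1, z2, u, z3, z | z | z⟩
      · exact Or.inl ⟨v, z1, fun m => z2 m.1, u, ⟨z3, (h.hq.tag_car _ _ z).1⟩, z⟩
      · exact Or.inr (Or.inl ⟨v, y i v z1 (h.hd.tag_car _ _ z).2, fun m => z2 m.1, u,
          ⟨z3, (h.hd.tag_car _ _ z).1⟩, z⟩)
      · exact Or.inr (Or.inr ⟨v, z1, u, z⟩)
    · have c := h.cov' a (fun v => v ∉ L ∩ q.car ∧ ∃ u, u ∈ L ∩ q.car ∧ q.tag (.g k v) u)
        (fun v ⟨_, u, _, x⟩ => h.hq.tag_act k v u x) fun t0 x => h.hq.germ k t0 _ x b1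
      refine k.N_sub _ _ (k.N_union _ _ c (h.hd.germ k t _ a b2)) ?_
      rintro i ⟨v, z1, z2, u, z3, z | z | z⟩
      · exact Or.inl ⟨v, z1, fun m => z2 m.1, u, ⟨z3, (h.hq.tag_car _ _ z).1⟩, z⟩
      · exact Or.inr ⟨v, z1, fun m => z2 m.1, u, ⟨z3, (h.hd.tag_car _ _ z).1⟩, z⟩
      · exact absurd (h.hd.fa_car k t i v a z1) (h.T_nd z)
    · exact h.X_N k t _ a
  cone := by
    intro φ s u L a b c c'
    obtain ⟨_, b1, b2, _⟩ := (flat_glue h.hq h.hd).mp a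
    rcases b with b | b | b
    · exact (h.hq.cone φ s u _ b1 b ⟨c, (h.hq.tag_car _ _ b).2.1⟩ ⟨c', (h.hq.tag_car _ _ b).1⟩).1
    · exact (h.hd.cone φ s u _ b2 b ⟨c, (h.hd.tag_car _ _ b).2.1⟩ ⟨c', (h.hd.tag_car _ _ b).1⟩).1
    · exact h.T_cone φ s u L a b c c'
  own_null := by
    intro ψ k t a b
    have nq : ∀ t, q.fa k t → {i | ∃ v, t.r i v ∧ q.own (.g k v) ψ} ∈ k.N := fun t x => by
      by_cases c : ψ ∈ q.car
      · exact h.hq.own_null ψ k t (a.elim id fun y => h.ri_q y c) x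
      · refine k.N_sub _ _ k.N_empty ?_
        rintro i ⟨v, _, y⟩; exact c (h.hq.own_car y).1
    have nd : ∀ t, d.fa k t → {i | ∃ v, t.r i v ∧ d.own (.g k v) ψ} ∈ k.N := fun t x => by
      by_cases c : ψ ∈ d.car
      · exact h.hd.own_null ψ k t (a.elim (fun y => h.ri_d y c) id) x
      · refine k.N_sub _ _ k.N_empty ?_
        rintro i ⟨v, _, y⟩; exact c (h.hd.own_car y).1
    rcases b with b | b | b
    · obtain ⟨t', x, y⟩ := h.ext b
      refine k.N_sub _ _ (k.N_union _ _ (nq t b) (k.N_union _ _ (nd t' x) (h.T_null k t b))) ?_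
      rintro i ⟨v, z1, (z | z | z) | ⟨k', z, _⟩⟩
      · exact Or.inl ⟨v, z1, Or.inl z⟩
      · exact Or.inr (Or.inl ⟨v, y i v z1 (h.hd.tag_car _ _ z).2, Or.inl z⟩)
      · exact Or.inr (Or.inr ⟨v, z1, ψ, z⟩)
      · cases z; exact Or.inl ⟨ψ, z1, Or.inr ⟨k, rfl, t, i, b, z1⟩⟩
    · have c := h.cov' b (fun v => q.tag (.g k v) ψ) (fun v x => h.hq.tag_act k v ψ x)
        fun t0 x => k.N_sub _ _ (nq t0 x) fun i ⟨v, y, z⟩ => ⟨v, y, Or.inl z⟩
      refine k.N_sub _ _ (k.N_union _ _ c (nd t b)) ?_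
      rintro i ⟨v, z1, (z | z | z) | ⟨k', z, _⟩⟩
      · exact Or.inl ⟨v, z1, z⟩
      · exact Or.inr ⟨v, z1, Or.inl z⟩
      · exact absurd (h.hd.fa_car k t i v b z1) (h.T_nd z)
      · cases z; exact Or.inr ⟨ψ, z1, Or.inr ⟨k, rfl, t, i, b, z1⟩⟩
    · exact h.X_N k t _ b
  head_B := by
    rintro ψ w (a | a | a) (b : w.head ∈ Bf ψ)
    · exact h.hq.head_B ψ w a
        ((h.B_qq (h.hq.tag_car _ _ a).1 (h.hq.tag_car _ _ a).2.head).mp b)
    · rw [h.B_d ψ (h.hd.tag_car _ _ a).1] at b; exact h.hd.head_B ψ w a b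
    · rw [h.B_d ψ (h.T_new _ _ a).1] at b; exact h.T_nd a (h.hd.B_car b)
  ma_eq u v a b c := by
    have c' := c _ (h.flat_d h.hd.flat_car)
    by_cases m : u ∈ d.car
    · exact h.hd.ma_eq u v (a.elim (fun x => h.ma_d x m) id)
        (b.elim (fun x => h.ma_d x (c'.mp m)) id) fun L x => c L (h.flat_d x)
    · have a' : u ∈ q.ma := a.elim id fun x => absurd (h.hd.ma_car x) m
      have b' : v ∈ q.ma := b.elim id fun x => absurd (c'.mpr (h.hd.ma_car x)) m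
      refine h.hq.ma_eq u v a' b' fun I x => ?_
      obtain ⟨L, y, rfl⟩ := h.hull I x
      exact ⟨fun z => ⟨(c L y).mp z.1, h.hq.ma_car b'⟩, fun z => ⟨(c L y).mpr z.1, h.hq.ma_car a'⟩⟩
  lab_con := by
    have x : ∀ u o b, q.lab u o b → u ∈ d.car → d.lab u o b := fun u o b a c =>
      h.hle.lab u o b ⟨a, h.mem (h.hq.lab_car u o b a) c⟩
    rintro u o (a | a) (b | b)
    · exact h.hq.lab_con u o a b
    · exact h.hd.lab_con u o (x _ _ _ a (h.hd.lab_car _ _ _ b)) b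
    · exact h.hd.lab_con u o a (x _ _ _ b (h.hd.lab_car _ _ _ a))
    · exact h.hd.lab_con u o a b

theorem le_d (h : Glue q e d X T Bf) : Le d (glue q d X T Bf) := by
  refine le_of_flat h.hd h.valid ?_ fun L a => h.flat_d a
  exact {
    car := subset_union_right
    fa := fun k t a => ⟨t, Or.inr (Or.inl a), Tup.Sub.refl t⟩
    ri := fun u a => ⟨fun x => x.elim (fun y => h.ri_d y a) id, Or.inr⟩
    ma := fun u a => ⟨fun x => x.elim (fun y => h.ma_d y a) id, Or.inr⟩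
    B := fun ψ u a _ => by
      show u ∈ Bf ψ ↔ _
      rw [h.B_d ψ (h.hd.ri_car a)]
    tag := fun w u a => Or.inr (Or.inl a)
    frozen := by
      rintro k v u a b (c | c | c)
      · exact h.tag_d c (h.hd.act_car a) b
      · exact c
      · exact absurd (h.hd.act_car a) (h.T_nd c)
    lab := fun u o b a => Or.inr a
    cov := by
      rintro k t' E (a | a | a) b c
      · obtain ⟨t, x, y⟩ := h.ext a
        refine k.N_sub _ _ (c t x) fun i hi => ?_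
        obtain ⟨v, z, z'⟩ := b i hi
        exact ⟨hi, v, y i v z (h.hd.act_car z'), z⟩
      · exact (Le0.refl d).cov k t' E a b c
      · exact h.X_N k t' E a }

theorem le0_q (h : Glue q e d X T Bf) : Le0 q (glue q d X T Bf) where
  car := subset_union_left
  fa k t a := ⟨t, Or.inl a, Tup.Sub.refl t⟩
  ri u a := ⟨fun x => x.elim id fun y => h.ri_q y a, Or.inl⟩
  ma u a := ⟨fun x => x.elim id fun y => h.ma_q y a, Or.inl⟩
  B ψ u a b := h.B_qq (h.hq.ri_car a) b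
  tag w u a := Or.inl a
  frozen := by
    rintro k v u a b (c | c | c)
    · exact c
    · exact h.tag_q c a b
    · exact absurd b (h.T_nq c)
  lab u o b a := Or.inl a
  cov := by
    rintro k t' E (a | a | a) b c
    · exact (Le0.refl q).cov k t' E a b c
    · exact h.cov a b c
    · exact h.X_N k t' E a

end Glue

end Str

end Vale.Agent.P323
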