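import Vale.Agent.P323.Cond
import Vale.Agent.P323.Free

/-! Flat supports are closed under intersection. -/

namespace Vale.Agent.P323

open Set

namespace Str

/-- `w` is a free union of `q` and `d` over `e` -/
structure Dbl (q d : Str) (e : Set U) (w : Str) : Prop where
  hq : q.Valid
  hd : d.Valid
  hw : w.Valid
  eq : q.res e = d.res e
  cap : q.car ∩ d.car ⊆ e
  lq : Le0 q w
  ld : Le0 d w
  fa : ∀ k t, w.fa k t → q.fa k t ∨ d.fa k t
  tag : ∀ x u, w.tag x u → q.tag x u ∨ d.tag x u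
  lab : ∀ u o b, w.lab u o b → q.lab u o b ∨ d.lab u o b

theorem Dbl.symm {q d w : Str} {e : Set U} (h : Dbl q d e w) : Dbl d q e w :=
  ⟨h.hd, h.hq, h.hw, h.eq.symm, fun _ x => h.cap ⟨x.2, x.1⟩, h.ld, h.lq,
    fun k t a => (h.fa k t a).symm, fun x u a => (h.tag x u a).symm,
    fun u o b a => (h.lab u o b a).symm⟩

theorem in_inter {x : Wa} {A B : Set U} (a : x.In A) (b : x.In B) : x.In (A ∩ B) := by
  cases x
  · exact ⟨a, b⟩
  · exact ⟨⟨a.1, b.1⟩, a.2, b.2⟩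

theorem Dbl.res_le {q d w : Str} {e K : Set U} (h : Dbl q d e w) (hK : w.Flat K)
    (hK' : K ⊆ q.car) : Le (w.res K) q := by
  refine le_of_flat (h.hw.res hK) h.hq ?_ fun L a => ?_
  · exact {
      car := hK'
      fa := by
        rintro k _ ⟨t, a, rfl⟩
        rcases h.fa k t a with b | b
        · exact ⟨t, b, t.res_sub K⟩
        · obtain ⟨t0, c, c'⟩ : (q.res e).fa k (t.res e) := h.eq ▸ ⟨t, b, rfl⟩
          refine ⟨t0, c, fun i v x => ?_⟩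
          have y : (t.res e).r i v := ⟨x.1, h.cap ⟨hK' x.2, h.hd.fa_car k t i v b x.1⟩⟩
          rw [c'] at y
          exact y.1
      ri := fun u a => ⟨fun x => ⟨(h.lq.ri u (hK' a)).mpr x, a⟩,
        fun x => (h.lq.ri u (hK' a)).mp x.1⟩
      ma := fun u a => ⟨fun x => ⟨(h.lq.ma u (hK' a)).mpr x, a⟩,
        fun x => (h.lq.ma u (hK' a)).mp x.1⟩
      B := fun ψ u a b =>
        have c := h.lq.B ψ u ((h.lq.ri ψ (hK' a.2)).mp a.1) (hK' b)
        ⟨fun x => ⟨a.2, c.mpr x⟩, fun x => c.mp x.2⟩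
      tag := fun x u a => (h.tag x u a.1).elim id fun b =>
        res_eq_tag h.eq.symm ((in_inter (a.2.1.mono hK') (h.hd.tag_car _ _ b).2).mono h.cap)
          (h.cap ⟨hK' a.2.2, (h.hd.tag_car _ _ b).1⟩) b
      frozen := fun k v u a b c => ⟨h.lq.tag _ _ c, (act_res.mp a).2, b⟩
      lab := fun u o b a => (h.lab u o b a.1).elim id fun c => by
        have x : (q.res e).lab u o b :=
          h.eq ▸ ⟨c, h.cap ⟨hK' a.2, h.hd.lab_car u o b c⟩⟩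
        exact x.1
      cov := fun k t' E a b c => by
        obtain ⟨t, x, y⟩ := h.lq.fa k t' a
        refine k.N_sub _ _ (c _ ⟨t, x, rfl⟩) fun i hi => ?_
        obtain ⟨v, z, z'⟩ := b i hi
        exact ⟨hi, v, ⟨y i v z, (act_res.mp z').2⟩, z⟩ }
  · have b := (flat_res hK).mp a
    have c := h.lq.flat_trace h.hq b.1
    rwa [inter_eq_left.mpr (b.2.trans hK')] at c

theorem res_sm_eq {w : Str} (hw : w.Valid) {K : Set U} (hK : w.Flat K) {μ ν : G}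
    (h : EqOn μ ν K) : (w.sm μ).res (μ '' K) = (w.sm ν).res (ν '' K) := by
  rw [← sm_res, ← sm_res]; exact sm_congr (hw.res hK) h

/-- amalgamation with a moved copy of `w` -/
theorem exists_move {w r : Str} (hw : w.Valid) (hr : r.Valid) {K : Set U} (hK : w.Flat K)
    (f : U → U) (hf : InjOn f K) (h : ∀ μ : G, EqOn μ f K → Le ((w.res K).sm μ) r) :
    ∃ (μ : G) (r' : Str), EqOn μ f K ∧ (∀ u, u ∈ w.car → u ∉ K → μ u ∉ r.car) ∧
      Amal (w.sm μ) (μ '' K) r r' := by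
  have := hw.small_car
  have := hr.small_car
  have : Small.{0} K := small_subset hK.1
  obtain ⟨μ, a, b⟩ := exists_perm K w.car r.car f hf
  have s : Span (w.sm μ) (μ '' K) r := ⟨hw.sm μ, hr, (flat_sm μ).mpr hK, sm_res w K μ ▸ h μ a, by
    rintro _ ⟨⟨u, x, rfl⟩, y⟩
    exact ⟨u, by_contra fun z => b u x z y, rfl⟩⟩
  obtain ⟨r', c⟩ := s.amal
  exact ⟨μ, r', a, b, c⟩

theorem free_fa {w : Str} {W K1 K2 : Set U} (ν : G)
    (h : ∀ k t, w.fa k t → (∀ i v, t.r i v → v ∈ W → v ∈ K1) ∨ ∀ i v, t.r i v → v ∈ W → v ∈ K2)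
    (k : Code) (t : Tup) (a : ((w.res W).sm ν).fa k t) :
    (∀ i v, t.r i v → v ∈ ν '' K1) ∨ ∀ i v, t.r i v → v ∈ ν '' K2 := by
  obtain ⟨t0, b, c⟩ := a
  have x : ∀ i v, t.r i v → t0.r i (ν⁻¹ v) ∧ ν⁻¹ v ∈ W := fun i v y => by
    have z : (t.sm ν⁻¹).r i (ν⁻¹ v) := by
      show t.r i (ν⁻¹⁻¹ (ν⁻¹ v))
      rwa [inv_inv, show ν (ν⁻¹ v) = v from ν.apply_symm_apply v]
    rw [c] at z
    exact z
  exact (h k t0 b).imp
    (fun y i v z => ⟨_, y i _ (x i v z).1 (x i v z).2, ν.apply_symm_apply v⟩)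
    fun y i v z => ⟨_, y i _ (x i v z).1 (x i v z).2, ν.apply_symm_apply v⟩

theorem in_img {x : Wa} {K : Set U} {ν : G} (a : (x.sm ν⁻¹).In K) : x.In (ν '' K) := by
  cases x
  · exact ⟨_, a, ν.apply_symm_apply _⟩
  · exact ⟨⟨_, a.1, ν.apply_symm_apply _⟩, _, a.2, ν.apply_symm_apply _⟩

theorem free_tag {w : Str} {W K1 K2 : Set U} (ν : G)
    (h : ∀ x u, w.tag x u → x.In W → u ∈ W → (x.In K1 ∧ u ∈ K1) ∨ (x.In K2 ∧ u ∈ K2))
    (x : Wa) (u : U) (a : ((w.res W).sm ν).tag x u) :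
    (x.In (ν '' K1) ∧ u ∈ ν '' K1) ∨ (x.In (ν '' K2) ∧ u ∈ ν '' K2) :=
  (h _ _ a.1 a.2.1 a.2.2).imp (fun y => ⟨in_img y.1, _, y.2, ν.apply_symm_apply _⟩)
    fun y => ⟨in_img y.1, _, y.2, ν.apply_symm_apply _⟩

/-- the combinatorial core: three copies of the double of `q` in one condition -/
theorem exists_three {q r0 : Str} (hq : q.Valid) (h0 : r0.Valid) {J1 J2 : Set U} (f1 : q.Flat J1)
    (f2 : q.Flat J2) {σ α : G} (hσ : Fixes σ (J1 ∩ J2)) (l0 : Le q r0) (l0' : Le (q.sm σ) r0)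
    (hα : Fixes α J1) (hα' : ∀ u, u ∈ q.car → u ∉ J1 → α u ∉ q.car) :
    ∃ (w r : Str) (μ1 μ3 ν : G), w.Valid ∧ r.Valid ∧ Le q w ∧ Le (q.sm α) w ∧ Le r0 r ∧
      Le (w.sm μ1) r ∧ Le (w.sm μ3) r ∧ Le (w.sm ν) r ∧ Fixes μ1 J2 ∧ EqOn ⇑(μ3 * α) σ J2 ∧
      EqOn ν μ3 J2 ∧ EqOn ⇑(ν * α) ⇑(μ1 * α) J2 := by
  classical
  have hd := hq.sm α
  have fd : (q.sm α).Flat J1 := by rw [← hα.image]; exact (flat_sm α).mpr f1
  have eq : q.res J1 = (q.sm α).res J1 := by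
    have := res_sm_eq hq f1 (μ := 1) (ν := α) fun u x => (hα u x).symm
    rwa [sm_one, hα.image, Equiv.Perm.coe_one, image_id] at this
  have cap : q.car ∩ (q.sm α).car ⊆ J1 := by
    rintro _ ⟨x, u, y, rfl⟩
    by_cases z : u ∈ J1
    · rwa [hα u z]
    · exact absurd x (hα' u y z)
  obtain ⟨w, A⟩ := (⟨hq, hd, f1, eq ▸ res_le hd fd, cap⟩ : Span q J1 (q.sm α)).amal
  have D : Dbl q (q.sm α) J1 w := ⟨hq, hd, A.hr, eq, cap, A.lq.toLe0, A.ld.toLe0,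
    fun k t a => (A.fa k t a).imp_right fun x => x.elim id fun y => absurd fd y,
    fun x u a => ((A.tag x u).mp a).imp_right fun y => y.elim id fun z =>
      absurd (fd.dcl_subset Subset.rfl z.2.2.1) z.2.1,
    fun u o b a => (A.lab u o b).mp a⟩
  have g2 : (q.sm α).Flat (α '' J2) := (flat_sm α).mpr f2
  have kq : ∀ u, u ∈ α '' J2 → u ∈ q.car → u ∈ J1 ∩ J2 := by
    rintro _ ⟨u, x, rfl⟩ y
    have z : u ∈ J1 := by_contra fun z => hα' u (f2.1 x) z y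
    rw [hα u z]; exact ⟨z, x⟩
  have ki : ∀ u, u ∈ J1 ∩ J2 → u ∈ α '' J2 := fun u x => ⟨u, x.2, hα u x.1⟩
  have kd : ∀ u, u ∈ J2 → u ∈ (q.sm α).car → u ∈ J1 ∩ J2 := fun u x y => ⟨cap ⟨f2.1 x, y⟩, x⟩
  have gI : (q.sm α).Flat (J2 ∩ J1) := res_eq_flat eq f1 fd f2
  have wK2 : w.Flat (α '' J2) := A.flat_d _ g2
  have wW : w.Flat (J2 ∪ α '' J2) := A.flat_un _ _ f2 g2
    (by rw [gI.dcl_eq]; exact fun u x => ki u ⟨x.2, x.1⟩)
    (by rw [gI.dcl_eq, fd.dcl_eq]; exact fun u x => ⟨(kq u x.1 (f1.1 x.2)).2, x.2⟩)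
  have wK1 : w.Flat J2 := by
    have := A.flat_un _ _ f2 gI (by rw [gI.dcl_eq]) (by rw [gI.dcl_eq]; exact inter_subset_left)
    rwa [union_eq_left.mpr inter_subset_left] at this
  have hw := A.hr
  obtain ⟨μ1, r1, m1, -, A1⟩ := exists_move hw h0 wK1 id (injOn_id _) fun μ x => by
    rw [sm_congr (hw.res wK1) (τ := 1) x, sm_one]
    exact (D.res_le wK1 f2.1).trans (hw.res wK1) hq h0 l0
  obtain ⟨μ3, r2, m3, n3, A2⟩ := exists_move hw A1.hr wK2 ⇑(σ * α⁻¹) (σ * α⁻¹).injective.injOn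
    fun μ x => by
      rw [sm_congr (hw.res wK2) (τ := σ * α⁻¹) x]
      have y := (D.symm.res_le wK2 g2.1).sm (σ * α⁻¹)
      rw [← sm_mul, inv_mul_cancel_right] at y
      exact y.trans ((hw.res wK2).sm _) (hq.sm σ) A1.hr (l0'.trans (hq.sm σ) h0 A1.hr A1.ld)
  have m3' : EqOn ⇑(μ3 * α) σ J2 := fun u x => by
    rw [Equiv.Perm.mul_apply, m3 ⟨u, x, rfl⟩, ← Equiv.Perm.mul_apply, inv_mul_cancel_right]
  have m3I : ∀ u, u ∈ J1 ∩ J2 → μ3 u = u := fun u x => by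
    have := m3' x.2
    rwa [Equiv.Perm.mul_apply, hα u x.1, hσ u x] at this
  have F1 : ∀ μ : G, EqOn μ (fun u => if u ∈ J2 then μ3 u else μ1 u) (J2 ∪ α '' J2) →
      EqOn μ μ3 J2 := fun μ x u y => (x (Or.inl y)).trans (if_pos y)
  have F2 : ∀ μ : G, EqOn μ (fun u => if u ∈ J2 then μ3 u else μ1 u) (J2 ∪ α '' J2) →
      EqOn μ μ1 (α '' J2) := fun μ x u y => (x (Or.inr y)).trans (by
    by_cases z : u ∈ J2
    · exact (if_pos z).trans ((m3I u (kq u y (f2.1 z))).trans (m1 z).symm)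
    · exact if_neg z)
  have inj : InjOn (fun u => if u ∈ J2 then μ3 u else μ1 u) (J2 ∪ α '' J2) := by
    have cr : ∀ u v, u ∈ J2 → v ∈ α '' J2 → v ∉ J2 → μ3 u ≠ μ1 v := fun u v x y z c => by
      by_cases m : u ∈ α '' J2
      · have : μ1 u = μ1 v := (m1 x).trans ((m3I u (kq u m (f2.1 x))).symm.trans c)
        exact z (μ1.injective this ▸ x)
      · exact n3 u (wK1.1 x) m (c ▸ A1.lq.car ⟨v, wK2.1 y, rfl⟩)
    intro u x v y (c : (if u ∈ J2 then μ3 u else μ1 u) = if v ∈ J2 then μ3 v else μ1 v)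
    by_cases m : u ∈ J2 <;> by_cases n : v ∈ J2
    · rw [if_pos m, if_pos n] at c; exact μ3.injective c
    · rw [if_pos m, if_neg n] at c; exact absurd c (cr u v m (y.resolve_left n) n)
    · rw [if_neg m, if_pos n] at c; exact absurd c.symm (cr v u n (x.resolve_left m) m)
    · rw [if_neg m, if_neg n] at c; exact μ1.injective c
  obtain ⟨ν, r3, n1, -, A3⟩ := exists_move hw A2.hr wW _ inj fun μ x => by
    have e1 : μ '' J2 = μ3 '' J2 := (F1 μ x).image_eq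
    have e2 : μ '' (α '' J2) = μ1 '' (α '' J2) := (F2 μ x).image_eq
    have w1 : (w.res (J2 ∪ α '' J2)).Flat J2 := (flat_res wW).mpr ⟨wK1, subset_union_left⟩
    have w2 : (w.res (J2 ∪ α '' J2)).Flat (α '' J2) :=
      (flat_res wW).mpr ⟨wK2, subset_union_right⟩
    refine le_double (N1 := μ '' J2) (N2 := μ '' (α '' J2)) (I := μ '' (J2 ∩ α '' J2)) A1 A2 ?_
      ((hw.res wW).sm μ) ((flat_sm μ).mpr w1) ((flat_sm μ).mpr w2)
      (e1 ▸ (flat_sm μ3).mpr wK1) (e2 ▸ (flat_sm μ1).mpr wK2) ?_ ?_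
      (image_inter μ.injective).symm ?_ ?_ (image_union _ _ _).subset
      (free_fa μ fun k t a => ?_) (free_tag μ fun y u a b c => ?_)
    · rintro _ ⟨_, ⟨u, y, rfl⟩, rfl⟩
      exact l0'.car ⟨u, f2.1 y, (m3' y).symm⟩
    · rw [← sm_res, res_res subset_union_left, e1, ← sm_res]
      exact sm_congr (hw.res wK1) (F1 μ x)
    · rw [← sm_res, res_res subset_union_right, e2, ← sm_res]
      exact sm_congr (hw.res wK2) (F2 μ x)
    · rw [e1, ← image_inter μ3.injective]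
      exact ((F1 μ x).mono inter_subset_left).image_eq.symm
    · rw [e2, ← image_inter μ1.injective, inter_comm]
      exact ((F2 μ x).mono inter_subset_right).image_eq.symm
    · exact (D.fa k t a).imp
        (fun b i v y z => z.elim id fun z => (kq v z (hq.fa_car k t i v b y)).2)
        fun b i v y z => z.elim (fun z => ki v (kd v z (hd.fa_car k t i v b y))) id
    · have s1 : (J2 ∪ α '' J2) ∩ q.car ⊆ J2 := fun v z => z.1.elim id fun m => (kq v m z.2).2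
      have s2 : (J2 ∪ α '' J2) ∩ (q.sm α).car ⊆ α '' J2 :=
        fun v z => z.1.elim (fun m => ki v (kd v m z.2)) id
      exact (D.tag y u a).imp
        (fun z => ⟨(in_inter b (hq.tag_car _ _ z).2).mono s1, s1 ⟨c, (hq.tag_car _ _ z).1⟩⟩)
        fun z => ⟨(in_inter b (hd.tag_car _ _ z).2).mono s2, s2 ⟨c, (hd.tag_car _ _ z).1⟩⟩
  have l13 := A2.ld.trans A1.hr A2.hr A3.hr A3.ld
  exact ⟨w, r3, μ1, μ3, ν, hw, A3.hr, A.lq, A.ld, A1.ld.trans h0 A1.hr A3.hr l13,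
    A1.lq.trans A1.hq A1.hr A3.hr l13, A2.lq.trans A2.hq A2.hr A3.hr A3.ld, A3.lq, m1, m3',
    F1 ν n1, fun u x => F2 ν n1 ⟨u, x, rfl⟩⟩

end Str

theorem ERel.Sp.inter {y : ERel} {q : Cond} {J1 J2 : Set U} (f1 : q.1.Flat J1) (f2 : q.1.Flat J2)
    (h1 : y.Sp q J1) (h2 : y.Sp q J2) : y.Sp q (J1 ∩ J2) := by
  intro σ r hσ l l'
  refine y.reg _ _ _ fun r0 lr => ?_
  obtain ⟨α, a1, a2, -⟩ := q.exists_copy f1
  obtain ⟨w, r3, μ1, μ3, ν, hw, h3, lq, ld, l0, l1, l3, lν, m1, m3, n1, n2⟩ :=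
    Str.exists_three q.2 r0.2 f1 f2 hσ (Cond.le_def.mp (l.trans lr)) (Cond.le_def.mp (l'.trans lr))
      a1 a2
  let w' : Cond := ⟨w, hw⟩
  let s : Cond := ⟨r3, h3⟩
  have l0' : r0 ≤ s := l0
  have base : y.R α 1 w' := h1 α w' a1 lq ld
  have mv : ∀ μ : G, μ • w' ≤ s → y.R (μ * α) μ s ∧ μ • q ≤ s ∧ (μ * α) • q ≤ s := fun μ x =>
    ⟨by simpa only [mul_one] using y.mono _ _ _ _ (y.equi _ _ μ _ base) x,
      le_trans (Str.Le.sm lq μ : μ • q ≤ μ • w') x,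
      by rw [mul_smul]; exact le_trans (Str.Le.sm ld μ : μ • α • q ≤ μ • w') x⟩
  obtain ⟨x1, x2, x3⟩ := mv μ1 l1
  obtain ⟨y1, y2, y3⟩ := mv μ3 l3
  obtain ⟨z1, z2, z3⟩ := mv ν lν
  refine ⟨s, l0', ?_⟩
  have c1 : y.R σ (μ3 * α) s := y.symm _ _ _ (h2.two m3 y3 ((l'.trans lr).trans l0'))
  have c2 : y.R μ3 ν s := y.symm _ _ _ (h2.two n1 z2 y2)
  have c3 : y.R (ν * α) (μ1 * α) s := h2.two n2 z3 x3
  have c4 : y.R μ1 1 s := h2 μ1 s m1 ((l.trans lr).trans l0') x2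
  exact y.trans _ _ _ _ c1 (y.trans _ _ _ _ y1 (y.trans _ _ _ _ c2 (y.trans _ _ _ _
    (y.symm _ _ _ z1) (y.trans _ _ _ _ c3 (y.trans _ _ _ _ x1 c4)))))

end Vale.Agent.P323
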