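import Vale.Agent.P323.Inter

/-! Existence of least supports. -/

namespace Vale.Agent.P323

open Set

/-- closing off under a small family of upward closed properties -/
theorem Cond.close (p : Cond) (ι : Type 1) [Small.{0} ι] (Q : ι → Cond → Prop)
    (hQ : ∀ i q q', q ≤ q' → Q i q → Q i q') :
    ∃ q, p ≤ q ∧ ∀ i q', q ≤ q' → Q i q' → Q i q := by
  let K : Cond → Set ι := fun q => {i | Q i q}
  have hK : ∀ q q', q ≤ q' → K q ⊆ K q' := fun q q' h i a => hQ i q q' h a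
  let r : {q // p ≤ q} → {q // p ≤ q} → Prop := fun a b => a.1 ≤ b.1 ∧ (K a.1 ⊂ K b.1 ∨ a = b)
  obtain ⟨m, hm⟩ := exists_maximal_of_chains_bounded (r := r) (fun c hc => by
    by_cases h0 : ∃ m, m ∈ c ∧ ∀ a, a ∈ c → r a m
    · obtain ⟨m, _, h⟩ := h0
      exact ⟨m, h⟩
    rcases c.eq_empty_or_nonempty with rfl | hne
    · exact ⟨⟨p, le_rfl⟩, fun _ h => h.elim⟩
    have hinj : Function.Injective fun a : c => K a.1.1 := by
      intro a b h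
      by_contra hab
      have hab' : a.1 ≠ b.1 := fun e => hab (Subtype.ext e)
      rcases hc a.2 b.2 hab' with h1 | h1
      · exact h1.2.elim (fun x => x.ne h) hab'
      · exact h1.2.elim (fun x => x.ne h.symm) hab'.symm
    have hs : Small.{0} c := small_of_injective hinj
    have hs' : Small.{0} (Subtype.val '' c : Set Cond) := small_image _ c
    obtain ⟨u, hu, -⟩ := Cond.lim (Subtype.val '' c) (hne.image _) (by
      rintro _ ⟨a, ha, rfl⟩ _ ⟨b, hb, rfl⟩ hab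
      exact (hc ha hb fun e => hab (congrArg _ e)).imp And.left And.left)
    obtain ⟨a0, ha0⟩ := hne
    refine ⟨⟨u, a0.2.trans (hu _ ⟨a0, ha0, rfl⟩)⟩, fun a ha => ⟨hu _ ⟨a, ha, rfl⟩, Or.inl ?_⟩⟩
    push Not at h0
    obtain ⟨b, hb, hba⟩ := h0 a ha
    have hne : a ≠ b := by
      rintro rfl
      exact hba ⟨le_rfl, Or.inr rfl⟩
    rcases hc ha hb hne with h1 | h1
    · exact (h1.2.resolve_right hne).trans_subset (hK _ _ (hu _ ⟨b, hb, rfl⟩))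
    · exact absurd h1 hba)
    (fun {a b c} h h' => ⟨h.1.trans h'.1, by
      rcases h.2 with h1 | rfl
      · exact Or.inl (h1.trans_subset (hK _ _ h'.1))
      · exact h'.2⟩)
  refine ⟨m.1, m.2, fun i q' h hq => ?_⟩
  by_contra hn
  have h1 : K m.1 ⊂ K q' := ⟨hK _ _ h, fun x => hn (x hq)⟩
  rcases (hm ⟨q', m.2.trans h⟩ ⟨h, Or.inl h1⟩).2 with h2 | h2
  · exact hn (h2.1 hq)
  · rw [← h2] at hn
    exact hn hq

namespace LeastX

def FS (y : ERel) (q : Cond) (J : Set U) : Prop := q.1.Flat J ∧ y.Sp q J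

variable {y : ERel} {q q' : Cond} {J J' : Set U}

theorem FS.up (h : FS y q J) (hq : q ≤ q') : FS y q' (q'.1.dcl J) :=
  ⟨(Cond.le_def.mp hq).hull J h.1, h.2.mono hq (q'.1.subset_dcl J)⟩

theorem FS.inter (h : FS y q J) (h' : FS y q J') : FS y q (J ∩ J') :=
  ⟨h.1.inter h'.1, ERel.Sp.inter h.1 h'.1 h.2 h'.2⟩

theorem FS.car (h : FS y q q.1.car) (hq : q ≤ q') : FS y q' q'.1.car :=
  ⟨q'.2.flat_car, h.2.mono hq (Cond.le_def.mp hq).car⟩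

theorem step1 (y : ERel) (p : Cond) : ∃ d, p ≤ d ∧ FS y d d.1.car ∧
    ∀ u q' J, u ∈ d.1.car → d ≤ q' → FS y q' J → u ∉ J → ∃ J0, FS y d J0 ∧ u ∉ J0 := by
  obtain ⟨E, hE, hs⟩ := y.supp
  obtain ⟨p0, a0, b0⟩ := p.absorb E
  have f0 : FS y p0 p0.1.car :=
    ⟨p0.2.flat_car, fun σ r h _ _ => hs σ r fun u x => h u (b0 x)⟩
  let Q : U → Cond → Prop := fun u q => u ∈ q.1.car ∧ ∃ J, FS y q J ∧ u ∉ J
  have hQ : ∀ u q q', q ≤ q' → Q u q → Q u q' := by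
    rintro u q q' h ⟨a, J, b, c⟩
    exact ⟨(Cond.le_def.mp h).car a, _, b.up h,
      fun x => c ((Cond.le_def.mp h).trace J b.1 ⟨x, a⟩)⟩
  have ex : ∀ q : Cond, ∃ q1, q ≤ q1 ∧ ∀ u, u ∈ q.1.car → ∀ q', q1 ≤ q' → Q u q' → Q u q1 := by
    intro q
    have := q.2.small_car
    obtain ⟨q1, a, b⟩ := q.close q.1.car (fun u => Q u.1) fun u => hQ u.1
    exact ⟨q1, a, fun u x => b ⟨u, x⟩⟩
  choose nx h1 h2 using ex
  let s : ℕ → Cond := fun n => nx^[n] p0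
  have hs1 : ∀ n, s (n + 1) = nx (s n) := fun n => Function.iterate_succ_apply' _ _ _
  have mono : Monotone s := monotone_nat_of_le_succ fun n => hs1 n ▸ h1 _
  obtain ⟨d, d1, d2⟩ := Cond.lim (range s) (range_nonempty s) (by
    rintro _ ⟨n, rfl⟩ _ ⟨m, rfl⟩ _
    exact (le_total n m).imp (fun h => mono h) fun h => mono h)
  have e0 : p0 ≤ d := d1 _ ⟨0, rfl⟩
  refine ⟨d, a0.trans e0, f0.car e0, fun u q' J hu hd hJ hn => ?_⟩
  obtain ⟨_, ⟨n, rfl⟩, hn'⟩ := d2 u hu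
  have e1 : nx (s n) ≤ d := hs1 n ▸ d1 _ ⟨n + 1, rfl⟩
  exact (hQ u _ d e1 (h2 (s n) u hn' q' (e1.trans hd) ⟨(Cond.le_def.mp hd).car hu, J, hJ, hn⟩)).2

end LeastX

open LeastX in
theorem ERel.exists_LS (y : ERel) (p : Cond) : ∃ q γ, p ≤ q ∧ y.LS q γ := by
  obtain ⟨d, hpd, fd, star⟩ := step1 y p
  obtain ⟨w0, k, w1, w2, w3, w4, w5, w6, w7⟩ := Str.exists_watch d.2
    (S := {u | u ∈ d.1.car ∧ ∃ J0, FS y d J0 ∧ u ∉ J0}) (fun _ x => x.1)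
    {E | ∃ J, FS y d J ∧ ∀ u, u ∈ E → u ∉ J} ⟨_, fd, fun _ x => x.elim⟩
    (by
      rintro A B ⟨J, a, b⟩ ⟨J', a', b'⟩
      exact ⟨_, a.inter a', fun u x z => x.elim (fun x => b u x z.1) fun x => b' u x z.2⟩)
    (by
      rintro A B ⟨J, a, b⟩ h
      exact ⟨J, a, fun u x => b u (h x)⟩)
    (by
      rintro v ⟨_, J, a, b⟩
      exact ⟨J, a, fun u x => by rw [x]; exact b⟩)
  let w : Cond := ⟨w0, w1⟩
  have hdw : d ≤ w := w2
  have := d.2.small_car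
  obtain ⟨s, hws, hs⟩ := w.close (𝒫 d.1.car)
    (fun I q => d.1.car ⊆ q.1.car ∧ ∃ J, FS y q J ∧ J ∩ d.1.car ⊆ I.1) (by
      rintro I q q' h ⟨a, J, b, c⟩
      exact ⟨a.trans (Cond.le_def.mp h).car, _, b.up h,
        fun u x => c ⟨(Cond.le_def.mp h).trace J b.1 ⟨x.1, a x.2⟩, x.2⟩⟩)
  have hds : d ≤ s := hdw.trans hws
  have claim : ∀ L J, s.1.Flat L → FS y s J → J ∩ d.1.car ⊆ L → y.Sp s L := by
    intro L J hL hJ hJL
    obtain ⟨t', a, b⟩ := (Cond.le_def.mp hws).fa k _ w7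
    have g := s.2.germ k t' J a hJ.1
    rw [w6] at g
    obtain ⟨J0, c, e⟩ := g
    have tt := (Cond.le_def.mp hws).tight J0 J (J ∩ L) ((w5 J0).2 c.1) hJ.1 (hJ.1.inter hL)
      inter_subset_left (fun u x => ⟨x.1, hJL ⟨x.1, c.1.1 x.2⟩⟩) (by
        intro t _ h0 hn u hu
        have hS : t ∈ d.1.car ∧ ∃ J0, FS y d J0 ∧ t ∉ J0 :=
          ⟨c.1.1 h0, star t s J (c.1.1 h0) hds hJ hn⟩
        have ht : (Tup.idOn {u | u ∈ d.1.car ∧ ∃ J0, FS y d J0 ∧ u ∉ J0}).r t t := ⟨rfl, hS⟩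
        have tg := hu.2.2.2.1 (.g k t) (Or.inr ⟨k, rfl, _, t, w7, ht⟩)
        exact absurd h0 (e t ⟨t, b t t ht, hn, u, hu.1, tg⟩))
    exact (hJ.inter (c.up hds)).2.mono le_rfl fun u x => (tt x).2
  obtain ⟨q0, γ, q1, q2, q3, q4⟩ := Str.exists_tight s.2
    {A | ∃ J, FS y s J ∧ J ∩ d.1.car ⊆ A} ⟨_, fd.car hds, inter_subset_left⟩
    (by
      rintro A B ⟨J, a, b⟩ ⟨J', a', b'⟩
      exact ⟨_, a.inter a', fun u x => ⟨b ⟨x.1.1, x.2⟩, b' ⟨x.1.2, x.2⟩⟩⟩)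
    (by
      rintro A B ⟨J, a, b⟩ h
      exact ⟨J, a, b.trans h⟩)
  let q : Cond := ⟨q0, q1⟩
  have hsq : s ≤ q := q2
  refine ⟨q, γ, hpd.trans (hds.trans hsq), q3, fun σ r h1 h2 h3 => ?_, fun q' J h1 h2 h3 => ?_⟩
  · have fl := Cond.flat_eq (q := q) (τ := 1) h3 (by rw [one_smul]; exact h2)
    obtain ⟨J, a, b⟩ := (q4 _ fl).1 ⟨q1.ma_car q3, h1 γ rfl⟩
    exact claim _ J (q2.toLe0.flat_trace s.2 fl) a b σ r (fun u x => x.1.2) (hsq.trans h2)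
      (le_trans (Str.Le.sm q2 σ) h3)
  · have hsq' : s ≤ q' := hsq.trans h1
    obtain ⟨a, J1, b, c⟩ := hs ⟨J ∩ d.1.car, inter_subset_right⟩ q' hsq'
      ⟨(Cond.le_def.mp (hds.trans hsq')).car, J, ⟨h2, h3⟩, Subset.rfl⟩
    have fl := (Cond.le_def.mp h1).toLe0.flat_trace q.2 h2
    exact ((q4 _ fl).2 ⟨J1, b, fun u x => ⟨⟨(c x).1, q2.car (a x.2)⟩, a x.2⟩⟩).1

end Vale.Agent.P323
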