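import Vale.Agent.P323.Defs

/-! Names for a preorder with an action of the permutations of the atoms. -/

namespace Vale.Agent.P323

open Set

inductive Nm (P : Type 1) : Type 2
  | mk (ι : Type 1) (q : ι → P) (x : ι → Nm P) : Nm P

namespace Nm

variable {P : Type 1}

def ι : Nm P → Type 1
  | mk ι _ _ => ι

def q : (x : Nm P) → x.ι → P
  | mk _ q _ => q

def el : (x : Nm P) → x.ι → Nm P
  | mk _ _ x => x

/-- the name whose elements are the `y i`, put in by the conditions `r` with `S r i` -/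
def of (ι : Type 1) (y : ι → Nm P) (S : P → ι → Prop) : Nm P :=
  mk {a : P × ι // S a.1 a.2} (fun a => a.1.1) fun a => y a.1.2

def sm [MulAction G P] (σ : G) : Nm P → Nm P
  | mk ι q x => mk ι (fun i => σ • q i) fun i => sm σ (x i)

end Nm

variable {P : Type 1} [Preorder P]

/-- `D` holds densely above `p` (larger conditions are stronger) -/
def Dns (p : P) (D : P → Prop) : Prop := ∀ p', p ≤ p' → ∃ p'', p' ≤ p'' ∧ D p''

def Eqv : Nm P → Nm P → P → Prop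
  | .mk _ q x, .mk _ r y, p =>
    (∀ i p', p ≤ p' → q i ≤ p' → ∃ p'', p' ≤ p'' ∧ ∃ j, r j ≤ p'' ∧ Eqv (x i) (y j) p'') ∧
    (∀ j p', p ≤ p' → r j ≤ p' → ∃ p'', p' ≤ p'' ∧ ∃ i, q i ≤ p'' ∧ Eqv (x i) (y j) p'')

def Mem (x y : Nm P) (p : P) : Prop := Dns p fun r => ∃ j, y.q j ≤ r ∧ Eqv x (y.el j) r

theorem Dns.mono {p p' : P} {D : P → Prop} (h : Dns p D) (h' : p ≤ p') : Dns p' D :=
  fun r a => h r (h'.trans a)

theorem Dns.imp {p : P} {D D' : P → Prop} (h : Dns p D) (h' : ∀ r, p ≤ r → D r → D' r) :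
    Dns p D' := fun r a => by
  obtain ⟨s, b, c⟩ := h r a
  exact ⟨s, b, h' s (a.trans b) c⟩

theorem Dns.reg {p : P} {D : P → Prop} (h : Dns p fun r => Dns r D) : Dns p D := fun r a => by
  obtain ⟨s, b, c⟩ := h r a
  obtain ⟨t, d, e⟩ := c s le_rfl
  exact ⟨t, b.trans d, e⟩

theorem Dns.of_mono {p : P} {D : P → Prop} (h : ∀ r, p ≤ r → D r) : Dns p D :=
  fun r a => ⟨r, le_rfl, h r a⟩

theorem Eqv.mono {x y : Nm P} {p p' : P} (h : Eqv x y p) (h' : p ≤ p') : Eqv x y p' := by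
  cases x; cases y
  exact ⟨fun i r a b => h.1 i r (h'.trans a) b, fun j r a b => h.2 j r (h'.trans a) b⟩

theorem Eqv.reg {x y : Nm P} {p : P} (h : Dns p (Eqv x y)) : Eqv x y p := by
  cases x; cases y
  refine ⟨fun i r a b => ?_, fun j r a b => ?_⟩
  · obtain ⟨s, c, d⟩ := h r a
    obtain ⟨t, e, f⟩ := d.1 i s le_rfl (b.trans c)
    exact ⟨t, c.trans e, f⟩
  · obtain ⟨s, c, d⟩ := h r a
    obtain ⟨t, e, f⟩ := d.2 j s le_rfl (b.trans c)
    exact ⟨t, c.trans e, f⟩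

theorem Eqv.refl (x : Nm P) (p : P) : Eqv x x p := by
  induction x generalizing p with
  | mk ι q x ih =>
    exact ⟨fun i r _ b => ⟨r, le_rfl, i, b, ih i r⟩, fun i r _ b => ⟨r, le_rfl, i, b, ih i r⟩⟩

theorem Eqv.symm {x y : Nm P} {p : P} (h : Eqv x y p) : Eqv y x p := by
  induction x generalizing y p with
  | mk ι q x ih =>
    cases y
    refine ⟨fun j r a b => ?_, fun i r a b => ?_⟩
    · obtain ⟨s, c, i, d, e⟩ := h.2 j r a b
      exact ⟨s, c, i, d, ih i e⟩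
    · obtain ⟨s, c, j, d, e⟩ := h.1 i r a b
      exact ⟨s, c, j, d, ih i e⟩

theorem Eqv.trans {x y z : Nm P} {p : P} (h : Eqv x y p) (h' : Eqv y z p) : Eqv x z p := by
  induction x generalizing y z p with
  | mk ι q x ih =>
    cases y; cases z
    refine ⟨fun i r a b => ?_, fun k r a b => ?_⟩
    · obtain ⟨s, c, j, d, e⟩ := h.1 i r a b
      obtain ⟨t, f, k, g, l⟩ := h'.1 j s (a.trans c) d
      exact ⟨t, c.trans f, k, g, ih i (e.mono f) l⟩
    · obtain ⟨s, c, j, d, e⟩ := h'.2 k r a b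
      obtain ⟨t, f, i, g, l⟩ := h.2 j s (a.trans c) d
      exact ⟨t, c.trans f, i, g, ih i l (e.mono f)⟩

theorem Mem.mono {x y : Nm P} {p p' : P} (h : Mem x y p) (h' : p ≤ p') : Mem x y p' :=
  Dns.mono h h'

theorem Mem.reg {x y : Nm P} {p : P} (h : Dns p (Mem x y)) : Mem x y p := Dns.reg h

theorem mem_el (y : Nm P) (j : y.ι) {p : P} (h : y.q j ≤ p) : Mem (y.el j) y p :=
  Dns.of_mono fun r a => ⟨j, h.trans a, Eqv.refl _ _⟩

theorem Mem.congr {x x' y y' : Nm P} {p : P} (h : Mem x y p) (hx : Eqv x x' p)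
    (hy : Eqv y y' p) : Mem x' y' p := by
  cases y; cases y'
  intro r a
  obtain ⟨s, b, j, c, d⟩ := h r a
  obtain ⟨t, e, k, f, g⟩ := hy.1 j s (a.trans b) c
  exact ⟨t, b.trans e, k, f,
    (hx.mono (a.trans (b.trans e))).symm.trans ((d.mono e).trans g)⟩

theorem eqv_iff {x y : Nm P} {p : P} : Eqv x y p ↔
    (∀ i p', p ≤ p' → x.q i ≤ p' → Mem (x.el i) y p') ∧
    (∀ j p', p ≤ p' → y.q j ≤ p' → Mem (y.el j) x p') := by
  cases x; cases y
  constructor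
  · intro h
    refine ⟨fun i r a b s c => h.1 i s (a.trans c) (b.trans c), fun j r a b s c => ?_⟩
    obtain ⟨t, d, i, e, f⟩ := h.2 j s (a.trans c) (b.trans c)
    exact ⟨t, d, i, e, f.symm⟩
  · intro h
    refine ⟨fun i r a b => h.1 i r a b r le_rfl, fun j r a b => ?_⟩
    obtain ⟨t, d, i, e, f⟩ := h.2 j r a b r le_rfl
    exact ⟨t, d, i, e, f.symm⟩

theorem mem_of {ι : Type 1} {y : ι → Nm P} {S : P → ι → Prop} {z : Nm P} {p : P} :
    Mem z (Nm.of ι y S) p ↔ Dns p fun r => ∃ i r', r' ≤ r ∧ S r' i ∧ Eqv z (y i) r :=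
  ⟨fun h => Dns.imp h fun _ _ ⟨j, a, b⟩ => ⟨j.1.2, j.1.1, a, j.2, b⟩,
    fun h => Dns.imp h fun _ _ ⟨i, r', a, b, c⟩ => ⟨⟨(r', i), b⟩, a, c⟩⟩

theorem mem_of_mono {ι : Type 1} {y : ι → Nm P} {S : P → ι → Prop}
    (hS : ∀ r r' i, r ≤ r' → S r i → S r' i) {z : Nm P} {p : P} :
    Mem z (Nm.of ι y S) p ↔ Dns p fun r => ∃ i, S r i ∧ Eqv z (y i) r :=
  mem_of.trans ⟨fun h => Dns.imp h fun r _ ⟨i, r', a, b, c⟩ => ⟨i, hS r' r i a b, c⟩,
    fun h => Dns.imp h fun r _ ⟨i, b, c⟩ => ⟨i, r, le_rfl, b, c⟩⟩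

variable [MulAction G P]

omit [Preorder P] in
theorem sm_one (x : Nm P) : x.sm 1 = x := by
  induction x with
  | mk ι q x ih => simp only [Nm.sm, one_smul, ih]

omit [Preorder P] in
theorem sm_mul (σ τ : G) (x : Nm P) : x.sm (σ * τ) = (x.sm τ).sm σ := by
  induction x with
  | mk ι q x ih => simp only [Nm.sm, mul_smul, ih]

/-- `E` is a support of `x` -/
def Sup (E : Set U) (x : Nm P) : Prop := ∀ σ, Fixes σ E → ∀ p, Eqv (x.sm σ) x p

/-- hereditarily symmetric names -/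
def HS : Nm P → Prop
  | .mk ι q x => (∃ E : Set U, Small.{0} E ∧ Sup E (.mk ι q x)) ∧ ∀ i, HS (x i)

theorem HS.sup {x : Nm P} (h : HS x) : ∃ E : Set U, Small.{0} E ∧ Sup E x := by
  cases x; exact h.1

theorem HS.el {x : Nm P} (h : HS x) (i : x.ι) : HS (x.el i) := by
  cases x; exact h.2 i

theorem Sup.mono {E E' : Set U} {x : Nm P} (h : Sup E x) (h' : E ⊆ E') : Sup E' x :=
  fun σ a => h σ fun u b => a u (h' b)

/-- extensionality with symmetric test names -/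
theorem eqv_of_ext {x y : Nm P} (hx : HS x) (hy : HS y) {p : P}
    (h : ∀ z, HS z → ∀ p', p ≤ p' → (Mem z x p' ↔ Mem z y p')) : Eqv x y p :=
  eqv_iff.mpr ⟨fun i p' a b => (h _ (hx.el i) p' a).mp (mem_el x i b),
    fun j p' a b => (h _ (hy.el j) p' a).mpr (mem_el y j b)⟩

variable [CovariantClass G P (· • ·) (· ≤ ·)]

theorem smul_le {σ : G} {p q : P} (h : p ≤ q) : σ • p ≤ σ • q :=
  CovariantClass.elim (μ := (· • ·)) (r := (· ≤ ·)) σ h

theorem smul_le_inv {σ : G} {p q : P} (h : σ • p ≤ q) : p ≤ σ⁻¹ • q := by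
  have := smul_le (σ := σ⁻¹) h
  rwa [inv_smul_smul] at this

theorem le_smul_inv {σ : G} {p q : P} (h : σ⁻¹ • p ≤ q) : p ≤ σ • q := by
  have := smul_le (σ := σ) h
  rwa [smul_inv_smul] at this

theorem Eqv.sm {x y : Nm P} {p : P} (h : Eqv x y p) (σ : G) :
    Eqv (x.sm σ) (y.sm σ) (σ • p) := by
  induction x generalizing y p with
  | mk ι q x ih =>
    cases y
    refine ⟨fun i r a b => ?_, fun j r a b => ?_⟩
    · obtain ⟨s, c, j, d, e⟩ := h.1 i (σ⁻¹ • r) (smul_le_inv a) (smul_le_inv b)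
      exact ⟨σ • s, le_smul_inv c, j, smul_le d, ih i e⟩
    · obtain ⟨s, c, i, d, e⟩ := h.2 j (σ⁻¹ • r) (smul_le_inv a) (smul_le_inv b)
      exact ⟨σ • s, le_smul_inv c, i, smul_le d, ih i e⟩

theorem Mem.sm {x y : Nm P} {p : P} (h : Mem x y p) (σ : G) :
    Mem (x.sm σ) (y.sm σ) (σ • p) := by
  cases y
  intro r a
  obtain ⟨s, c, j, d, e⟩ := h (σ⁻¹ • r) (smul_le_inv a)
  exact ⟨σ • s, le_smul_inv c, j, smul_le d, e.sm σ⟩

theorem Sup.sm {E : Set U} {x : Nm P} (h : Sup E x) (σ : G) : Sup (σ '' E) (x.sm σ) := by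
  intro τ hτ p
  have h1 : Fixes (σ⁻¹ * τ * σ) E := fun u hu => by
    simp only [Equiv.Perm.mul_apply]
    rw [hτ _ ⟨u, hu, rfl⟩]
    exact σ.symm_apply_apply u
  have h2 := (h _ h1 (σ⁻¹ • p)).sm σ
  rw [smul_inv_smul, ← sm_mul, ← mul_assoc, ← mul_assoc, mul_inv_cancel, one_mul, sm_mul] at h2
  exact h2

theorem HS.sm {x : Nm P} (h : HS x) (σ : G) : HS (x.sm σ) := by
  induction x with
  | mk ι q x ih =>
    obtain ⟨⟨E, a, b⟩, c⟩ := h
    exact ⟨⟨σ '' E, inferInstance, b.sm σ⟩, fun i => ih i (c i)⟩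

theorem Fixes.inv0 {σ : G} {E : Set U} (h : Fixes σ E) : Fixes σ⁻¹ E := fun u hu => by
  rw [Equiv.Perm.inv_eq_iff_eq, h u hu]

theorem sup_of {ι : Type 1} {y : ι → Nm P} {S : P → ι → Prop} {E : Set U}
    (h : ∀ σ, Fixes σ E → ∀ r i, S r i → ∃ j, S (σ • r) j ∧ ∀ p, Eqv (y j) ((y i).sm σ) p) :
    Sup E (Nm.of ι y S) := by
  intro σ hσ p
  refine ⟨fun a r _ b => ?_, fun a r _ b => ?_⟩
  · obtain ⟨j, c, d⟩ := h σ hσ a.1.1 a.1.2 a.2
    exact ⟨r, le_rfl, ⟨(σ • a.1.1, j), c⟩, b, (d r).symm⟩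
  · obtain ⟨j, c, d⟩ := h σ⁻¹ hσ.inv0 a.1.1 a.1.2 a.2
    refine ⟨r, le_rfl, ⟨(σ⁻¹ • a.1.1, j), c⟩, ?_, ?_⟩
    · show σ • σ⁻¹ • a.1.1 ≤ r
      rw [smul_inv_smul]; exact b
    · have := (d (σ⁻¹ • r)).sm σ
      rw [smul_inv_smul, ← sm_mul, mul_inv_cancel, sm_one] at this
      exact this

theorem hs_of {ι : Type 1} {y : ι → Nm P} {S : P → ι → Prop} (hy : ∀ i, HS (y i)) {E : Set U}
    (hE : Small.{0} E)
    (h : ∀ σ, Fixes σ E → ∀ r i, S r i → ∃ j, S (σ • r) j ∧ ∀ p, Eqv (y j) ((y i).sm σ) p) :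
    HS (Nm.of ι y S) := ⟨⟨E, hE, sup_of h⟩, fun a => hy _⟩

/-- countably many symmetric names have a common small support -/
theorem exists_sup (e : ℕ → Nm P) (he : ∀ i, HS (e i)) :
    ∃ E : Set U, Small.{0} E ∧ ∀ i, Sup E (e i) := by
  choose E a b using fun i => (he i).sup
  exact ⟨⋃ i, E i, small_iUnion E, fun i => (b i).mono (subset_iUnion E i)⟩

/-- canonical names of the ordinals -/
noncomputable def chk (o : U) : Nm P :=
  WellFounded.fix (C := fun _ => Nm P) wellFounded_lt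
    (fun o f => Nm.of {a : U // a < o} (fun a => f a.1 a.2) fun _ _ => True) o

omit [Preorder P] [MulAction G P] [CovariantClass G P (· • ·) (· ≤ ·)] in
theorem chk_eq (o : U) :
    (chk o : Nm P) = Nm.of {a : U // a < o} (fun a => chk a.1) fun _ _ => True := by
  unfold chk; rw [WellFounded.fix_eq]

omit [MulAction G P] [CovariantClass G P (· • ·) (· ≤ ·)] in
theorem mem_chk {o : U} {z : Nm P} {p : P} :
    Mem z (chk o) p ↔ Dns p fun r => ∃ a, a < o ∧ Eqv z (chk a) r := by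
  rw [chk_eq, mem_of_mono fun _ _ _ _ _ => trivial]
  exact ⟨fun h => Dns.imp h fun _ _ ⟨i, _, b⟩ => ⟨i.1, i.2, b⟩,
    fun h => Dns.imp h fun _ _ ⟨a, b, c⟩ => ⟨⟨a, b⟩, trivial, c⟩⟩

omit [MulAction G P] [CovariantClass G P (· • ·) (· ≤ ·)] in
theorem chk_mem {a o : U} (h : a < o) (p : P) : Mem (chk a) (chk o) p :=
  mem_chk.2 (Dns.of_mono fun _ _ => ⟨a, h, Eqv.refl _ _⟩)

omit [MulAction G P] [CovariantClass G P (· • ·) (· ≤ ·)] in
theorem chk_inj {a b : U} {p : P} (h : Eqv (chk a) (chk b) p) : a = b := by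
  induction a using WellFoundedLT.induction generalizing b p with
  | ind a ih =>
    rcases lt_trichotomy a b with h1 | h1 | h1
    · obtain ⟨r, _, c, d, e⟩ :=
        mem_chk.1 ((chk_mem h1 p).congr (Eqv.refl _ _) h.symm) p le_rfl
      exact absurd (ih c d e.symm) d.ne
    · exact h1
    · obtain ⟨r, _, c, d, e⟩ :=
        mem_chk.1 ((chk_mem h1 p).congr (Eqv.refl _ _) h) p le_rfl
      exact absurd (ih b h1 e) d.ne'

theorem sup_chk (o : U) : Sup ∅ (chk o : Nm P) := by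
  induction o using WellFoundedLT.induction with
  | ind o ih =>
    rw [chk_eq]
    exact sup_of fun σ hσ _ i _ => ⟨i, trivial, fun p => (ih i.1 i.2 σ hσ p).symm⟩

theorem hs_chk (o : U) : HS (chk o : Nm P) := by
  induction o using WellFoundedLT.induction with
  | ind o ih =>
    rw [chk_eq]
    exact hs_of (E := ∅) (fun i => ih i.1 i.2) inferInstance
      fun σ hσ _ i _ => ⟨i, trivial, fun p => (sup_chk i.1 σ hσ p).symm⟩

end Vale.Agent.P323
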