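import Vale.Agent.P323.Frc

/-! A comprehension principle for symmetric names. -/

namespace Vale.Agent.P323

variable {P : Type 1} [Preorder P] [MulAction G P] [CovariantClass G P (· • ·) (· ≤ ·)]

theorem comp_name {ι : Type 1} (y : ι → Nm P) (hy : ∀ i, HS (y i)) (Q : Nm P → P → Prop)
    {E : Set U} (hE : Small.{0} E)
    (mono : ∀ z r r', Q z r → r ≤ r' → Q z r')
    (congr : ∀ z z' r, Q z r → Eqv z z' r → Q z' r)
    (sm : ∀ σ z r, Fixes σ E → Q z r → Q (z.sm σ) (σ • r)) :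
    ∃ c, HS c ∧ ∀ p, (∀ z r, HS z → p ≤ r → Q z r → ∃ r', r ≤ r' ∧ ∃ i, Eqv z (y i) r') →
      ∀ z r, HS z → p ≤ r → (Mem z c r ↔ Dns r (Q z)) := by
  refine ⟨Nm.of (G × ι) (fun d => (y d.2).sm d.1) fun r d => Q ((y d.2).sm d.1) r,
    hs_of (fun d => (hy d.2).sm d.1) hE fun σ hσ r d hd => ⟨(σ * d.1, d.2), ?_, fun p => ?_⟩,
    fun p hp z r hz hr => ?_⟩
  · show Q ((y d.2).sm (σ * d.1)) (σ • r)
    rw [sm_mul]
    exact sm σ _ r hσ hd
  · show Eqv ((y d.2).sm (σ * d.1)) _ p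
    rw [sm_mul]
    exact Eqv.refl _ _
  · refine (mem_of_mono (S := fun r (d : G × ι) => Q ((y d.2).sm d.1) r)
      fun r r' d a b => mono _ r r' b a).trans ?_
    constructor
    · exact fun h => h.imp fun s _ ⟨d, a, b⟩ => congr _ _ s a b.symm
    · intro h s hs
      obtain ⟨t, a, b⟩ := h s hs
      obtain ⟨u, c, i, d⟩ := hp z t hz (hr.trans (hs.trans a)) b
      refine ⟨u, a.trans c, (1, i), ?_, ?_⟩
      · show Q ((y i).sm 1) u
        rw [sm_one]
        exact congr _ _ u (mono _ _ _ b c) d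
      · show Eqv z ((y i).sm 1) u
        rw [sm_one]
        exact d

theorem Mem.smE {x a : Nm P} {r : P} {E : Set U} {σ : G} (h : Mem x a r) (ha : Sup E a)
    (hσ : Fixes σ E) : Mem (x.sm σ) a (σ • r) :=
  (h.sm σ).congr (Eqv.refl _ _) (ha σ hσ _)

theorem Frc.smE {φ : Fm} {x : Nm P} {e : ℕ → Nm P} {r : P} {E : Set U} {σ : G}
    (h : Frc φ (cons x e) r) (he : ∀ i, Sup E (e i)) (hσ : Fixes σ E) :
    Frc φ (cons (x.sm σ) e) (σ • r) := by
  refine (h.sm σ).congr fun i => ?_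
  cases i with
  | zero => exact Eqv.refl _ _
  | succ i => exact he i σ hσ _

omit [CovariantClass G P (· • ·) (· ≤ ·)] in
theorem Frc.congr0 {φ : Fm} {x x' : Nm P} {e : ℕ → Nm P} {r : P}
    (h : Frc φ (cons x e) r) (hx : Eqv x x' r) : Frc φ (cons x' e) r := by
  refine h.congr fun i => ?_
  cases i with
  | zero => exact hx
  | succ i => exact Eqv.refl _ _

end Vale.Agent.P323
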