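import Vale.Agent.P323.Least
import Vale.Agent.P323.Pair
import Vale.Agent.P323.ZFx

/-! The partition principle holds in the symmetric extension. -/

namespace Vale.Agent.P323

open Set

namespace PPX

abbrev N : Type 2 := Nm Cond

def NSp (y : N) (q : Cond) (J : Set U) : Prop :=
  ∀ (σ : G) (r : Cond), Fixes σ J → q ≤ r → σ • q ≤ r → Eqv (y.sm σ) y r

def NLS (y : N) (q : Cond) (s : U) : Prop :=
  s ∈ q.1.ma ∧ NSp y q {s} ∧ ∀ (q' : Cond) (J : Set U), q ≤ q' → q'.1.Flat J → NSp y q' J → s ∈ J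

def er (y : N) (hy : HS y) : ERel where
  R σ τ r := Eqv (y.sm σ) (y.sm τ) r
  refl _ _ := Eqv.refl _ _
  symm _ _ _ h := h.symm
  trans _ _ _ _ h h' := h.trans h'
  mono _ _ _ _ h h' := h.mono h'
  reg _ _ _ h := Eqv.reg h
  equi σ τ ρ r h := by
    rw [sm_mul, sm_mul]
    exact h.sm ρ
  supp := by
    obtain ⟨E, a, b⟩ := hy.sup
    refine ⟨E, a, fun σ r h => ?_⟩
    rw [sm_one]
    exact b σ h r

theorem er_sp {y : N} (hy : HS y) {q : Cond} {J : Set U} : (er y hy).Sp q J ↔ NSp y q J := by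
  simp only [ERel.Sp, NSp, er, sm_one]

theorem exists_NLS {y : N} (hy : HS y) (p : Cond) : ∃ q s, p ≤ q ∧ NLS y q s := by
  obtain ⟨q, s, a, b, c, d⟩ := (er y hy).exists_LS p
  exact ⟨q, s, a, b, (er_sp hy).1 c, fun q' J e f g => d q' J e f ((er_sp hy).2 g)⟩

variable {x x' y y' : N} {q q' r r' : Cond} {J J' : Set U} {s s' : U} {σ τ : G}

theorem sm_inv_sm (σ : G) (y : N) : (y.sm σ).sm σ⁻¹ = y := by
  rw [← sm_mul, inv_mul_cancel, sm_one]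

theorem NSp.mono (h : NSp y q J) (hq : q ≤ q') (hJ : J ⊆ J') : NSp y q' J' :=
  fun σ r a b c => h σ r (fun u x => a u (hJ x)) (hq.trans b) ((smul_le hq).trans c)

theorem NSp.two (h : NSp y q J) (he : EqOn σ τ J) (h1 : σ • q ≤ r) (h2 : τ • q ≤ r) :
    Eqv (y.sm σ) (y.sm τ) r := by
  have b : τ⁻¹ • σ • q ≤ τ⁻¹ • r := smul_le h1
  rw [← mul_smul] at b
  have c := (h (τ⁻¹ * σ) _ (fun u x => by
    rw [Equiv.Perm.mul_apply, he x]; exact τ.symm_apply_apply u) (smul_le_inv h2) b).sm τ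
  rwa [← sm_mul, mul_inv_cancel_left, smul_inv_smul] at c

theorem NSp.sm (h : NSp y q J) (σ : G) : NSp (y.sm σ) (σ • q) (σ '' J) := by
  intro τ r a b c
  rw [← sm_mul]
  rw [← mul_smul] at c
  exact h.two (fun u x => a _ ⟨u, x, rfl⟩) c b

theorem NSp.congr (h : NSp y q J) (e : Eqv y y' q) : NSp y' q J := fun σ r a b c =>
  ((e.sm σ).mono c).symm.trans ((h σ r a b c).trans (e.mono b))

theorem NLS.mono (h : NLS y q s) (hq : q ≤ q') : NLS y q' s :=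
  ⟨(Cond.le_def.1 hq).toLe0.ma_mono q.2 h.1, h.2.1.mono hq Subset.rfl,
    fun r J a b c => h.2.2 r J (hq.trans a) b c⟩

theorem NLS.car (h : NLS y q s) : s ∈ q.1.car := q.2.ma_car h.1

theorem NLS.uniq (h : NLS y q s) (h' : NLS y q s') : s = s' :=
  q.2.ma_eq s s' h.1 h'.1 fun L a =>
    ⟨fun b => h'.2.2 q L le_rfl a (h.2.1.mono le_rfl (singleton_subset_iff.2 b)),
      fun b => h.2.2 q L le_rfl a (h'.2.1.mono le_rfl (singleton_subset_iff.2 b))⟩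

theorem NLS.sm (h : NLS y q s) (σ : G) : NLS (y.sm σ) (σ • q) (σ s) := by
  refine ⟨⟨s, h.1, rfl⟩, ?_, fun q' J a b c => ?_⟩
  · have := h.2.1.sm σ
    rwa [image_singleton] at this
  · have c' := c.sm σ⁻¹
    rw [sm_inv_sm] at c'
    obtain ⟨u, d, e⟩ := h.2.2 (σ⁻¹ • q') _ (smul_le_inv a) ((Str.flat_sm σ⁻¹).2 b) c'
    rw [← e]
    simpa using d

theorem NLS.congr (h : NLS y q s) (e : Eqv y y' q) : NLS y' q s :=
  ⟨h.1, h.2.1.congr e, fun r J a b c => h.2.2 r J a b (c.congr (e.mono a).symm)⟩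

theorem least {I : Type 1} (R : Cond → I → Prop) (h : ∃ r', r ≤ r' ∧ ∃ i, R r' i) :
    ∃ r', r ≤ r' ∧ ∃ i, R r' i ∧ ∀ i', WellOrderingRel i' i → ∀ r'', r' ≤ r'' → ¬ R r'' i' := by
  obtain ⟨r1, a, i1, b⟩ := h
  obtain ⟨i, ⟨r2, c, d⟩, e⟩ := (IsWellFounded.wf (r := (WellOrderingRel : I → I → Prop))).has_min
    {i | ∃ r', r ≤ r' ∧ R r' i} ⟨i1, r1, a, b⟩
  exact ⟨r2, c, i, d, fun i' f r3 g k => e i' ⟨r3, c.trans g, k⟩ f⟩

theorem wo_eq {I : Type 1} {i i' : I} (h : ¬ WellOrderingRel i i') (h' : ¬ WellOrderingRel i' i) :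
    i = i' := by
  rcases trichotomous_of (WellOrderingRel : I → I → Prop) i i' with a | a | a
  · exact (h a).elim
  · exact a
  · exact (h' a).elim

section Blocks

variable {Y : N} {i i' : Cond × Y.ι × U}

def In (Y : N) (r : Cond) (y : N) (i : Cond × Y.ι × U) : Prop :=
  NLS (Y.el i.2.1) i.1 i.2.2 ∧ ∃ τ : G, τ • i.1 ≤ r ∧ Eqv y ((Y.el i.2.1).sm τ) r

theorem In.mono (h : In Y r y i) (a : r ≤ r') : In Y r' y i := by
  obtain ⟨b, τ, c, d⟩ := h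
  exact ⟨b, τ, c.trans a, d.mono a⟩

theorem In.congr (h : In Y r y i) (e : Eqv y y' r) : In Y r y' i := by
  obtain ⟨b, τ, c, d⟩ := h
  exact ⟨b, τ, c, e.symm.trans d⟩

theorem In.sm (h : In Y r y i) (σ : G) : In Y (σ • r) (y.sm σ) i := by
  obtain ⟨b, τ, c, d⟩ := h
  refine ⟨b, σ * τ, ?_, ?_⟩
  · rw [mul_smul]; exact smul_le c
  · rw [sm_mul]; exact d.sm σ

theorem In.key (h : In Y r y i) (h' : In Y r y' i) (a : NLS y r s) (a' : NLS y' r s) :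
    Eqv y y' r := by
  obtain ⟨b, τ, c, d⟩ := h
  obtain ⟨_, τ', c', d'⟩ := h'
  have e1 := a.uniq (((b.sm τ).mono c).congr d.symm)
  have e2 := a'.uniq (((b.sm τ').mono c').congr d'.symm)
  refine d.trans ((b.2.1.two ?_ c c').trans d'.symm)
  intro u hu
  rw [mem_singleton_iff.1 hu, ← e1, ← e2]

def Blk (Y : N) (r : Cond) (y : N) (i : Cond × Y.ι × U) : Prop :=
  In Y r y i ∧ ∀ i', WellOrderingRel i' i → ∀ r', r ≤ r' → ¬ In Y r' y i'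

theorem Blk.mono (h : Blk Y r y i) (a : r ≤ r') : Blk Y r' y i :=
  ⟨h.1.mono a, fun j b t c => h.2 j b t (a.trans c)⟩

theorem Blk.congr (h : Blk Y r y i) (e : Eqv y y' r) : Blk Y r y' i :=
  ⟨h.1.congr e, fun j b t c d => h.2 j b t c (d.congr (e.mono c).symm)⟩

theorem Blk.sm (h : Blk Y r y i) (σ : G) : Blk Y (σ • r) (y.sm σ) i := by
  refine ⟨h.1.sm σ, fun j b t c d => h.2 j b _ (smul_le_inv c) ?_⟩
  have := d.sm σ⁻¹
  rwa [sm_inv_sm] at this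

theorem Blk.uniq (h : Blk Y r y i) (h' : Blk Y r y i') : i = i' :=
  wo_eq (fun a => h'.2 _ a r le_rfl h.1) fun a => h.2 _ a r le_rfl h'.1

theorem exists_blk (hY : HS Y) (h : Mem y Y r) : ∃ r', r ≤ r' ∧ ∃ i, Blk Y r' y i := by
  refine least (fun r i => In Y r y i) ?_
  obtain ⟨r1, a, n, _, b⟩ := h r le_rfl
  obtain ⟨d, γ, c, e⟩ := exists_NLS (hY.el n) r1
  refine ⟨d, a.trans c, (d, n, γ), e, 1, (one_smul G d).le, ?_⟩
  rw [sm_one]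
  exact b.mono c

end Blocks

/-- the fixed data -/
structure Ctx where
  X : N
  Y : N
  f : N
  p : Cond
  φ : U
  c : Set U
  hX : HS X
  hY : HS Y
  hf : HS f
  sX : Sup c X
  sY : Sup c Y
  sf : Sup c f
  fn : FnAt f X Y p
  sur : ∀ b p', HS b → p ≤ p' → Mem b Y p' → ∃ p'', p' ≤ p'' ∧ ∃ a, HS a ∧ Ap f a b p''
  ri : φ ∈ p.1.ri
  cB : c ⊆ p.1.B φ

namespace Ctx

variable (K : Ctx)

theorem riq (a : K.p ≤ r) : K.φ ∈ r.1.ri := (Cond.le_def.1 a).toLe0.ri_mono K.p.2 K.ri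

theorem cBq (a : K.p ≤ r) : K.c ⊆ r.1.B K.φ :=
  fun _ b => (Cond.le_def.1 a).toLe0.B_mono K.p.2 (K.cB b)

theorem apS (a : Fixes σ K.c) (h : Ap K.f x y r) : Ap K.f (x.sm σ) (y.sm σ) (σ • r) :=
  (h.sm σ).congr (K.sf σ a _) (Eqv.refl _ _) (Eqv.refl _ _)

def Good (r : Cond) (y x : N) : Prop :=
  K.p ≤ r ∧ Mem y K.Y r ∧ Mem x K.X r ∧ ∃ s u, NLS y r s ∧ NLS x r u ∧
    ((u ∈ r.1.B K.φ ∧ Ap K.f x y r) ∨ (u ∉ r.1.B K.φ ∧ r.1.Pi K.φ s u ∧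
      ∃ y' i, HS y' ∧ Ap K.f x y' r ∧ Blk K.Y r y' i ∧ Blk K.Y r y i))

def Real (r : Cond) (y x : N) (m : Cond × U × U × K.X.ι) : Prop :=
  m.2.1 ∈ m.1.1.car ∧ m.2.2.1 ∈ m.1.1.car ∧
    NSp (K.X.el m.2.2.2) m.1 (m.1.1.dcl {m.2.1, m.2.2.1}) ∧
    ∃ τ : G, τ • m.1 ≤ r ∧ τ m.2.1 = K.φ ∧ NLS y r (τ m.2.2.1) ∧
      Eqv x ((K.X.el m.2.2.2).sm τ) r

def Sel (r : Cond) (y x : N) : Prop :=
  ∃ m, (K.Good r y x ∧ K.Real r y x m) ∧ ∀ m', WellOrderingRel m' m → ∀ r', r ≤ r' →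
    ¬ ∃ x', HS x' ∧ K.Good r' y x' ∧ K.Real r' y x' m'

variable {K} {m : Cond × U × U × K.X.ι}

theorem Good.mono (h : K.Good r y x) (a : r ≤ r') : K.Good r' y x := by
  obtain ⟨h1, h2, h3, s, u, h4, h5, h6⟩ := h
  have a0 := (Cond.le_def.1 a).toLe0
  refine ⟨h1.trans a, h2.mono a, h3.mono a, s, u, h4.mono a, h5.mono a, ?_⟩
  rcases h6 with ⟨b, c⟩ | ⟨b, c, y', i, d, e, g, k⟩
  · exact Or.inl ⟨a0.B_mono r.2 b, c.mono a⟩
  · exact Or.inr ⟨fun z => b ((a0.B _ _ (K.riq h1) h5.car).1 z), a0.pi c, y', i, d, e.mono a,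
      g.mono a, k.mono a⟩

theorem Good.congr (h : K.Good r y x) (ey : Eqv y y' r) (ex : Eqv x x' r) : K.Good r y' x' := by
  obtain ⟨h1, h2, h3, s, u, h4, h5, h6⟩ := h
  refine ⟨h1, h2.congr ey (Eqv.refl _ _), h3.congr ex (Eqv.refl _ _), s, u, h4.congr ey,
    h5.congr ex, ?_⟩
  rcases h6 with ⟨b, c⟩ | ⟨b, c, y0, i, d, e, g, k⟩
  · exact Or.inl ⟨b, c.congr (Eqv.refl _ _) ex ey⟩
  · exact Or.inr ⟨b, c, y0, i, d, e.congr (Eqv.refl _ _) ex (Eqv.refl _ _), g, k.congr ey⟩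

theorem fix_c (a : Fixes σ K.p.1.car) : Fixes σ K.c :=
  fun u b => a u (K.p.2.B_car (K.cB b))

theorem fix_φ (a : Fixes σ K.p.1.car) : σ K.φ = K.φ := a _ (K.p.2.ri_car K.ri)

theorem fix_p (a : Fixes σ K.p.1.car) : σ • K.p = K.p :=
  Subtype.ext ((Str.sm_congr K.p.2 (τ := 1) fun u b => a u b).trans K.p.1.sm_one)

theorem Good.sm (h : K.Good r y x) (a : Fixes σ K.p.1.car) :
    K.Good (σ • r) (y.sm σ) (x.sm σ) := by
  obtain ⟨h1, h2, h3, s, u, h4, h5, h6⟩ := h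
  have eB : ∀ v, σ v ∈ (σ • r).1.B K.φ ↔ v ∈ r.1.B K.φ := by
    intro v
    have := Str.B_sm (p := r.1) σ K.φ
    rw [fix_φ a] at this
    rw [Cond.smul_val, this, mem_img]
  refine ⟨fix_p a ▸ smul_le h1, h2.smE K.sY (fix_c a), h3.smE K.sX (fix_c a), σ s, σ u, h4.sm σ,
    h5.sm σ, ?_⟩
  rcases h6 with ⟨b, c⟩ | ⟨b, c, y0, i, d, e, g, k⟩
  · exact Or.inl ⟨(eB u).2 b, K.apS (fix_c a) c⟩
  · refine Or.inr ⟨fun z => b ((eB u).1 z), ?_, y0.sm σ, i, d.sm σ, K.apS (fix_c a) e, g.sm σ,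
      k.sm σ⟩
    have := (Str.pi_sm σ).2 c
    rwa [fix_φ a] at this

theorem Good.inj (h : K.Good r y x) (h' : K.Good r y' x) (hx : HS x) (hy : HS y) (hy' : HS y') :
    Eqv y y' r := by
  obtain ⟨h1, _, _, s, u, h4, h5, h6⟩ := h
  obtain ⟨_, _, _, s', u', h4', h5', h6'⟩ := h'
  obtain rfl := h5.uniq h5'
  rcases h6 with ⟨b, c⟩ | ⟨b, c, y0, i, d, e, g, k⟩ <;>
    rcases h6' with ⟨b', c'⟩ | ⟨b', c', y0', i', d', e', g', k'⟩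
  · exact K.fn.fn x y y' r hx hy hy' h1 c c'
  · exact (b' b).elim
  · exact (b b').elim
  · obtain rfl := r.2.pi_fn c c'
    obtain rfl := (g.congr (K.fn.fn x y0 y0' r hx d d' h1 e e')).uniq g'
    exact k.1.key k'.1 h4 h4'

theorem Real.mono (h : K.Real r y x m) (a : r ≤ r') : K.Real r' y x m := by
  obtain ⟨h1, h2, h3, τ, h4, h5, h6, h7⟩ := h
  exact ⟨h1, h2, h3, τ, h4.trans a, h5, h6.mono a, h7.mono a⟩

theorem Real.congr (h : K.Real r y x m) (ey : Eqv y y' r) (ex : Eqv x x' r) :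
    K.Real r y' x' m := by
  obtain ⟨h1, h2, h3, τ, h4, h5, h6, h7⟩ := h
  exact ⟨h1, h2, h3, τ, h4, h5, h6.congr ey, ex.symm.trans h7⟩

theorem Real.sm (h : K.Real r y x m) (a : Fixes σ K.p.1.car) :
    K.Real (σ • r) (y.sm σ) (x.sm σ) m := by
  obtain ⟨h1, h2, h3, τ, h4, h5, h6, h7⟩ := h
  refine ⟨h1, h2, h3, σ * τ, ?_, ?_, h6.sm σ, ?_⟩
  · rw [mul_smul]; exact smul_le h4
  · rw [Equiv.Perm.mul_apply, h5, fix_φ a]
  · rw [sm_mul]; exact h7.sm σ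

theorem Real.uniq (h : K.Real r y x m) (h' : K.Real r y x' m) : Eqv x x' r := by
  obtain ⟨h1, h2, h3, τ, h4, h5, h6, h7⟩ := h
  obtain ⟨_, _, _, τ', h4', h5', h6', h7'⟩ := h'
  refine h7.trans ((h3.two (fun u hu => ?_) h4 h4').trans h7'.symm)
  refine ((Cond.flat_eq h4 h4').dcl_subset ?_ hu).2
  rintro v (rfl | rfl)
  · exact ⟨h1, h5.trans h5'.symm⟩
  · exact ⟨h2, h6.uniq h6'⟩

theorem Sel.mono (h : K.Sel r y x) (a : r ≤ r') : K.Sel r' y x := by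
  obtain ⟨m, ⟨h1, h2⟩, h3⟩ := h
  exact ⟨m, ⟨h1.mono a, h2.mono a⟩, fun m' b t c => h3 m' b t (a.trans c)⟩

theorem Sel.congr (h : K.Sel r y x) (ey : Eqv y y' r) (ex : Eqv x x' r) : K.Sel r y' x' := by
  obtain ⟨m, ⟨h1, h2⟩, h3⟩ := h
  exact ⟨m, ⟨h1.congr ey ex, h2.congr ey ex⟩, fun m' b t c ⟨z, d, e, g⟩ => h3 m' b t c
    ⟨z, d, e.congr (ey.mono c).symm (Eqv.refl _ _), g.congr (ey.mono c).symm (Eqv.refl _ _)⟩⟩

theorem Sel.sm (h : K.Sel r y x) (a : Fixes σ K.p.1.car) :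
    K.Sel (σ • r) (y.sm σ) (x.sm σ) := by
  obtain ⟨m, ⟨h1, h2⟩, h3⟩ := h
  refine ⟨m, ⟨h1.sm a, h2.sm a⟩, fun m' b t c ⟨z, d, e, g⟩ => h3 m' b _ (smul_le_inv c) ?_⟩
  have e' := e.sm a.inv
  have g' := g.sm a.inv
  rw [sm_inv_sm] at e' g'
  exact ⟨_, d.sm σ⁻¹, e', g'⟩

theorem Sel.fn (h : K.Sel r y x) (h' : K.Sel r y x') (hx : HS x) (hx' : HS x') : Eqv x x' r := by
  obtain ⟨m, ⟨h1, h2⟩, h3⟩ := h
  obtain ⟨m', ⟨h1', h2'⟩, h3'⟩ := h'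
  obtain rfl := wo_eq (fun a => h3' _ a r le_rfl ⟨x, hx, h1, h2⟩)
    fun a => h3 _ a r le_rfl ⟨x', hx', h1', h2'⟩
  exact h2.uniq h2'

theorem Sel.good (h : K.Sel r y x) : K.Good r y x := by
  obtain ⟨_, ⟨h1, _⟩, _⟩ := h
  exact h1

theorem tot1 (hy : HS y) (a : K.p ≤ r) (h : Mem y K.Y r) :
    ∃ r', r ≤ r' ∧ ∃ x s u, HS x ∧ K.Good r' y x ∧ NLS y r' s ∧ NLS x r' u ∧
      u ∈ r'.1.dcl {K.φ, s} := by
  obtain ⟨q1, s, a1, b1⟩ := exists_NLS hy r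
  obtain ⟨q2, a2, x0, hx0, b2⟩ := K.sur y q1 hy (a.trans a1) (h.mono a1)
  obtain ⟨q3, u0, a3, b3⟩ := exists_NLS hx0 q2
  obtain ⟨q, a4, i0, b4⟩ := exists_blk K.hY (h.mono (a1.trans (a2.trans a3)))
  have rq : r ≤ q := a1.trans (a2.trans (a3.trans a4))
  have pq : K.p ≤ q := a.trans rq
  replace b1 := b1.mono (a2.trans (a3.trans a4))
  replace b2 := b2.mono (a3.trans a4)
  replace b3 := b3.mono a4
  have b5 := (K.fn.mem hx0 hy pq b2).1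
  have fc : ∀ σ : G, Fixes σ (q.1.B K.φ) → Fixes σ K.c := fun σ z u w => z u (K.cBq pq w)
  by_cases hs : s ∈ q.1.B K.φ
  · obtain ⟨σ, t, c1, c2, c3, c4⟩ := q.ownA (K.riq pq)
    have ey : Eqv (y.sm σ) y t := b1.2.1 σ t (fun u w => c1 u (mem_singleton_iff.1 w ▸ hs)) c2 c3
    have hu := c4 u0 b3.car
    refine ⟨t, rq.trans c2, x0.sm σ, s, σ u0, hx0.sm σ, ⟨pq.trans c2, h.mono (rq.trans c2),
      (b5.smE K.sX (fc σ c1)).mono c3, s, σ u0, b1.mono c2, (b3.sm σ).mono c3, Or.inl ⟨hu,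
        ((K.apS (fc σ c1) b2).mono c3).congr (Eqv.refl _ _) (Eqv.refl _ _) ey⟩⟩, b1.mono c2,
      (b3.sm σ).mono c3, fun L d1 d2 => t.2.B_dcl _ L d1 (d2 (mem_insert _ _)) hu⟩
  · have hu0 : u0 ∉ q.1.B K.φ := by
      intro hu
      refine hs (b1.2.2 q _ le_rfl (q.2.B_flat _ (K.riq pq)) fun σ t c1 c2 c3 => ?_)
      have ex : Eqv (x0.sm σ) x0 t :=
        b3.2.1 σ t (fun u w => c1 u (mem_singleton_iff.1 w ▸ hu)) c2 c3
      exact K.fn.fn x0 _ _ t hx0 (hy.sm σ) hy (pq.trans c2)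
        (((K.apS (fc σ c1) b2).mono c3).congr (Eqv.refl _ _) ex (Eqv.refl _ _)) (b2.mono c2)
    obtain ⟨σ, t, c1, c2, c3, c4, c5, c6⟩ := q.ownB (K.riq pq) b1.car b3.car hu0
    exact ⟨t, rq.trans c2, x0.sm σ, s, σ u0, hx0.sm σ, ⟨pq.trans c2, h.mono (rq.trans c2),
      (b5.smE K.sX (fc σ c1)).mono c3, s, σ u0, b1.mono c2, (b3.sm σ).mono c3, Or.inr ⟨c4, c5,
        y.sm σ, i0, hy.sm σ, (K.apS (fc σ c1) b2).mono c3, (b4.sm σ).mono c3, b4.mono c2⟩⟩,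
      b1.mono c2, (b3.sm σ).mono c3, c6⟩

theorem tot (hy : HS y) (a : K.p ≤ r) (h : Mem y K.Y r) :
    ∃ r', r ≤ r' ∧ ∃ x, HS x ∧ K.Sel r' y x := by
  have key : ∃ r', r ≤ r' ∧ ∃ m, ∃ x, HS x ∧ K.Good r' y x ∧ K.Real r' y x m := by
    obtain ⟨r1, a1, x, s, u, hx, b1, b2, b3, b4⟩ := tot1 hy a h
    obtain ⟨r2, a2, n, _, b5⟩ := b1.2.2.1 r1 le_rfl
    have c1 : K.φ ∈ r1.1.car := r1.2.ri_car (K.riq b1.1)
    have a0 := (Cond.le_def.1 a2).toLe0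
    refine ⟨r2, a1.trans a2, (r2, K.φ, s, n), x, hx, b1.mono a2, a0.car c1, a0.car b2.car, ?_,
      1, (one_smul G r2).le, rfl, b2.mono a2, ?_⟩
    · refine (b3.2.1.mono a2 (singleton_subset_iff.2 (a0.dcl_mono r1.2 ?_ b4))).congr b5
      rintro v (rfl | rfl)
      · exact c1
      · exact b2.car
    · rw [sm_one]; exact b5
  obtain ⟨r', b, m, ⟨x, hx, c⟩, d⟩ :=
    least (fun r m => ∃ x, HS x ∧ K.Good r y x ∧ K.Real r y x m) key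
  exact ⟨r', b, x, hx, m, c, d⟩

theorem main (K : Ctx) : ∃ j, HS j ∧ FnAt j K.Y K.X K.p ∧
    ∀ b b' a q', HS b → HS b' → HS a → K.p ≤ q' → Ap j b a q' → Ap j b' a q' → Eqv b b' q' := by
  obtain ⟨j, hj, k⟩ := comp_name (ι := K.Y.ι × K.X.ι) (fun d => op (K.Y.el d.1) (K.X.el d.2))
    (fun d => hs_op (K.hY.el d.1) (K.hX.el d.2))
    (fun z r => ∃ y x, HS y ∧ HS x ∧ K.Sel r y x ∧ Eqv z (op y x) r) K.p.2.small_car
    (fun z r r' ⟨y, x, a, b, c, d⟩ e => ⟨y, x, a, b, c.mono e, d.mono e⟩)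
    (fun z z' r ⟨y, x, a, b, c, d⟩ e => ⟨y, x, a, b, c, e.symm.trans d⟩)
    (fun σ z r e ⟨y, x, a, b, c, d⟩ => ⟨y.sm σ, x.sm σ, a.sm σ, b.sm σ, c.sm e,
      (d.sm σ).trans (op_sm y x σ _).symm⟩)
  have k2 := k K.p fun z r _ _ ⟨y, x, _, _, c, d⟩ => by
    obtain ⟨r1, a1, i, _, b1⟩ := c.good.2.1 r le_rfl
    obtain ⟨r2, a2, n, _, b2⟩ := c.good.2.2.1 r1 a1
    exact ⟨r2, a1.trans a2, (i, n), (d.mono (a1.trans a2)).trans (op_congr (b1.mono a2) b2)⟩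
  have k3 : ∀ y x r, HS y → HS x → K.p ≤ r → Ap j y x r → Dns r fun t => K.Sel t y x :=
    fun y x r hy hx a h => ((k2 _ r (hs_op hy hx) a).1 h).imp fun t _ ⟨_, _, _, _, c, d⟩ =>
      c.congr (op_inj d).1.symm (op_inj d).2.symm
  refine ⟨j, hj, ⟨fun z r hz a h => ?_, fun y r hy a h => ?_,
    fun y x x' r hy hx hx' a h h' => Eqv.reg fun t b => ?_⟩,
    fun y y' x r hy hy' hx a h h' => Eqv.reg fun t b => ?_⟩
  · obtain ⟨t, b, y, x, c1, c2, c3, c4⟩ := (k2 z r hz a).1 h r le_rfl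
    exact ⟨t, b, y, x, c1, c2, c3.good.2.1, c3.good.2.2.1, c4⟩
  · obtain ⟨t, b, x, hx, c⟩ := tot hy a h
    exact ⟨t, b, x, hx, (k2 _ t (hs_op hy hx) (a.trans b)).2
      (Dns.of_mono fun v d => ⟨y, x, hy, hx, c.mono d, Eqv.refl _ _⟩)⟩
  · obtain ⟨t1, c1, d1⟩ := k3 y x r hy hx a h t b
    obtain ⟨t2, c2, d2⟩ := k3 y x' r hy hx' a h' t1 (b.trans c1)
    exact ⟨t2, c1.trans c2, (d1.mono c2).fn d2 hx hx'⟩
  · obtain ⟨t1, c1, d1⟩ := k3 y x r hy hx a h t b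
    obtain ⟨t2, c2, d2⟩ := k3 y' x r hy' hx a h' t1 (b.trans c1)
    exact ⟨t2, c1.trans c2, (d1.mono c2).good.inj d2.good hx hy hy'⟩

end Ctx

end PPX

theorem extPP : ExtPP Cond := by
  intro X Y f p hX hY hf h1 h2
  obtain ⟨c, hc, hs⟩ := exists_sup (cons X (cons Y fun _ => f)) (hs_cons hX (hs_cons hY fun _ => hf))
  obtain ⟨p0, a0, b0⟩ := p.absorb c
  obtain ⟨p1, φ, a1, b1, b2⟩ := p0.rich
  have a : p ≤ p1 := a0.trans a1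
  exact ⟨p1, a, PPX.Ctx.main ⟨X, Y, f, p1, φ, c, hX, hY, hf, hs 0, hs 1, hs 2,
    ⟨fun z r hz b => h1.sub z r hz (a.trans b), fun z r hz b => h1.tot z r hz (a.trans b),
      fun x y y' r hx hy hy' b => h1.fn x y y' r hx hy hy' (a.trans b)⟩,
    fun y r hy b => h2 y r hy (a.trans b), b1, b2 ▸ b0⟩⟩

end Vale.Agent.P323
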