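import Vale.Agent.P323.Basic

/-! Restriction to a flat. -/

namespace Vale.Agent.P323

open Set

namespace Str

variable {p q r : Str} {e : Set U}

theorem flat_res (he : p.Flat e) {L : Set U} : (p.res e).Flat L ↔ p.Flat L ∧ L ⊆ e := by
  constructor
  · rintro ⟨a, b⟩
    refine ⟨⟨a.trans he.1, fun k t c => ?_⟩, a⟩
    have := b k _ ⟨t, c, rfl⟩
    rwa [Tup.pre_res, inter_eq_left.mpr (show L ⊆ e from a)] at this
  · rintro ⟨a, b⟩
    refine ⟨b, ?_⟩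
    rintro k _ ⟨t, c, rfl⟩
    rw [Tup.pre_res, inter_eq_left.mpr b]
    exact a.2 k t c

theorem act_res {k : Code} {v : U} : (p.res e).act k v ↔ p.act k v ∧ v ∈ e := by
  constructor
  · rintro ⟨_, i, ⟨t, a, rfl⟩, b⟩; exact ⟨⟨t, i, a, b.1⟩, b.2⟩
  · rintro ⟨⟨t, i, a, b⟩, c⟩; exact ⟨_, i, ⟨t, a, rfl⟩, b, c⟩

theorem own_res {w : Wa} {t : U} : (p.res e).own w t ↔ p.own w t ∧ w.In e ∧ t ∈ e := by
  constructor
  · rintro (a | ⟨k, rfl, a⟩)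
    · exact ⟨Or.inl a.1, a.2⟩
    · exact ⟨Or.inr ⟨k, rfl, (act_res.mp a).1⟩, (act_res.mp a).2, (act_res.mp a).2⟩
  · rintro ⟨a | ⟨k, rfl, a⟩, b⟩
    · exact Or.inl ⟨a, b⟩
    · exact Or.inr ⟨k, rfl, act_res.mpr ⟨a, b.2⟩⟩

/-- a watch whose head and some tagged atom lie in a flat lies in the flat -/
theorem Valid.in_of_head (hp : p.Valid) (he : p.Flat e) {w : Wa} {t : U} (h : p.tag w t)
    (hh : w.head ∈ e) (ht : t ∈ e) : w.In e := by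
  cases w with
  | g k v => exact hh
  | c φ s => exact ⟨hh, hp.cone φ s t e he h hh ht⟩

theorem Valid.res (hp : p.Valid) (he : p.Flat e) : (p.res e).Valid where
  small_car := by have := hp.small_car; exact small_subset he.1
  small_fa := by
    have := hp.small_fa
    refine small_subset (s := {o : U | ∃ k t, p.fa k t ∧ k.ix = o}) ?_
    rintro o ⟨k, _, ⟨t, a, _⟩, b⟩; exact ⟨k, t, a, b⟩
  small_lab := by
    have := hp.small_lab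
    refine small_subset (s := {o : U | ∃ u b, p.lab u o b}) ?_
    rintro o ⟨u, b, a⟩; exact ⟨u, b, a.1⟩
  fa_car := by rintro k _ i u ⟨t, _, rfl⟩ a; exact a.2
  ri_car := inter_subset_right
  ma_car := inter_subset_right
  B_ri ψ u a := ⟨hp.B_ri ψ u a.2, a.1⟩
  tag_car w u a := ⟨a.2.2, a.2.1⟩
  tag_act k v u a := act_res.mpr ⟨hp.tag_act k v u a.1, a.2.1⟩
  lab_car u o b a := a.2
  agr := by
    rintro k _ _ ⟨t, a, rfl⟩ ⟨t', b, rfl⟩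
    have e1 : (t.res e).agr (t'.res e) = t.agr t' ∩ t.pre e := by
      ext i; constructor
      · rintro ⟨u, x, y⟩; exact ⟨⟨u, x.1, y.1⟩, u, x.2, x.1⟩
      · rintro ⟨⟨u, x, y⟩, v, z, z'⟩
        obtain rfl := t.fn i _ _ x z'
        exact ⟨u, ⟨x, z⟩, y, z⟩
    rw [e1]; exact k.A_inter _ _ (hp.agr k t t' a b) (he.2 k t a)
  B_flat ψ a := by
    have e1 : (p.res e).B ψ = p.B ψ := by
      ext u; exact ⟨fun x => x.2, fun x => ⟨a.2, x⟩⟩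
    rw [e1]
    exact (flat_res he).mpr ⟨hp.B_flat ψ a.1, hp.B_dcl ψ e he a.2⟩
  B_irr ψ a := hp.B_irr ψ a.2
  B_dcl ψ L a b u c := hp.B_dcl ψ L ((flat_res he).mp a).1 b c.2
  germ := by
    rintro k _ L ⟨t, a, rfl⟩ b
    refine k.N_sub _ _ (hp.germ k t L a ((flat_res he).mp b).1) ?_
    rintro i ⟨v, x, y, u, z, z'⟩; exact ⟨v, x.1, y, u, z, z'.1⟩
  cone φ s u L a b c d := hp.cone φ s u L ((flat_res he).mp a).1 b.1 c d
  own_null := by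
    rintro ψ k _ a ⟨t, b, rfl⟩
    refine k.N_sub _ _ (hp.own_null ψ k t a.1 b) ?_
    rintro i ⟨v, x, y⟩; exact ⟨v, x.1, (own_res.mp y).1⟩
  head_B ψ w a b := hp.head_B ψ w a.1 b.2
  ma_eq u v a b c := hp.ma_eq u v a.1 b.1 fun L x => by
    have := c (L ∩ e) ((flat_res he).mpr ⟨x.inter he, inter_subset_right⟩)
    exact ⟨fun y => (this.mp ⟨y, a.2⟩).1, fun y => (this.mpr ⟨y, b.2⟩).1⟩
  lab_con u o a b := hp.lab_con u o a.1 b.1

theorem res_le0 (he : p.Flat e) : Le0 (p.res e) p where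
  car := he.1
  fa := by rintro k _ ⟨t, a, rfl⟩; exact ⟨t, a, t.res_sub e⟩
  ri u a := ⟨fun x => ⟨x, a⟩, fun x => x.1⟩
  ma u a := ⟨fun x => ⟨x, a⟩, fun x => x.1⟩
  B ψ u a _ := ⟨fun x => ⟨a.2, x⟩, fun x => x.2⟩
  tag w u a := a.1
  frozen k v u a b c := ⟨c, (act_res.mp a).2, b⟩
  lab u o b a := a.1
  cov k t' E a b c := k.N_sub _ _ (c _ ⟨t', a, rfl⟩) fun i hi => by
    obtain ⟨v, x, y⟩ := b i hi
    exact ⟨hi, v, ⟨x, (act_res.mp y).2⟩, x⟩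

theorem res_le (hp : p.Valid) (he : p.Flat e) : Le (p.res e) p :=
  le_of_flat (hp.res he) hp (res_le0 he) fun _ a => ((flat_res he).mp a).1

theorem res_res {W K : Set U} (h : K ⊆ W) : (p.res W).res K = p.res K := by
  have tr : ∀ t : Tup, (t.res W).res K = t.res K := fun t => by
    ext i u; exact ⟨fun x => ⟨x.1.1, x.2⟩, fun x => ⟨⟨x.1, h x.2⟩, x.2⟩⟩
  ext1
  · rfl
  · funext k t; apply propext; constructor
    · rintro ⟨_, ⟨t0, a, rfl⟩, rfl⟩; exact ⟨t0, a, tr t0⟩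
    · rintro ⟨t0, a, rfl⟩; exact ⟨_, ⟨t0, a, rfl⟩, (tr t0).symm⟩
  · ext u; exact ⟨fun x => ⟨x.1.1, x.2⟩, fun x => ⟨⟨x.1, h x.2⟩, x.2⟩⟩
  · ext u; exact ⟨fun x => ⟨x.1.1, x.2⟩, fun x => ⟨⟨x.1, h x.2⟩, x.2⟩⟩
  · funext ψ; ext u; exact ⟨fun x => ⟨x.1, x.2.2⟩, fun x => ⟨x.1, h x.1, x.2⟩⟩
  · funext w u; apply propext
    exact ⟨fun x => ⟨x.1.1, x.2⟩, fun x => ⟨⟨x.1, x.2.1.mono h, h x.2.2⟩, x.2⟩⟩
  · funext u o b; apply propext
    exact ⟨fun x => ⟨x.1.1, x.2⟩, fun x => ⟨⟨x.1, h x.2⟩, x.2⟩⟩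

end Str

end Vale.Agent.P323
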